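import Mathlib

/-!
Definitions for P358 (classical capacity of the generalized amplitude-damping channel).
-/

namespace Vale.Agent.GAD

open Matrix
open scoped ComplexOrder

/-- The generalized amplitude-damping channel (linear extension to all `2 × 2` matrices). -/
noncomputable def gad (γ ν : ℝ) (ρ : Matrix (Fin 2) (Fin 2) ℂ) : Matrix (Fin 2) (Fin 2) ℂ :=
  !![((1 - γ * ν : ℝ) : ℂ) * ρ 0 0 + ((γ * (1 - ν) : ℝ) : ℂ) * ρ 1 1,
      ((Real.sqrt (1 - γ) : ℝ) : ℂ) * ρ 0 1;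
     ((Real.sqrt (1 - γ) : ℝ) : ℂ) * ρ 1 0,
      ((γ * ν : ℝ) : ℂ) * ρ 0 0 + ((1 - γ * (1 - ν) : ℝ) : ℂ) * ρ 1 1]

/-- The `n`-fold tensor power of a linear map on `2 × 2` matrices, acting on matrices
indexed by `Fin n → Fin 2`. -/
noncomputable def tpow (Φ : Matrix (Fin 2) (Fin 2) ℂ → Matrix (Fin 2) (Fin 2) ℂ) (n : ℕ)
    (ρ : Matrix (Fin n → Fin 2) (Fin n → Fin 2) ℂ) :
    Matrix (Fin n → Fin 2) (Fin n → Fin 2) ℂ :=
  Matrix.of fun i j => ∑ k : Fin n → Fin 2, ∑ l : Fin n → Fin 2,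
    (∏ s, Φ (Matrix.single (k s) (l s) 1) (i s) (j s)) * ρ k l

/-- von Neumann entropy in bits (eigenvalues of a Hermitian matrix). -/
noncomputable def vnEntropy {ι : Type} [Fintype ι] [DecidableEq ι] (A : Matrix ι ι ℂ) : ℝ :=
  open Classical in
  if h : A.IsHermitian then (∑ i, Real.negMulLog (h.eigenvalues i)) / Real.log 2 else 0

/-- Density matrices. -/
def IsDensity {ι : Type} [Fintype ι] [DecidableEq ι] (ρ : Matrix ι ι ℂ) : Prop :=
  ρ.PosSemidef ∧ ρ.trace = 1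

/-- The set of all Holevo quantities of `n` uses of the channel. -/
def holevoSet (γ ν : ℝ) (n : ℕ) : Set ℝ :=
  {x | ∃ (m : ℕ) (p : Fin m → ℝ) (ρ : Fin m → Matrix (Fin n → Fin 2) (Fin n → Fin 2) ℂ),
    (∀ a, 0 ≤ p a) ∧ ∑ a, p a = 1 ∧ (∀ a, IsDensity (ρ a)) ∧
    x = vnEntropy (∑ a, (p a : ℂ) • tpow (gad γ ν) n (ρ a))
      - ∑ a, p a * vnEntropy (tpow (gad γ ν) n (ρ a))}

/-! Internal notions. -/

/-- Entropy in nats, through the roots of the characteristic polynomial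
(for a Hermitian matrix: sum of `-x log x` over the eigenvalues). -/
noncomputable def H {ι : Type} [Fintype ι] [DecidableEq ι] (A : Matrix ι ι ℂ) : ℝ :=
  (A.charpoly.roots.map fun z => Real.negMulLog z.re).sum

/-- `-x log x - y log y` for the roots `x, y` of `X ^ 2 - T X + d`. -/
noncomputable def H2 (T d : ℝ) : ℝ :=
  Real.negMulLog ((T + Real.sqrt (T ^ 2 - 4 * d)) / 2) +
    Real.negMulLog ((T - Real.sqrt (T ^ 2 - 4 * d)) / 2)

/-- squared Hilbert-Schmidt norm -/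
noncomputable def nsq {ι κ : Type} [Fintype ι] [Fintype κ] (a : Matrix ι κ ℂ) : ℝ :=
  ∑ i, ∑ j, ‖a i j‖ ^ 2

/-- (unnormalised) entanglement of the bipartite vector with coefficient matrix `a` -/
noncomputable def Ent {ι κ : Type} [Fintype ι] [Fintype κ] [DecidableEq ι]
    (a : Matrix ι κ ℂ) : ℝ :=
  H (a * aᴴ) - Real.negMulLog (nsq a)

/-- determinant of the output of the channel at the pure input with weights `x, y` -/
noncomputable def dl (γ ν x y : ℝ) : ℝ :=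
  γ * ((1 - ν) * (1 - γ * (1 - ν)) * y ^ 2 + ν * (1 - γ * ν) * x ^ 2
    + 2 * γ * ν * (1 - ν) * x * y)

/-- homogeneous version of the output entropy of pure inputs -/
noncomputable def fh (γ ν x y : ℝ) : ℝ := H2 (x + y) (dl γ ν x y) - Real.negMulLog (x + y)

/-- the output block matrix of `channel ⊗ id` on the vector `|0⟩ a + |1⟩ b` -/
noncomputable def tau (γ ν : ℝ) {ι κ : Type} [Fintype κ]
    (a b : Matrix ι κ ℂ) : Matrix (ι ⊕ ι) (ι ⊕ ι) ℂ :=
  fromBlocks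
    (((1 - γ * ν : ℝ) : ℂ) • (a * aᴴ) + ((γ * (1 - ν) : ℝ) : ℂ) • (b * bᴴ))
    (((Real.sqrt (1 - γ) : ℝ) : ℂ) • (a * bᴴ))
    (((Real.sqrt (1 - γ) : ℝ) : ℂ) • (b * aᴴ))
    (((γ * ν : ℝ) : ℂ) • (a * aᴴ) + ((1 - γ * (1 - ν) : ℝ) : ℂ) • (b * bᴴ))

/-- weight of the excited / ground state at site `s` -/
noncomputable def wt {n : ℕ} (ψ : (Fin n → Fin 2) → ℂ) (s : Fin n) (c : Fin 2) : ℝ :=
  ∑ i : Fin n → Fin 2, if i s = c then ‖ψ i‖ ^ 2 else 0

/-- the rank one matrix `ψ ψ†` -/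
noncomputable def proj {ι : Type} (ψ : ι → ℂ) : Matrix ι ι ℂ :=
  vecMulVec ψ (star ψ)

/-- the achievable rate (nats) of the two-state ensemble with excited population `q` -/
noncomputable def rate (γ ν q : ℝ) : ℝ :=
  Real.binEntropy ((1 - γ) * q + γ * ν) - H2 1 (dl γ ν (1 - q) q)

end Vale.Agent.GAD
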