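import Vale.Agent.GAD.Defs

/-!
P358: elementary facts on the squared Hilbert-Schmidt norm `nsq`.
-/

namespace Vale.Agent.GAD

open Matrix
open scoped ComplexOrder

section

variable {ι κ : Type} [Fintype ι] [Fintype κ]

lemma nsq_nonneg (a : Matrix ι κ ℂ) : 0 ≤ nsq a :=
  Finset.sum_nonneg fun _ _ => Finset.sum_nonneg fun _ _ => sq_nonneg _

omit [Fintype ι] in
lemma mul_conjTranspose_diag (a : Matrix ι κ ℂ) (i : ι) :
    (a * aᴴ) i i = ((∑ j, ‖a i j‖ ^ 2 : ℝ) : ℂ) := by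
  rw [Matrix.mul_apply]
  push_cast
  refine Finset.sum_congr rfl fun j _ => ?_
  rw [Matrix.conjTranspose_apply, ← Complex.ofReal_pow, ← Complex.normSq_eq_norm_sq,
    ← Complex.mul_conj]
  rfl

omit [Fintype κ] in
lemma conjTranspose_mul_diag (a : Matrix ι κ ℂ) (j : κ) :
    (aᴴ * a) j j = ((∑ i, ‖a i j‖ ^ 2 : ℝ) : ℂ) := by
  rw [Matrix.mul_apply]
  push_cast
  refine Finset.sum_congr rfl fun i _ => ?_
  rw [Matrix.conjTranspose_apply, ← Complex.ofReal_pow, ← Complex.normSq_eq_norm_sq,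
    ← Complex.mul_conj, mul_comm]
  rfl

lemma nsq_eq_sum_re (a : Matrix ι κ ℂ) : nsq a = ∑ i, ((a * aᴴ) i i).re := by
  unfold nsq
  refine Finset.sum_congr rfl fun i _ => ?_
  rw [mul_conjTranspose_diag, Complex.ofReal_re]

lemma nsq_eq_sum_re' (a : Matrix ι κ ℂ) : nsq a = ∑ j, ((aᴴ * a) j j).re := by
  unfold nsq
  rw [Finset.sum_comm]
  refine Finset.sum_congr rfl fun j _ => ?_
  rw [conjTranspose_mul_diag, Complex.ofReal_re]

lemma trace_mul_conjTranspose (a : Matrix ι κ ℂ) : (a * aᴴ).trace = ((nsq a : ℝ) : ℂ) := by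
  unfold Matrix.trace nsq
  push_cast
  refine Finset.sum_congr rfl fun i _ => ?_
  rw [Matrix.diag_apply, mul_conjTranspose_diag]
  push_cast
  rfl

lemma trace_conjTranspose_mul (a : Matrix ι κ ℂ) : (aᴴ * a).trace = ((nsq a : ℝ) : ℂ) := by
  rw [Matrix.trace_mul_comm, trace_mul_conjTranspose]

lemma nsq_smul (l : ℂ) (a : Matrix ι κ ℂ) : nsq (l • a) = ‖l‖ ^ 2 * nsq a := by
  unfold nsq
  rw [Finset.mul_sum]
  refine Finset.sum_congr rfl fun i _ => ?_
  rw [Finset.mul_sum]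
  refine Finset.sum_congr rfl fun j _ => ?_
  rw [Matrix.smul_apply, smul_eq_mul, norm_mul, mul_pow]

/-- expansion of the norm of a combination -/
lemma nsq_comb (l l' : ℂ) (a b : Matrix ι κ ℂ) :
    nsq (l • a + l' • b) = ‖l‖ ^ 2 * nsq a + ‖l'‖ ^ 2 * nsq b +
      2 * (l * (starRingEnd ℂ) l' * (a * bᴴ).trace).re := by
  have h0 : ((nsq (l • a + l' • b) : ℝ) : ℂ) =
      l * (starRingEnd ℂ) l * nsq a + l' * (starRingEnd ℂ) l' * nsq b +
      (l * (starRingEnd ℂ) l' * (a * bᴴ).trace +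
        (starRingEnd ℂ) (l * (starRingEnd ℂ) l' * (a * bᴴ).trace)) := by
    rw [← trace_mul_conjTranspose]
    have ht : (starRingEnd ℂ) ((a * bᴴ).trace) = (b * aᴴ).trace := by
      have := Matrix.trace_conjTranspose (a * bᴴ)
      rw [conjTranspose_mul, conjTranspose_conjTranspose] at this
      rw [this]
      rfl
    rw [map_mul, map_mul, ht, Complex.conj_conj]
    simp only [conjTranspose_add, conjTranspose_smul, Matrix.add_mul, Matrix.mul_add,
      Matrix.smul_mul, Matrix.mul_smul, Matrix.trace_add, Matrix.trace_smul, smul_eq_mul,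
      trace_mul_conjTranspose, RCLike.star_def]
    ring
  have h1 := congrArg Complex.re h0
  rw [Complex.ofReal_re, Complex.mul_conj, Complex.mul_conj] at h1
  rw [h1]
  simp only [Complex.add_re, Complex.conj_re, ← Complex.ofReal_mul, Complex.ofReal_re,
    Complex.normSq_eq_norm_sq]
  ring

end

end Vale.Agent.GAD
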