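import Vale.Agent.GAD.Defs

/-!
P358, part A: basic facts on the entropy `H`.
-/

namespace Vale.Agent.GAD

open Matrix
open scoped ComplexOrder

section basics

variable {ι κ : Type} [Fintype ι] [DecidableEq ι] [Fintype κ] [DecidableEq κ]

theorem H_eq_eigenvalues {A : Matrix ι ι ℂ} (hA : A.IsHermitian) :
    H A = ∑ i, Real.negMulLog (hA.eigenvalues i) := by
  unfold H
  rw [hA.roots_charpoly_eq_eigenvalues, Multiset.map_map]
  simp only [Function.comp_def]
  rfl

open Polynomial in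
theorem H_mul_comm (M : Matrix ι κ ℂ) (N : Matrix κ ι ℂ) : H (M * N) = H (N * M) := by
  have key : ∀ (k : ℕ) (p : ℂ[X]), p ≠ 0 →
      ((X ^ k * p).roots.map fun z : ℂ => Real.negMulLog z.re).sum =
        (p.roots.map fun z : ℂ => Real.negMulLog z.re).sum := by
    intro k p hp
    rw [Polynomial.roots_mul (mul_ne_zero (pow_ne_zero _ X_ne_zero) hp), Multiset.map_add,
      Multiset.sum_add, Polynomial.roots_X_pow, Multiset.map_nsmul, Multiset.sum_nsmul]
    simp
  have h := Matrix.charpoly_mul_comm' M N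
  unfold H
  rw [← key (Fintype.card κ) _ (Matrix.charpoly_monic _).ne_zero, h,
    key (Fintype.card ι) _ (Matrix.charpoly_monic _).ne_zero]

theorem H_reindex (e : κ ≃ ι) (A : Matrix ι ι ℂ) : H (A.submatrix e e) = H A := by
  have h := Matrix.charpoly_reindex e.symm A
  unfold H
  rw [← h]
  rfl

theorem H_unitary {U : Matrix ι ι ℂ} (hU : Uᴴ * U = 1) (A : Matrix ι ι ℂ) :
    H (U * A * Uᴴ) = H A := by
  rw [H_mul_comm, ← Matrix.mul_assoc, hU, Matrix.one_mul]

open Polynomial in
theorem H_fromBlocks (A : Matrix ι ι ℂ) (D : Matrix κ κ ℂ) :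
    H (fromBlocks A 0 0 D) = H A + H D := by
  unfold H
  rw [Matrix.charpoly_fromBlocks_zero₁₂,
    Polynomial.roots_mul (mul_ne_zero (Matrix.charpoly_monic _).ne_zero
      (Matrix.charpoly_monic _).ne_zero), Multiset.map_add, Multiset.sum_add]

open Polynomial in
theorem H_diagonal (d : ι → ℝ) :
    H (diagonal fun i => (d i : ℂ)) = ∑ i, Real.negMulLog (d i) := by
  unfold H
  rw [Matrix.charpoly_diagonal, Polynomial.roots_prod _ _
    (Finset.prod_ne_zero_iff.2 fun i _ => Polynomial.X_sub_C_ne_zero _)]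
  simp

theorem H_zero : H (0 : Matrix ι ι ℂ) = 0 := by
  have := H_diagonal (fun _ : ι => (0 : ℝ))
  simpa using this

/-- spectral theorem in matrix form -/
theorem exists_unitary_diag {A : Matrix ι ι ℂ} (hA : A.IsHermitian) :
    ∃ U : Matrix ι ι ℂ, Uᴴ * U = 1 ∧ U * Uᴴ = 1 ∧
      A = U * diagonal (fun i => (hA.eigenvalues i : ℂ)) * Uᴴ := by
  refine ⟨hA.eigenvectorUnitary, ?_, ?_, ?_⟩
  · exact (Matrix.mem_unitaryGroup_iff').1 hA.eigenvectorUnitary.2
  · exact (Matrix.mem_unitaryGroup_iff).1 hA.eigenvectorUnitary.2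
  · exact hA.spectral_theorem

theorem H_smul {t : ℝ} (_ht : 0 ≤ t) {A : Matrix ι ι ℂ} (hA : A.PosSemidef) :
    H ((t : ℂ) • A) = t * H A + Real.negMulLog t * A.trace.re := by
  have hH := hA.isHermitian
  obtain ⟨U, hU, hU', hd⟩ := exists_unitary_diag hH
  have h1 : (t : ℂ) • A = U * diagonal (fun i => ((t * hH.eigenvalues i : ℝ) : ℂ)) * Uᴴ := by
    conv_lhs => rw [hd]
    rw [← Matrix.smul_mul, ← Matrix.mul_smul, ← diagonal_smul]
    congr 3
    ext i
    simp
  have h2 : A.trace.re = ∑ i, hH.eigenvalues i := by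
    rw [hH.trace_eq_sum_eigenvalues]
    simp
  rw [h1, H_unitary hU, H_diagonal, H_eq_eigenvalues hH, h2, Finset.mul_sum, Finset.mul_sum,
    ← Finset.sum_add_distrib]
  refine Finset.sum_congr rfl fun i _ => ?_
  rw [Real.negMulLog_mul]
  ring

theorem H_fin_two {A : Matrix (Fin 2) (Fin 2) ℂ} (hA : A.PosSemidef) :
    H A = H2 A.trace.re A.det.re := by
  have hH := hA.isHermitian
  have h1 : A.trace.re = hH.eigenvalues 0 + hH.eigenvalues 1 := by
    rw [hH.trace_eq_sum_eigenvalues]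
    simp
  have h2 : A.det.re = hH.eigenvalues 0 * hH.eigenvalues 1 := by
    rw [hH.det_eq_prod_eigenvalues]
    simp
  rw [H_eq_eigenvalues hH, h1, h2, Fin.sum_univ_two]
  unfold H2
  generalize hH.eigenvalues 0 = a
  generalize hH.eigenvalues 1 = b
  have h3 : (a + b) ^ 2 - 4 * (a * b) = (a - b) ^ 2 := by ring
  rw [h3, Real.sqrt_sq_eq_abs]
  rcases le_total b a with h | h
  · rw [abs_of_nonneg (by linarith)]
    congr 2 <;> ring
  · rw [abs_of_nonpos (by linarith), add_comm]
    congr 2 <;> ring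

/-- determinant through the eigenvalues -/
theorem det_add_eigenvalues {A : Matrix ι ι ℂ} (hA : A.IsHermitian) (y : ℝ) :
    ((y : ℂ) • (1 : Matrix ι ι ℂ) + A).det = ((∏ i, (y + hA.eigenvalues i) : ℝ) : ℂ) := by
  obtain ⟨U, hU, hU', hd⟩ := exists_unitary_diag hA
  have h1 : (y : ℂ) • (1 : Matrix ι ι ℂ) + A =
      U * diagonal (fun i => ((y + hA.eigenvalues i : ℝ) : ℂ)) * Uᴴ := by
    have e : diagonal (fun i => ((y + hA.eigenvalues i : ℝ) : ℂ)) =
        (y : ℂ) • (1 : Matrix ι ι ℂ) + diagonal (fun i => (hA.eigenvalues i : ℂ)) := by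
      rw [← diagonal_one, ← diagonal_smul, diagonal_add]
      congr 1
      ext i
      simp
    rw [e, Matrix.mul_add, Matrix.add_mul, ← hd, Matrix.mul_smul, Matrix.smul_mul,
      Matrix.mul_one, hU']
  rw [h1, det_mul, det_mul, mul_comm U.det, mul_assoc, ← det_mul, hU', det_one, mul_one,
    det_diagonal]
  push_cast
  rfl

end basics

end Vale.Agent.GAD
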