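import Vale.Agent.GAD.PartA

/-!
# P358, part B: pinching and concavity of the entropy
-/

namespace Vale.Agent.GAD

open Matrix
open scoped ComplexOrder

section

variable {ι : Type} [Fintype ι] [DecidableEq ι]

theorem normSq_row_sum {U : Matrix ι ι ℂ} (hU : U * Uᴴ = 1) (i : ι) :
    ∑ j, ‖U i j‖ ^ 2 = 1 := by
  have h := congrFun (congrFun hU i) i
  rw [Matrix.mul_apply, Matrix.one_apply_eq] at h
  have h2 : ∀ j, U i j * Uᴴ j i = ((‖U i j‖ ^ 2 : ℝ) : ℂ) := by
    intro j
    rw [conjTranspose_apply, Complex.star_def, Complex.mul_conj, Complex.normSq_eq_norm_sq]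
  simp only [h2] at h
  exact_mod_cast h

theorem normSq_col_sum {U : Matrix ι ι ℂ} (hU : Uᴴ * U = 1) (j : ι) :
    ∑ i, ‖U i j‖ ^ 2 = 1 := by
  have h := congrFun (congrFun hU j) j
  rw [Matrix.mul_apply, Matrix.one_apply_eq] at h
  have h2 : ∀ i, Uᴴ j i * U i j = ((‖U i j‖ ^ 2 : ℝ) : ℂ) := by
    intro i
    rw [conjTranspose_apply, Complex.star_def, mul_comm, Complex.mul_conj,
      Complex.normSq_eq_norm_sq]
  simp only [h2] at h
  exact_mod_cast h

theorem H_le_diag {A : Matrix ι ι ℂ} (hA : A.PosSemidef) :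
    H A ≤ ∑ i, Real.negMulLog (A i i).re := by
  have hH := hA.isHermitian
  obtain ⟨U, hU, hU', hd⟩ := exists_unitary_diag hH
  have hdiag : ∀ i, (A i i).re = ∑ j, ‖U i j‖ ^ 2 * hH.eigenvalues j := by
    intro i
    have h1 : A i i = ((∑ j, ‖U i j‖ ^ 2 * hH.eigenvalues j : ℝ) : ℂ) := by
      conv_lhs => rw [hd]
      rw [Matrix.mul_apply]
      push_cast
      refine Finset.sum_congr rfl fun j _ => ?_
      rw [mul_diagonal, conjTranspose_apply, Complex.star_def, mul_right_comm, Complex.mul_conj,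
        Complex.normSq_eq_norm_sq]
      push_cast
      ring
    rw [h1, Complex.ofReal_re]
  have hnn : ∀ j, 0 ≤ hH.eigenvalues j := fun j => hA.eigenvalues_nonneg j
  rw [H_eq_eigenvalues hH]
  calc ∑ j, Real.negMulLog (hH.eigenvalues j)
      = ∑ j, (∑ i, ‖U i j‖ ^ 2) * Real.negMulLog (hH.eigenvalues j) := by
        refine Finset.sum_congr rfl fun j _ => ?_
        rw [normSq_col_sum hU, one_mul]
    _ = ∑ i, ∑ j, ‖U i j‖ ^ 2 * Real.negMulLog (hH.eigenvalues j) := by
        simp only [Finset.sum_mul]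
        rw [Finset.sum_comm]
    _ ≤ ∑ i, Real.negMulLog (A i i).re := by
        refine Finset.sum_le_sum fun i _ => ?_
        rw [hdiag i]
        have := Real.concaveOn_negMulLog.le_map_sum (t := Finset.univ)
          (w := fun j => ‖U i j‖ ^ 2) (p := fun j => hH.eigenvalues j)
          (fun j _ => by positivity) (normSq_row_sum hU' i) (fun j _ => hnn j)
        simpa only [smul_eq_mul] using this

theorem H_concave {m : ℕ} (p : Fin m → ℝ) (hp : ∀ a, 0 ≤ p a) (h1 : ∑ a, p a = 1)
    (A : Fin m → Matrix ι ι ℂ) (hA : ∀ a, (A a).PosSemidef) :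
    ∑ a, p a * H (A a) ≤ H (∑ a, (p a : ℂ) • A a) := by
  have hBp : (∑ a, (p a : ℂ) • A a).PosSemidef := by
    apply posSemidef_sum
    intro a _
    exact (hA a).smul (by exact_mod_cast hp a)
  have hH := hBp.isHermitian
  obtain ⟨U, hU, hU', hd⟩ := exists_unitary_diag hH
  have hpos : ∀ a, (Uᴴ * A a * U).PosSemidef := fun a =>
    (hA a).conjTranspose_mul_mul_same U
  have hHa : ∀ a, H (Uᴴ * A a * U) = H (A a) := by
    intro a
    have := H_unitary (U := Uᴴ) (by rw [conjTranspose_conjTranspose]; exact hU') (A a)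
    rwa [conjTranspose_conjTranspose] at this
  have hdiag : ∀ i, hH.eigenvalues i = ∑ a, p a * ((Uᴴ * A a * U) i i).re := by
    intro i
    have h2 : Uᴴ * (∑ a, (p a : ℂ) • A a) * U =
        diagonal (fun i => (hH.eigenvalues i : ℂ)) := by
      conv_lhs => rw [hd]
      rw [Matrix.mul_assoc, Matrix.mul_assoc, Matrix.mul_assoc, hU, Matrix.mul_one,
        ← Matrix.mul_assoc, hU, Matrix.one_mul]
    have h3 := congrFun (congrFun h2 i) i
    rw [diagonal_apply_eq, Matrix.mul_sum, Matrix.sum_mul, Matrix.sum_apply] at h3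
    have h4 := congrArg Complex.re h3
    rw [Complex.ofReal_re, Complex.re_sum] at h4
    rw [← h4]
    refine Finset.sum_congr rfl fun a _ => ?_
    rw [Matrix.mul_smul, Matrix.smul_mul, Matrix.smul_apply, smul_eq_mul, Complex.re_ofReal_mul]
  have hnn : ∀ a i, 0 ≤ ((Uᴴ * A a * U) i i).re := fun a i =>
    (Complex.le_def.1 (hpos a).diag_nonneg).1
  calc ∑ a, p a * H (A a) = ∑ a, p a * H (Uᴴ * A a * U) := by simp only [hHa]
    _ ≤ ∑ a, p a * ∑ i, Real.negMulLog ((Uᴴ * A a * U) i i).re :=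
        Finset.sum_le_sum fun a _ => mul_le_mul_of_nonneg_left (H_le_diag (hpos a)) (hp a)
    _ = ∑ i, ∑ a, p a * Real.negMulLog ((Uᴴ * A a * U) i i).re := by
        simp only [Finset.mul_sum]
        rw [Finset.sum_comm]
    _ ≤ ∑ i, Real.negMulLog (hH.eigenvalues i) := by
        refine Finset.sum_le_sum fun i _ => ?_
        rw [hdiag i]
        have := Real.concaveOn_negMulLog.le_map_sum (t := Finset.univ)
          (w := p) (p := fun a => ((Uᴴ * A a * U) i i).re)
          (fun a _ => hp a) h1 (fun a _ => hnn a i)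
        simpa only [smul_eq_mul] using this
    _ = H (∑ a, (p a : ℂ) • A a) := (H_eq_eigenvalues hH).symm

end

end Vale.Agent.GAD
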