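import Mathlib
import Vale.Agent.GAD.Defs

/-!
# P358, part C: comparison of entropies from comparison of logarithms
-/

namespace Vale.Agent.GAD

open Set

theorem sum_negMulLog_nonneg {α : Type} [Fintype α] (ε l : α → ℝ) (hl : ∀ i, 0 ≤ l i)
    (h0 : ∑ i, ε i = 0) (h1 : ∑ i, ε i * l i = 0)
    (h : ∀ y : ℝ, 0 < y → 0 ≤ ∑ i, ε i * Real.log (y + l i)) :
    0 ≤ ∑ i, ε i * Real.negMulLog (l i) := by
  set F : ℝ → ℝ := fun R => ∑ i, ε i * (-Real.negMulLog (R + l i)) with hF
  have hcont : Continuous F := by
    rw [hF]
    fun_prop
  have hder : ∀ R : ℝ, 0 < R → HasDerivAt F (∑ i, ε i * (Real.log (R + l i) + 1)) R := by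
    intro R hR
    rw [hF]
    apply HasDerivAt.fun_sum
    intro i _
    have hne : R + l i ≠ 0 := by
      have := hl i
      positivity
    have h2 := (Real.hasDerivAt_negMulLog hne).neg
    have h3 : HasDerivAt (fun R : ℝ => R + l i) 1 R := (hasDerivAt_id R).add_const _
    have h4 := (h2.comp R h3).const_mul (ε i)
    refine h4.congr_deriv ?_
    ring
  have hmono : MonotoneOn F (Ici 0) := by
    apply monotoneOn_of_deriv_nonneg (convex_Ici 0) hcont.continuousOn
    · intro R hR
      rw [interior_Ici] at hR
      exact (hder R hR).differentiableAt.differentiableWithinAt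
    · intro R hR
      rw [interior_Ici] at hR
      rw [(hder R hR).deriv]
      have h2 : ∑ i, ε i * (Real.log (R + l i) + 1) = ∑ i, ε i * Real.log (R + l i) + ∑ i, ε i := by
        rw [← Finset.sum_add_distrib]
        apply Finset.sum_congr rfl
        intro i _
        ring
      rw [h2, h0, add_zero]
      exact h R hR
  have hup : ∀ R : ℝ, 0 < R → F R ≤ (∑ i, |ε i| * l i ^ 2) / R := by
    intro R hR
    have h2 : ∀ i, ε i * (-Real.negMulLog (R + l i)) =
        ε i * ((R + l i) * Real.log (1 + l i / R)) + (Real.log R * R) * ε i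
          + Real.log R * (ε i * l i) := by
      intro i
      have hne : R + l i ≠ 0 := by
        have := hl i
        positivity
      have h3 : R + l i = R * (1 + l i / R) := by field_simp
      have h4 : Real.log (R + l i) = Real.log R + Real.log (1 + l i / R) := by
        have hli := hl i
        rw [h3, Real.log_mul hR.ne' (by positivity)]
      unfold Real.negMulLog
      rw [h4]
      ring
    have h5 : F R = ∑ i, ε i * ((R + l i) * Real.log (1 + l i / R)) := by
      rw [hF]
      simp only
      rw [Finset.sum_congr rfl (fun i _ => h2 i), Finset.sum_add_distrib, Finset.sum_add_distrib,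
        ← Finset.mul_sum, ← Finset.mul_sum, h0, h1]
      ring
    have h6 : F R = ∑ i, ε i * ((R + l i) * Real.log (1 + l i / R) - l i) := by
      have h7 : ∑ i, ε i * ((R + l i) * Real.log (1 + l i / R) - l i) =
          ∑ i, ε i * ((R + l i) * Real.log (1 + l i / R)) - ∑ i, ε i * l i := by
        rw [← Finset.sum_sub_distrib]
        apply Finset.sum_congr rfl
        intro i _
        ring
      rw [h5, h7, h1, sub_zero]
    rw [h6, Finset.sum_div]
    apply Finset.sum_le_sum
    intro i _
    have hli := hl i
    have hx : 0 ≤ l i / R := div_nonneg hli hR.le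
    have hlo : 0 ≤ (R + l i) * Real.log (1 + l i / R) - l i := by
      have h8 := Real.one_sub_inv_le_log_of_pos (show 0 < 1 + l i / R by positivity)
      have h9 : (R + l i) * (1 - (1 + l i / R)⁻¹) = l i := by
        field_simp
        ring
      have h10 := mul_le_mul_of_nonneg_left h8 (show 0 ≤ R + l i by positivity)
      linarith
    have hhi : (R + l i) * Real.log (1 + l i / R) - l i ≤ l i ^ 2 / R := by
      have h8 := Real.log_le_sub_one_of_pos (show 0 < 1 + l i / R by positivity)
      have h9 : (R + l i) * ((1 + l i / R) - 1) = l i + l i ^ 2 / R := by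
        field_simp
        ring
      have h10 := mul_le_mul_of_nonneg_left h8 (show 0 ≤ R + l i by positivity)
      linarith
    calc ε i * ((R + l i) * Real.log (1 + l i / R) - l i)
        ≤ |ε i| * ((R + l i) * Real.log (1 + l i / R) - l i) := by
          apply mul_le_mul_of_nonneg_right (le_abs_self _) hlo
      _ ≤ |ε i| * (l i ^ 2 / R) := by
          apply mul_le_mul_of_nonneg_left hhi (abs_nonneg _)
      _ = |ε i| * l i ^ 2 / R := by ring
  have hF0 : F 0 ≤ 0 := by
    set K := ∑ i, |ε i| * l i ^ 2 with hK
    have hK0 : 0 ≤ K := Finset.sum_nonneg (fun i _ => by positivity)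
    apply le_of_forall_pos_le_add
    intro δ hδ
    have hR : 0 < (K + 1) / δ := by positivity
    have h2 := hmono (mem_Ici.2 (le_refl (0 : ℝ))) (mem_Ici.2 hR.le) hR.le
    have h3 := hup _ hR
    have h4 : K / ((K + 1) / δ) ≤ δ := by
      rw [div_le_iff₀ hR]
      have : δ * ((K + 1) / δ) = K + 1 := by field_simp
      linarith
    linarith
  have h2 : F 0 = -∑ i, ε i * Real.negMulLog (l i) := by
    rw [hF]
    simp only [zero_add]
    rw [← Finset.sum_neg_distrib]
    apply Finset.sum_congr rfl
    intro i _
    ring
  linarith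

end Vale.Agent.GAD
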