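import Vale.Agent.GAD.Defs

/-!
# P358, part D: a determinant inequality
-/

namespace Vale.Agent.GAD

open Matrix
open scoped ComplexOrder

/-- Schur complement of the last index -/
theorem detineq_schur {κ : Type} [Fintype κ] [DecidableEq κ]
    (N : Matrix (κ ⊕ Fin 1) (κ ⊕ Fin 1) ℂ) (hN : N.PosDef) :
    ∃ σ : ℝ, 0 < σ ∧ N.det.re = N.toBlocks₁₁.det.re * σ ∧
      (∀ x : κ → ℂ, σ ≤ (star (Sum.elim x 1) ⬝ᵥ N *ᵥ (Sum.elim x 1)).re) ∧
      (∃ x : κ → ℂ, (star (Sum.elim x 1) ⬝ᵥ N *ᵥ (Sum.elim x 1)).re = σ) := by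
  set A := N.toBlocks₁₁ with hA
  set B := N.toBlocks₁₂ with hB
  set D := N.toBlocks₂₂ with hD
  have hAp : A.PosDef := hN.submatrix Sum.inl_injective
  have hC : N.toBlocks₂₁ = Bᴴ := by
    ext i j
    have := hN.1.apply (Sum.inr i) (Sum.inl j)
    simp only [toBlocks₂₁, hB, toBlocks₁₂, conjTranspose_apply, of_apply]
    exact this.symm
  have hNb : N = fromBlocks A B Bᴴ D := by
    rw [← hC, hA, hB, hD, fromBlocks_toBlocks]
  have : Invertible A := hAp.isUnit.invertible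
  set S := D - Bᴴ * A⁻¹ * B with hS
  have hquad : ∀ x : κ → ℂ, star (Sum.elim x 1) ⬝ᵥ N *ᵥ (Sum.elim x 1) =
      star (x + (A⁻¹ * B) *ᵥ (1 : Fin 1 → ℂ)) ⬝ᵥ A *ᵥ (x + (A⁻¹ * B) *ᵥ (1 : Fin 1 → ℂ))
        + S 0 0 := by
    intro x
    have h := schur_complement_eq₁₁ B D x (1 : Fin 1 → ℂ) hAp.1
    rw [← hNb, ← dotProduct_mulVec, ← dotProduct_mulVec, ← dotProduct_mulVec] at h
    rw [h]
    congr 1
    simp [dotProduct, mulVec, hS]
  have hex : star (Sum.elim (-((A⁻¹ * B) *ᵥ (1 : Fin 1 → ℂ))) 1) ⬝ᵥ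
      N *ᵥ (Sum.elim (-((A⁻¹ * B) *ᵥ (1 : Fin 1 → ℂ))) 1) = S 0 0 := by
    rw [hquad]
    simp
  have hne : (Sum.elim (-((A⁻¹ * B) *ᵥ (1 : Fin 1 → ℂ))) (1 : Fin 1 → ℂ)) ≠ 0 := by
    intro h
    have := congrFun h (Sum.inr 0)
    simp at this
  have hpos : 0 < S 0 0 := by
    rw [← hex]
    exact hN.dotProduct_mulVec_pos hne
  have hre : 0 < (S 0 0).re := (Complex.lt_def.1 hpos).1
  have him : (S 0 0).im = 0 := ((Complex.lt_def.1 hpos).2).symm
  refine ⟨(S 0 0).re, hre, ?_, ?_, ⟨_, congrArg Complex.re hex⟩⟩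
  · have hdet : N.det = A.det * S 0 0 := by
      rw [hNb, det_fromBlocks₁₁, invOf_eq_nonsing_inv, ← hS, det_fin_one S]
    rw [hdet, Complex.mul_re, him]
    simp
  · intro x
    rw [hquad, Complex.add_re]
    have := (Complex.le_def.1 (hAp.posSemidef.dotProduct_mulVec_nonneg
      (x + (A⁻¹ * B) *ᵥ (1 : Fin 1 → ℂ)))).1
    simp only [Complex.zero_re] at this
    linarith

/-- the statement of the determinant inequality in the form suited for the induction -/
def DetIneq (κ : Type) [Fintype κ] [DecidableEq κ] : Prop :=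
  ∀ (N Q : Matrix κ κ ℂ) (t : κ → ℝ), N.PosDef → Q.PosSemidef → (∀ k, 0 ≤ t k) →
    (∀ (x : κ → ℂ) (k : κ), t k * ‖x k‖ ^ 2 ≤ (star x ⬝ᵥ Q *ᵥ x).re) →
    N.det.re * ∏ k, (1 + t k / (N k k).re) ≤ (N + Q).det.re

theorem detIneq_step (κ : Type) [Fintype κ] [DecidableEq κ] (h : DetIneq κ) :
    DetIneq (κ ⊕ Fin 1) := by
  intro N Q t hN hQ ht hq
  have hM : (N + Q).PosDef := hN.add_posSemidef hQ
  obtain ⟨σN, hσN, hdetN, hminN, -⟩ := detineq_schur N hN
  obtain ⟨σM, hσM, hdetM, -, x, hx⟩ := detineq_schur (N + Q) hM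
  have hNp : N.toBlocks₁₁.PosDef := hN.submatrix Sum.inl_injective
  have hQp : Q.toBlocks₁₁.PosSemidef := hQ.submatrix Sum.inl
  have hMb : (N + Q).toBlocks₁₁ = N.toBlocks₁₁ + Q.toBlocks₁₁ := by
    ext i j
    simp [toBlocks₁₁]
  have hstep := h N.toBlocks₁₁ Q.toBlocks₁₁ (fun k => t (Sum.inl k)) hNp hQp (fun k => ht _) (by
    intro y k
    have h1 := hq (Sum.elim y 0) (Sum.inl k)
    have h2 : star (Sum.elim y (0 : Fin 1 → ℂ)) ⬝ᵥ Q *ᵥ (Sum.elim y (0 : Fin 1 → ℂ)) =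
        star y ⬝ᵥ Q.toBlocks₁₁ *ᵥ y := by
      simp [dotProduct, mulVec, Fintype.sum_sum_type, toBlocks₁₁]
    rw [h2] at h1
    simpa using h1)
  have hσ : σN + t (Sum.inr 0) ≤ σM := by
    rw [← hx, add_mulVec, dotProduct_add, Complex.add_re]
    have h1 := hminN x
    have h2 := hq (Sum.elim x 1) (Sum.inr 0)
    simp only [Sum.elim_inr, Pi.one_apply, norm_one, one_pow, mul_one] at h2
    linarith
  have hσ2 : σN ≤ (N (Sum.inr 0) (Sum.inr 0)).re := by
    have h1 := hminN 0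
    have h2 : star (Sum.elim (0 : κ → ℂ) (1 : Fin 1 → ℂ)) ⬝ᵥ
        N *ᵥ (Sum.elim (0 : κ → ℂ) (1 : Fin 1 → ℂ)) = N (Sum.inr 0) (Sum.inr 0) := by
      simp [dotProduct, mulVec, Fintype.sum_sum_type]
    rw [h2] at h1
    exact h1
  have hdetNp : 0 < N.toBlocks₁₁.det.re := (Complex.lt_def.1 hNp.det_pos).1
  have hprod : 0 ≤ ∏ k, (1 + t (Sum.inl k) / (N.toBlocks₁₁ k k).re) := by
    apply Finset.prod_nonneg
    intro k _
    have h1 : 0 < (N.toBlocks₁₁ k k).re := (Complex.lt_def.1 hNp.diag_pos).1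
    have h2 := ht (Sum.inl k)
    positivity
  rw [hdetN, hdetM, hMb, Fintype.prod_sum_type]
  simp only [Finset.univ_unique, Fin.default_eq_zero, Finset.prod_singleton, Fin.isValue]
  have hlast : σN * (1 + t (Sum.inr 0) / (N (Sum.inr 0) (Sum.inr 0)).re) ≤ σM := by
    have h1 : σN * (t (Sum.inr 0) / (N (Sum.inr 0) (Sum.inr 0)).re) ≤ t (Sum.inr 0) := by
      rw [mul_div_assoc', div_le_iff₀ (lt_of_lt_of_le hσN hσ2), mul_comm]
      exact mul_le_mul_of_nonneg_left hσ2 (ht _)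
    rw [mul_add, mul_one]
    linarith
  calc N.toBlocks₁₁.det.re * σN * ((∏ x, (1 + t (Sum.inl x) / (N (Sum.inl x) (Sum.inl x)).re)) *
        (1 + t (Sum.inr 0) / (N (Sum.inr 0) (Sum.inr 0)).re))
      = (N.toBlocks₁₁.det.re * ∏ k, (1 + t (Sum.inl k) / (N.toBlocks₁₁ k k).re)) *
        (σN * (1 + t (Sum.inr 0) / (N (Sum.inr 0) (Sum.inr 0)).re)) := by
          simp only [toBlocks₁₁, of_apply]
          ring
    _ ≤ (N.toBlocks₁₁.det.re * ∏ k, (1 + t (Sum.inl k) / (N.toBlocks₁₁ k k).re)) * σM :=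
          mul_le_mul_of_nonneg_left hlast (mul_nonneg hdetNp.le hprod)
    _ ≤ (N.toBlocks₁₁ + Q.toBlocks₁₁).det.re * σM :=
          mul_le_mul_of_nonneg_right hstep hσM.le

theorem detIneq_equiv {κ ι : Type} [Fintype κ] [DecidableEq κ] [Fintype ι] [DecidableEq ι]
    (e : κ ≃ ι) (h : DetIneq κ) : DetIneq ι := by
  intro N Q t hN hQ ht hq
  have h1 := h (N.submatrix e e) (Q.submatrix e e) (fun k => t (e k))
    (hN.submatrix e.injective) (hQ.submatrix e) (fun k => ht _) (by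
      intro x k
      have h2 := hq (fun i => x (e.symm i)) (e k)
      simp only [Equiv.symm_apply_apply] at h2
      refine h2.trans (le_of_eq ?_)
      congr 1
      simp only [dotProduct, mulVec, submatrix_apply, Pi.star_apply]
      rw [← e.sum_comp]
      simp only [Equiv.symm_apply_apply]
      refine Finset.sum_congr rfl fun i _ => ?_
      congr 1
      rw [← e.sum_comp]
      simp)
  have h3 : N.submatrix e e + Q.submatrix e e = (N + Q).submatrix e e := by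
    ext i j
    simp
  rw [h3, det_submatrix_equiv_self, det_submatrix_equiv_self] at h1
  simp only [submatrix_apply] at h1
  rw [e.prod_comp (fun k => 1 + t k / (N k k).re)] at h1
  exact h1

theorem detIneq_fin (n : ℕ) : DetIneq (Fin n) := by
  induction n with
  | zero =>
    intro N Q t _ _ _ _
    simp
  | succ n ih => exact detIneq_equiv finSumFinEquiv (detIneq_step (Fin n) ih)

theorem detIneq_all (ι : Type) [Fintype ι] [DecidableEq ι] : DetIneq ι :=
  detIneq_equiv (Fintype.equivFin ι).symm (detIneq_fin _)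

/-- `|v k|² ≤ (v* P⁻¹ v) P k k` -/
theorem norm_sq_le_inv {ι : Type} [Fintype ι] [DecidableEq ι] {P : Matrix ι ι ℂ}
    (hP : P.PosDef) (v : ι → ℂ) (k : ι) :
    ‖v k‖ ^ 2 / (P k k).re ≤ (star v ⬝ᵥ P⁻¹ *ᵥ v).re := by
  have hk : 0 < P k k := hP.diag_pos
  have hkre : 0 < (P k k).re := (Complex.lt_def.1 hk).1
  have hkim : (P k k).im = 0 := ((Complex.lt_def.1 hk).2).symm
  have hkeq : P k k = ((P k k).re : ℂ) := by
    apply Complex.ext <;> simp [hkim]
  obtain ⟨w, hw⟩ : ∃ w, w = P⁻¹ *ᵥ v := ⟨_, rfl⟩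
  have hPw : P *ᵥ w = v := by
    rw [hw, mulVec_mulVec, mul_nonsing_inv _ ((isUnit_iff_isUnit_det _).1 hP.isUnit), one_mulVec]
  rw [← hw]
  have hsv : star w ᵥ* P = star v := by
    rw [← hPw, star_mulVec, hP.1.eq]
  set c : ℂ := v k / ((P k k).re : ℂ) with hc
  have hz := hP.posSemidef.dotProduct_mulVec_nonneg (w - c • Pi.single k 1)
  have hvw : star v ⬝ᵥ w = star w ⬝ᵥ P *ᵥ w := by
    rw [dotProduct_mulVec, hsv]
  have hz2 : star (w - c • Pi.single k 1) ⬝ᵥ P *ᵥ (w - c • Pi.single k 1) =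
      star v ⬝ᵥ w - ((‖v k‖ ^ 2 / (P k k).re : ℝ) : ℂ) := by
    rw [mulVec_sub, hPw, star_sub, sub_dotProduct, dotProduct_sub, dotProduct_sub]
    have e1 : star w ⬝ᵥ v = star v ⬝ᵥ w := by
      rw [hvw, hPw]
    have e2 : star w ⬝ᵥ P *ᵥ (c • Pi.single k 1) = c * star (v k) := by
      rw [dotProduct_mulVec, hsv]
      simp [mul_comm]
    have e3 : star (c • Pi.single k (1 : ℂ)) ⬝ᵥ v = star c * v k := by
      have : star (c • (Pi.single k (1 : ℂ) : ι → ℂ)) = Pi.single k (star c) := by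
        ext i
        by_cases hi : i = k
        · subst hi; simp
        · simp [hi]
      rw [this, single_dotProduct]
    have e4 : star (c • Pi.single k (1 : ℂ)) ⬝ᵥ P *ᵥ (c • Pi.single k (1 : ℂ)) =
        star c * (c * P k k) := by
      have : star (c • (Pi.single k (1 : ℂ) : ι → ℂ)) = Pi.single k (star c) := by
        ext i
        by_cases hi : i = k
        · subst hi; simp
        · simp [hi]
      rw [this, single_dotProduct, mulVec_smul]
      simp
    rw [e1, e2, e3, e4, hkeq]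
    have hne : ((P k k).re : ℂ) ≠ 0 := by exact_mod_cast hkre.ne'
    have hc1 : c * star (v k) = ((‖v k‖ ^ 2 / (P k k).re : ℝ) : ℂ) := by
      rw [hc, div_mul_eq_mul_div, Complex.star_def, Complex.mul_conj, Complex.normSq_eq_norm_sq]
      push_cast
      rfl
    have hc2 : star c * v k = ((‖v k‖ ^ 2 / (P k k).re : ℝ) : ℂ) := by
      have : star (c * star (v k)) = star c * v k := by
        rw [star_mul', star_star]
      rw [← this, hc1, Complex.star_def, Complex.conj_ofReal]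
    have hc3 : star c * (c * ((P k k).re : ℂ)) = ((‖v k‖ ^ 2 / (P k k).re : ℝ) : ℂ) := by
      have : c * ((P k k).re : ℂ) = v k := by
        rw [hc, div_mul_cancel₀ _ hne]
      rw [this, hc2]
    rw [Complex.ofReal_re, hc1, hc2, hc3]
    ring
  rw [hz2] at hz
  have := (Complex.le_def.1 hz).1
  rw [Complex.sub_re, Complex.ofReal_re, Complex.zero_re] at this
  linarith

theorem det_ineq {ι : Type} [Fintype ι] [DecidableEq ι] {P1 P2 : Matrix ι ι ℂ}
    (h1 : P1.PosDef) (h2 : P2.PosDef) (s : ι → ℝ) (hs : ∀ k, 0 ≤ s k) :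
    P2.det.re * ∏ k, (1 + s k ^ 2 / ((P1 k k).re * (P2 k k).re)) ≤
      (P2 + diagonal (fun k => (s k : ℂ)) * P1⁻¹ * diagonal (fun k => (s k : ℂ))).det.re := by
  have hS : (diagonal (fun k => (s k : ℂ)))ᴴ = diagonal (fun k => (s k : ℂ)) := by
    rw [diagonal_conjTranspose]
    congr 1
    ext k
    simp
  have hQ : (diagonal (fun k => (s k : ℂ)) * P1⁻¹ * diagonal (fun k => (s k : ℂ))).PosSemidef := by
    have := h1.inv.posSemidef.mul_mul_conjTranspose_same (diagonal (fun k => (s k : ℂ)))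
    rwa [hS] at this
  have h := detIneq_all ι P2 _ (fun k => s k ^ 2 / (P1 k k).re) h2 hQ (fun k => by
      have : 0 < (P1 k k).re := (Complex.lt_def.1 h1.diag_pos).1
      positivity) (by
    intro x k
    have h3 := norm_sq_le_inv h1 (diagonal (fun k => (s k : ℂ)) *ᵥ x) k
    have h4 : star (diagonal (fun k => (s k : ℂ)) *ᵥ x) ⬝ᵥ
        P1⁻¹ *ᵥ (diagonal (fun k => (s k : ℂ)) *ᵥ x) =
        star x ⬝ᵥ (diagonal (fun k => (s k : ℂ)) * P1⁻¹ * diagonal (fun k => (s k : ℂ))) *ᵥ x := by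
      rw [star_mulVec, hS, ← dotProduct_mulVec, mulVec_mulVec, mulVec_mulVec, Matrix.mul_assoc]
    rw [h4] at h3
    refine le_trans (le_of_eq ?_) h3
    rw [mulVec_diagonal, norm_mul, mul_pow, Complex.norm_real, Real.norm_eq_abs, sq_abs]
    ring)
  refine le_trans (le_of_eq ?_) h
  congr 1
  refine Finset.prod_congr rfl fun k _ => ?_
  rw [div_div]

end Vale.Agent.GAD
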