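import Mathlib
import Vale.Agent.GAD.Defs

/-!
# P358, part E3: subadditivity of `fh`
-/

namespace Vale.Agent.GAD

open Set

/-- the entropy as a function of the concurrence -/
noncomputable def e3K (C : ℝ) : ℝ := Real.binEntropy ((1 + Real.sqrt (1 - C ^ 2)) / 2)

theorem e3_log (s : ℝ) (h0 : 0 < s) (h1 : s < 1) :
    2 * s ≤ Real.log (1 + s) - Real.log (1 - s) := by
  have h := Real.hasSum_log_sub_log_of_abs_lt_one (x := s) (by rw [abs_of_pos h0]; exact h1)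
  have h2 := sum_le_hasSum (Finset.range 1) (fun k _ => by positivity) h
  simpa using h2

theorem e3K_continuous : Continuous e3K := by
  unfold e3K
  fun_prop

theorem e3K_hasDerivAt (C : ℝ) (h0 : 0 < C) (h1 : C < 1) :
    HasDerivAt e3K (C / (2 * Real.sqrt (1 - C ^ 2)) *
      (Real.log (1 + Real.sqrt (1 - C ^ 2)) - Real.log (1 - Real.sqrt (1 - C ^ 2)))) C := by
  have hpos : 0 < 1 - C ^ 2 := by nlinarith
  set s := Real.sqrt (1 - C ^ 2) with hs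
  have hs0 : 0 < s := Real.sqrt_pos.2 hpos
  have hs1 : s < 1 := by
    rw [hs, Real.sqrt_lt' one_pos]
    nlinarith
  have hd1 : HasDerivAt (fun C : ℝ => 1 - C ^ 2) (-(2 * C)) C := by
    have := ((hasDerivAt_pow 2 C).const_sub 1)
    simpa using this
  have hd2 : HasDerivAt (fun C : ℝ => Real.sqrt (1 - C ^ 2)) (-(2 * C) / (2 * s)) C :=
    hd1.sqrt hpos.ne'
  have hd3 : HasDerivAt (fun C : ℝ => (1 + Real.sqrt (1 - C ^ 2)) / 2) ((-(2 * C) / (2 * s)) / 2)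
      C := (hd2.const_add 1).div_const 2
  have hp0 : (1 + s) / 2 ≠ 0 := by positivity
  have hp1 : (1 + s) / 2 ≠ 1 := by
    intro h
    linarith
  have hd4 := (Real.hasDerivAt_binEntropy hp0 hp1).comp C hd3
  have hval : (Real.log (1 - (1 + s) / 2) - Real.log ((1 + s) / 2)) * ((-(2 * C) / (2 * s)) / 2) =
      C / (2 * s) * (Real.log (1 + s) - Real.log (1 - s)) := by
    have e1 : 1 - (1 + s) / 2 = (1 - s) / 2 := by ring
    rw [e1, Real.log_div (by linarith) (by norm_num), Real.log_div (by linarith) (by norm_num)]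
    field_simp
    ring
  rw [← hval]
  exact hd4

/-- the derivative in the variable `s` -/
noncomputable def e3phi (s : ℝ) : ℝ :=
  Real.sqrt (1 - s ^ 2) / (2 * s) * (Real.log (1 + s) - Real.log (1 - s))

theorem e3phi_hasDerivAt (s : ℝ) (h0 : 0 < s) (h1 : s < 1) :
    HasDerivAt e3phi ((2 * s - (Real.log (1 + s) - Real.log (1 - s))) /
      (2 * s ^ 2 * Real.sqrt (1 - s ^ 2))) s := by
  have hpos : 0 < 1 - s ^ 2 := by nlinarith
  set c := Real.sqrt (1 - s ^ 2) with hc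
  have hc0 : 0 < c := Real.sqrt_pos.2 hpos
  have hc2 : c ^ 2 = 1 - s ^ 2 := Real.sq_sqrt hpos.le
  have hd1 : HasDerivAt (fun s : ℝ => 1 - s ^ 2) (-(2 * s)) s := by
    have := ((hasDerivAt_pow 2 s).const_sub 1)
    simpa using this
  have hd2 : HasDerivAt (fun s : ℝ => Real.sqrt (1 - s ^ 2)) (-(2 * s) / (2 * c)) s :=
    hd1.sqrt hpos.ne'
  have hd3 : HasDerivAt (fun s : ℝ => 2 * s) 2 s := by
    simpa using (hasDerivAt_id s).const_mul 2
  have hd4 := hd2.div hd3 (by positivity)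
  have hd5 : HasDerivAt (fun s : ℝ => Real.log (1 + s) - Real.log (1 - s))
      (1 / (1 + s) - (-1) / (1 - s)) s := by
    have a1 : HasDerivAt (fun s : ℝ => 1 + s) 1 s := (hasDerivAt_id s).const_add 1
    have a2 : HasDerivAt (fun s : ℝ => 1 - s) (-1) s := (hasDerivAt_id s).const_sub 1
    exact (a1.log (by positivity)).sub (a2.log (by linarith))
  have hd6 := hd4.mul hd5
  refine hd6.congr_deriv ?_
  have h1s : (1 - s) ≠ 0 := by linarith
  have h1s' : (1 + s) ≠ 0 := by positivity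
  have hprod : (1 + s) * (1 - s) = c ^ 2 := by rw [hc2]; ring
  have e1 : 1 / (1 + s) - (-1) / (1 - s) = 2 / c ^ 2 := by
    rw [← hprod]
    field_simp
    ring
  simp only [Pi.div_apply]
  rw [e1]
  set L := Real.log (1 + s) - Real.log (1 - s) with hL
  rw [← hc]
  field_simp
  linear_combination (-L) * hc2

theorem e3phi_anti : AntitoneOn e3phi (Ioo 0 1) := by
  apply antitoneOn_of_deriv_nonpos (convex_Ioo 0 1)
  · intro s hs
    exact (e3phi_hasDerivAt s hs.1 hs.2).continuousAt.continuousWithinAt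
  · intro s hs
    rw [interior_Ioo] at hs
    exact (e3phi_hasDerivAt s hs.1 hs.2).differentiableAt.differentiableWithinAt
  · intro s hs
    rw [interior_Ioo] at hs
    rw [(e3phi_hasDerivAt s hs.1 hs.2).deriv]
    apply div_nonpos_of_nonpos_of_nonneg
    · have := e3_log s hs.1 hs.2
      linarith
    · have : 0 ≤ Real.sqrt (1 - s ^ 2) := Real.sqrt_nonneg _
      positivity

theorem e3K_deriv (C : ℝ) (h0 : 0 < C) (h1 : C < 1) :
    deriv e3K C = e3phi (Real.sqrt (1 - C ^ 2)) := by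
  rw [(e3K_hasDerivAt C h0 h1).deriv]
  unfold e3phi
  have hpos : 0 < 1 - C ^ 2 := by nlinarith
  rw [Real.sq_sqrt hpos.le]
  have : Real.sqrt (1 - (1 - C ^ 2)) = C := by
    rw [show 1 - (1 - C ^ 2) = C ^ 2 by ring, Real.sqrt_sq h0.le]
  rw [this]

theorem e3_s (C : ℝ) (h0 : 0 < C) (h1 : C < 1) : Real.sqrt (1 - C ^ 2) ∈ Ioo (0 : ℝ) 1 := by
  have hpos : 0 < 1 - C ^ 2 := by nlinarith
  refine ⟨Real.sqrt_pos.2 hpos, ?_⟩
  rw [Real.sqrt_lt' one_pos]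
  nlinarith

theorem e3K_convex : ConvexOn ℝ (Icc 0 1) e3K := by
  apply MonotoneOn.convexOn_of_deriv (convex_Icc 0 1) e3K_continuous.continuousOn
  · intro C hC
    rw [interior_Icc] at hC
    exact (e3K_hasDerivAt C hC.1 hC.2).differentiableAt.differentiableWithinAt
  · intro C hC C' hC' hCC
    rw [interior_Icc] at hC hC'
    rw [e3K_deriv C hC.1 hC.2, e3K_deriv C' hC'.1 hC'.2]
    apply e3phi_anti (e3_s C' hC'.1 hC'.2) (e3_s C hC.1 hC.2)
    apply Real.sqrt_le_sqrt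
    have := hC.1
    nlinarith

theorem e3K_mono : MonotoneOn e3K (Icc 0 1) := by
  apply monotoneOn_of_deriv_nonneg (convex_Icc 0 1) e3K_continuous.continuousOn
  · intro C hC
    rw [interior_Icc] at hC
    exact (e3K_hasDerivAt C hC.1 hC.2).differentiableAt.differentiableWithinAt
  · intro C hC
    rw [interior_Icc] at hC
    rw [e3K_deriv C hC.1 hC.2]
    obtain ⟨hs0, hs1⟩ := e3_s C hC.1 hC.2
    unfold e3phi
    have h1 := e3_log _ hs0 hs1
    have h2 : 0 ≤ Real.sqrt (1 - Real.sqrt (1 - C ^ 2) ^ 2) := Real.sqrt_nonneg _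
    have h3 : 0 ≤ Real.log (1 + Real.sqrt (1 - C ^ 2)) - Real.log (1 - Real.sqrt (1 - C ^ 2)) := by
      linarith
    positivity

/-- the concurrence as a function of the population -/
noncomputable def e3C (γ ν q : ℝ) : ℝ := 2 * Real.sqrt (dl γ ν (1 - q) q)

theorem e3_dl (γ ν q : ℝ) : dl γ ν (1 - q) q = γ * (1 - γ) * (q - ν) ^ 2 + γ * ν * (1 - ν) := by
  unfold dl
  ring

theorem e3C_convex {γ ν : ℝ} (hγ : 0 ≤ γ) (hγ1 : γ ≤ 1) (hν : 0 ≤ ν) (hν1 : ν ≤ 1) :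
    ConvexOn ℝ (Icc 0 1) (e3C γ ν) := by
  have hA : 0 ≤ γ * (1 - γ) := mul_nonneg hγ (by linarith)
  have hB : 0 ≤ γ * ν * (1 - ν) := mul_nonneg (mul_nonneg hγ hν) (by linarith)
  set α := Real.sqrt (γ * (1 - γ)) with hα
  set β := Real.sqrt (γ * ν * (1 - ν)) with hβ
  have hα2 : α ^ 2 = γ * (1 - γ) := Real.sq_sqrt hA
  have hβ2 : β ^ 2 = γ * ν * (1 - ν) := Real.sq_sqrt hB
  have hnorm : ∀ q : ℝ, e3C γ ν q = 2 * ‖(⟨α * (q - ν), β⟩ : ℂ)‖ := by
    intro q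
    unfold e3C
    rw [e3_dl, Complex.norm_def, Complex.normSq_mk]
    congr 2
    rw [← hα2, ← hβ2]
    ring
  refine ⟨convex_Icc 0 1, ?_⟩
  intro q _ q' _ a b ha hb hab
  simp only [smul_eq_mul]
  rw [hnorm, hnorm, hnorm]
  have h1 : (⟨α * (a * q + b * q' - ν), β⟩ : ℂ) =
      (a : ℂ) * ⟨α * (q - ν), β⟩ + (b : ℂ) * ⟨α * (q' - ν), β⟩ := by
    apply Complex.ext
    · simp
      have : ν = a * ν + b * ν := by rw [← add_mul, hab, one_mul]
      linear_combination (-α) * this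
    · simp
      linear_combination (-β) * hab
  rw [h1]
  have h2 := norm_add_le ((a : ℂ) * ⟨α * (q - ν), β⟩) ((b : ℂ) * ⟨α * (q' - ν), β⟩)
  rw [norm_mul, norm_mul, Complex.norm_of_nonneg ha, Complex.norm_of_nonneg hb] at h2
  linarith

theorem e3_dl_le {γ ν q : ℝ} (hγ : 0 ≤ γ) (hγ1 : γ ≤ 1) (hν : 0 ≤ ν) (hν1 : ν ≤ 1)
    (hq0 : 0 ≤ q) (hq1 : q ≤ 1) :
    0 ≤ dl γ ν (1 - q) q ∧ 4 * dl γ ν (1 - q) q ≤ 1 := by
  rw [e3_dl]
  have hA : 0 ≤ γ * (1 - γ) := mul_nonneg hγ (by linarith)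
  have hB : 0 ≤ γ * ν * (1 - ν) := mul_nonneg (mul_nonneg hγ hν) (by linarith)
  refine ⟨by positivity, ?_⟩
  have h4 : 4 * (γ * (1 - γ)) ≤ 1 := by nlinarith [sq_nonneg (1 - 2 * γ)]
  -- `4 det = 1 - (Bloch vector)^2`
  have hz : 4 * (γ * (1 - γ) * (q - ν) ^ 2 + γ * ν * (1 - ν)) =
      1 - (1 - 2 * ((1 - γ) * q + γ * ν)) ^ 2 - 4 * (1 - γ) * (q * (1 - q)) := by
    ring
  rw [hz]
  have h5 : 0 ≤ (1 - γ) * (q * (1 - q)) := by
    apply mul_nonneg (by linarith)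
    exact mul_nonneg hq0 (by linarith)
  nlinarith [sq_nonneg (1 - 2 * ((1 - γ) * q + γ * ν))]

theorem e3C_mem {γ ν q : ℝ} (hγ : 0 ≤ γ) (hγ1 : γ ≤ 1) (hν : 0 ≤ ν) (hν1 : ν ≤ 1)
    (hq0 : 0 ≤ q) (hq1 : q ≤ 1) : e3C γ ν q ∈ Icc (0 : ℝ) 1 := by
  obtain ⟨h1, h2⟩ := e3_dl_le hγ hγ1 hν hν1 hq0 hq1
  unfold e3C
  refine ⟨by positivity, ?_⟩
  have h3 : Real.sqrt (dl γ ν (1 - q) q) ≤ 1 / 2 := by
    rw [Real.sqrt_le_left (by norm_num)]
    linarith
  linarith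

theorem e3_H2 {γ ν q : ℝ} (hγ : 0 ≤ γ) (hγ1 : γ ≤ 1) (hν : 0 ≤ ν) (hν1 : ν ≤ 1)
    (hq0 : 0 ≤ q) (hq1 : q ≤ 1) : H2 1 (dl γ ν (1 - q) q) = e3K (e3C γ ν q) := by
  obtain ⟨h1, _⟩ := e3_dl_le hγ hγ1 hν hν1 hq0 hq1
  unfold H2 e3K e3C
  rw [mul_pow, Real.sq_sqrt h1, Real.binEntropy_eq_negMulLog_add_negMulLog_one_sub]
  have e1 : (1 : ℝ) ^ 2 - 4 * dl γ ν (1 - q) q = 1 - 2 ^ 2 * dl γ ν (1 - q) q := by ring
  rw [e1]
  congr 2
  ring

theorem e3_F_convex {γ ν : ℝ} (hγ : 0 ≤ γ) (hγ1 : γ ≤ 1) (hν : 0 ≤ ν) (hν1 : ν ≤ 1) :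
    ConvexOn ℝ (Icc 0 1) (fun q => H2 1 (dl γ ν (1 - q) q)) := by
  refine ⟨convex_Icc 0 1, ?_⟩
  intro q hq q' hq' a b ha hb hab
  have hmem : a • q + b • q' ∈ Icc (0 : ℝ) 1 := convex_Icc 0 1 hq hq' ha hb hab
  have h1 := e3_H2 hγ hγ1 hν hν1 hq.1 hq.2
  have h2 := e3_H2 hγ hγ1 hν hν1 hq'.1 hq'.2
  have h3 := e3_H2 hγ hγ1 hν hν1 hmem.1 hmem.2
  simp only
  rw [h1, h2, h3]
  have hc := (e3C_convex hγ hγ1 hν hν1).2 hq hq' ha hb hab
  have m0 := e3C_mem hγ hγ1 hν hν1 hmem.1 hmem.2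
  have m1 := e3C_mem hγ hγ1 hν hν1 hq.1 hq.2
  have m2 := e3C_mem hγ hγ1 hν hν1 hq'.1 hq'.2
  have m3 : a • e3C γ ν q + b • e3C γ ν q' ∈ Icc (0 : ℝ) 1 := convex_Icc 0 1 m1 m2 ha hb hab
  exact (e3K_mono m0 m3 hc).trans (e3K_convex.2 m1 m2 ha hb hab)

theorem e3_fh {γ ν x y : ℝ} (h : 0 < x + y) :
    fh γ ν x y = (x + y) * H2 1 (dl γ ν (1 - y / (x + y)) (y / (x + y))) := by
  set t := x + y with ht
  set q := y / t with hq
  have hy : y = t * q := by rw [hq]; field_simp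
  have hx : x = t * (1 - q) := by rw [hq]; field_simp; linarith
  have hdl : dl γ ν x y = t ^ 2 * dl γ ν (1 - q) q := by
    rw [hx, hy]
    unfold dl
    ring
  unfold fh
  rw [← ht, hdl]
  unfold H2
  set δ := dl γ ν (1 - q) q with hδ
  have hs : Real.sqrt (t ^ 2 - 4 * (t ^ 2 * δ)) = t * Real.sqrt (1 ^ 2 - 4 * δ) := by
    rw [show t ^ 2 - 4 * (t ^ 2 * δ) = t ^ 2 * (1 ^ 2 - 4 * δ) by ring,
      Real.sqrt_mul (sq_nonneg t), Real.sqrt_sq h.le]
  rw [hs]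
  set r := Real.sqrt (1 ^ 2 - 4 * δ) with hr
  rw [show (t + t * r) / 2 = t * ((1 + r) / 2) by ring,
    show (t - t * r) / 2 = t * ((1 - r) / 2) by ring, Real.negMulLog_mul, Real.negMulLog_mul]
  ring

theorem e3_fh_zero {γ ν x y : ℝ} (hx : 0 ≤ x) (hy : 0 ≤ y) (h : x + y = 0) :
    fh γ ν x y = 0 := by
  have h1 : x = 0 := by linarith
  have h2 : y = 0 := by linarith
  subst h1 h2
  unfold fh H2 dl
  simp

/-- E3: subadditivity of `fh`. -/
theorem fh_subadd {γ ν : ℝ} (hγ : 0 ≤ γ) (hγ1 : γ ≤ 1) (hν : 0 ≤ ν) (hν1 : ν ≤ 1)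
    {α : Type} [Fintype α] (x y : α → ℝ) (hx : ∀ k, 0 ≤ x k) (hy : ∀ k, 0 ≤ y k) :
    fh γ ν (∑ k, x k) (∑ k, y k) ≤ ∑ k, fh γ ν (x k) (y k) := by
  classical
  have hX : 0 ≤ ∑ k, x k := Finset.sum_nonneg (fun k _ => hx k)
  have hY : 0 ≤ ∑ k, y k := Finset.sum_nonneg (fun k _ => hy k)
  rcases (add_nonneg hX hY).lt_or_eq with hT | hT
  · set T := ∑ k, x k + ∑ k, y k with hTdef
    have hfk : ∀ k, fh γ ν (x k) (y k) = T * ((x k + y k) / T *
        H2 1 (dl γ ν (1 - y k / (x k + y k)) (y k / (x k + y k)))) := by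
      intro k
      rcases (add_nonneg (hx k) (hy k)).lt_or_eq with hk | hk
      · rw [e3_fh hk]
        field_simp
      · rw [e3_fh_zero (hx k) (hy k) hk.symm, ← hk]
        simp
    rw [Finset.sum_congr rfl (fun k _ => hfk k), ← Finset.mul_sum, e3_fh hT, ← hTdef]
    apply mul_le_mul_of_nonneg_left _ hT.le
    have hJ := (e3_F_convex hγ hγ1 hν hν1).map_sum_le (t := Finset.univ)
      (w := fun k => (x k + y k) / T) (p := fun k => y k / (x k + y k))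
      (fun k _ => div_nonneg (add_nonneg (hx k) (hy k)) hT.le)
      (by rw [← Finset.sum_div, Finset.sum_add_distrib]; exact div_self hT.ne')
      (fun k _ => ⟨div_nonneg (hy k) (add_nonneg (hx k) (hy k)),
        div_le_one_of_le₀ (by linarith [hx k]) (add_nonneg (hx k) (hy k))⟩)
    have hmean : ∑ k, ((x k + y k) / T) • (y k / (x k + y k)) = (∑ k, y k) / T := by
      rw [Finset.sum_div]
      apply Finset.sum_congr rfl
      intro k _
      rw [smul_eq_mul]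
      rcases (add_nonneg (hx k) (hy k)).lt_or_eq with hk | hk
      · field_simp
      · have : y k = 0 := by linarith [hx k, hy k]
        rw [this]
        simp
    rw [hmean] at hJ
    simpa [smul_eq_mul] using hJ
  · rw [e3_fh_zero hX hY hT.symm]
    apply Finset.sum_nonneg
    intro k _
    have hk : x k + y k = 0 := by
      have h1 : x k ≤ ∑ k, x k := Finset.single_le_sum (fun k _ => hx k) (Finset.mem_univ k)
      have h2 : y k ≤ ∑ k, y k := Finset.single_le_sum (fun k _ => hy k) (Finset.mem_univ k)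
      linarith [hx k, hy k]
    rw [e3_fh_zero (hx k) (hy k) hk]

end Vale.Agent.GAD
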