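import Mathlib
import Vale.Agent.GAD.PartE3

/-!
# P358, part E1: elementary properties of `H2` and `dl`
-/

namespace Vale.Agent.GAD

open Set

/-- E1 (easy): homogeneity -/
theorem H2_smul {t T d : ℝ} (ht : 0 ≤ t) (_hT : 0 ≤ T) (_hd : 0 ≤ d) (_h : 4 * d ≤ T ^ 2) :
    H2 (t * T) (t ^ 2 * d) = t * H2 T d + Real.negMulLog t * T := by
  unfold H2
  have hs : Real.sqrt ((t * T) ^ 2 - 4 * (t ^ 2 * d)) = t * Real.sqrt (T ^ 2 - 4 * d) := by
    rw [show (t * T) ^ 2 - 4 * (t ^ 2 * d) = t ^ 2 * (T ^ 2 - 4 * d) by ring,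
      Real.sqrt_mul (sq_nonneg t), Real.sqrt_sq ht]
  rw [hs]
  set r := Real.sqrt (T ^ 2 - 4 * d) with hr
  rw [show (t * T + t * r) / 2 = t * ((T + r) / 2) by ring,
    show (t * T - t * r) / 2 = t * ((T - r) / 2) by ring, Real.negMulLog_mul, Real.negMulLog_mul]
  ring

/-- E1 (easy) -/
theorem H2_mono {T d d' : ℝ} (hT : 0 ≤ T) (hd : 0 ≤ d) (h : d ≤ d') (h' : 4 * d' ≤ T ^ 2) :
    H2 T d ≤ H2 T d' := by
  rcases hT.lt_or_eq with hT | hT
  · have key : ∀ e : ℝ, 0 ≤ e → 4 * e ≤ T ^ 2 →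
        H2 T e = T * e3K (2 * Real.sqrt e / T) + Real.negMulLog T := by
      intro e he he'
      have h1 := H2_smul (t := T) (T := 1) (d := e / T ^ 2) hT.le zero_le_one (by positivity)
        (by rw [one_pow, mul_div_assoc', div_le_one (by positivity)]; exact he')
      have h2 : T ^ 2 * (e / T ^ 2) = e := by field_simp
      rw [mul_one, h2, mul_one] at h1
      rw [h1]
      congr 2
      unfold H2 e3K
      rw [div_pow, mul_pow, Real.sq_sqrt he, Real.binEntropy_eq_negMulLog_add_negMulLog_one_sub]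
      have e1 : (1 : ℝ) ^ 2 - 4 * (e / T ^ 2) = 1 - 2 ^ 2 * e / T ^ 2 := by ring
      rw [e1]
      congr 2
      ring
    rw [key d hd (by linarith), key d' (hd.trans h) h']
    have hmem : ∀ e : ℝ, 0 ≤ e → 4 * e ≤ T ^ 2 → 2 * Real.sqrt e / T ∈ Icc (0 : ℝ) 1 := by
      intro e he he'
      refine ⟨by positivity, ?_⟩
      rw [div_le_one hT]
      have h1 : Real.sqrt e ≤ T / 2 := by
        rw [Real.sqrt_le_left (by positivity)]
        nlinarith
      linarith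
    have hm := e3K_mono (hmem d hd (by linarith)) (hmem d' (hd.trans h) h') (by
      apply div_le_div_of_nonneg_right _ hT.le
      have := Real.sqrt_le_sqrt h
      linarith)
    have := mul_le_mul_of_nonneg_left hm hT.le
    linarith
  · have h1 : d' = 0 := by
      rw [← hT] at h'
      linarith
    have h2 : d = 0 := by linarith
    rw [h1, h2]

/-- E1: `4 dl ≤ (x+y)²` and `0 ≤ dl` -/
theorem dl_bounds {γ ν x y : ℝ} (hγ : 0 ≤ γ) (hγ1 : γ ≤ 1) (hν : 0 ≤ ν) (hν1 : ν ≤ 1)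
    (hx : 0 ≤ x) (hy : 0 ≤ y) : 0 ≤ dl γ ν x y ∧ 4 * dl γ ν x y ≤ (x + y) ^ 2 := by
  have a1 : 0 ≤ 1 - ν := by linarith
  have a2 : 0 ≤ 1 - γ * (1 - ν) := by nlinarith
  have a3 : 0 ≤ 1 - γ * ν := by nlinarith
  have a4 : 0 ≤ 1 - γ := by linarith
  constructor
  · unfold dl
    positivity
  · have h1 : (x + y) ^ 2 - 4 * dl γ ν x y =
        (x + y - 2 * ((1 - γ) * y + γ * ν * (x + y))) ^ 2 + 4 * (1 - γ) * (x * y) := by
      unfold dl
      ring
    have h2 : 0 ≤ 4 * (1 - γ) * (x * y) := by positivity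
    nlinarith [sq_nonneg (x + y - 2 * ((1 - γ) * y + γ * ν * (x + y)))]

end Vale.Agent.GAD
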