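import Mathlib
import Vale.Agent.GAD.PartC
import Vale.Agent.GAD.PartE1

/-!
# P358, part E2: subadditivity of `W`
-/

namespace Vale.Agent.GAD

open Set

/-- `s ↦ log (1 + y e^{-s})` -/
noncomputable def e2h (y s : ℝ) : ℝ := Real.log (1 + y * Real.exp (-s))

theorem e2h_hasDerivAt (y s : ℝ) (hy : 0 < y) :
    HasDerivAt (e2h y) (-(y / (Real.exp s + y))) s := by
  have h1 : HasDerivAt (fun s : ℝ => 1 + y * Real.exp (-s)) (y * (Real.exp (-s) * (-1))) s := by
    have h2 : HasDerivAt (fun s : ℝ => -s) (-1) s := (hasDerivAt_id s).neg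
    exact (h2.exp.const_mul y).const_add 1
  have hpos : 0 < 1 + y * Real.exp (-s) := by positivity
  have h3 := h1.log hpos.ne'
  refine h3.congr_deriv ?_
  have he := Real.exp_pos s
  rw [Real.exp_neg]
  field_simp

theorem e2h_convex (y : ℝ) (hy : 0 < y) : ConvexOn ℝ univ (e2h y) := by
  apply MonotoneOn.convexOn_of_deriv convex_univ
  · intro s _
    exact (e2h_hasDerivAt y s hy).continuousAt.continuousWithinAt
  · intro s _
    exact (e2h_hasDerivAt y s hy).differentiableAt.differentiableWithinAt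
  · intro s _ s' _ hss
    rw [(e2h_hasDerivAt y s hy).deriv, (e2h_hasDerivAt y s' hy).deriv]
    have h1 : Real.exp s ≤ Real.exp s' := Real.exp_le_exp.2 hss
    have h2 := Real.exp_pos s
    apply neg_le_neg
    apply div_le_div_of_nonneg_left hy.le (by positivity)
    linarith

theorem e2h_anti (y : ℝ) (hy : 0 < y) {s s' : ℝ} (h : s ≤ s') : e2h y s' ≤ e2h y s := by
  unfold e2h
  have h1 : Real.exp (-s') ≤ Real.exp (-s) := Real.exp_le_exp.2 (by linarith)
  apply Real.log_le_log (by positivity)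
  have := mul_le_mul_of_nonneg_left h1 hy.le
  linarith

theorem e2_jensen {α : Type} [Fintype α] (t p q : α → ℝ) (ht : ∀ k, 0 ≤ t k) (ht1 : ∑ k, t k = 1)
    (hp : ∀ k, 0 ≤ p k) (hq : ∀ k, 0 ≤ q k) (y : ℝ) (hy : 0 < y) :
    Real.log (1 + y / ((y + ∑ k, t k * p k) * (y + ∑ k, t k * q k))) ≤
      ∑ k, t k * Real.log (1 + y / ((y + p k) * (y + q k))) := by
  have hP : 0 ≤ ∑ k, t k * p k := Finset.sum_nonneg (fun k _ => mul_nonneg (ht k) (hp k))
  have hQ : 0 ≤ ∑ k, t k * q k := Finset.sum_nonneg (fun k _ => mul_nonneg (ht k) (hq k))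
  have hform : ∀ a b : ℝ, 0 ≤ a → 0 ≤ b → Real.log (1 + y / ((y + a) * (y + b))) =
      e2h y (Real.log (y + a) + Real.log (y + b)) := by
    intro a b ha hb
    unfold e2h
    rw [Real.exp_neg, Real.exp_add, Real.exp_log (by positivity), Real.exp_log (by positivity),
      div_eq_mul_inv]
  have e0 : ∀ k ∈ Finset.univ, t k * Real.log (1 + y / ((y + p k) * (y + q k))) =
      t k * e2h y (Real.log (y + p k) + Real.log (y + q k)) :=
    fun k _ => by rw [hform _ _ (hp k) (hq k)]
  rw [hform _ _ hP hQ, Finset.sum_congr rfl e0]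
  have hconc : ∀ a : α → ℝ, (∀ k, 0 ≤ a k) →
      ∑ k, t k * Real.log (y + a k) ≤ Real.log (y + ∑ k, t k * a k) := by
    intro a ha
    have h1 := strictConcaveOn_log_Ioi.concaveOn.le_map_sum (t := Finset.univ) (w := t)
      (p := fun k => y + a k) (fun k _ => ht k) ht1 (fun k _ => by
        have := ha k
        simp only [mem_Ioi]
        positivity)
    simp only [smul_eq_mul] at h1
    have h2 : ∑ k, t k * (y + a k) = y + ∑ k, t k * a k := by
      have : ∑ k, t k * (y + a k) = (∑ k, t k) * y + ∑ k, t k * a k := by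
        rw [Finset.sum_mul, ← Finset.sum_add_distrib]
        apply Finset.sum_congr rfl
        intro k _
        ring
      rw [this, ht1, one_mul]
    rwa [h2] at h1
  have h1 : ∑ k, t k * (Real.log (y + p k) + Real.log (y + q k)) ≤
      Real.log (y + ∑ k, t k * p k) + Real.log (y + ∑ k, t k * q k) := by
    have h2 : ∑ k, t k * (Real.log (y + p k) + Real.log (y + q k)) =
        ∑ k, t k * Real.log (y + p k) + ∑ k, t k * Real.log (y + q k) := by
      rw [← Finset.sum_add_distrib]
      apply Finset.sum_congr rfl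
      intro k _
      ring
    rw [h2]
    exact add_le_add (hconc p hp) (hconc q hq)
  refine (e2h_anti y hy h1).trans ?_
  have h3 := (e2h_convex y hy).map_sum_le (t := Finset.univ) (w := t)
    (p := fun k => Real.log (y + p k) + Real.log (y + q k)) (fun k _ => ht k) ht1
    (fun k _ => mem_univ _)
  simpa [smul_eq_mul] using h3

/-- larger root -/
noncomputable def e2r (p q : ℝ) : ℝ := ((1 + p + q) + Real.sqrt ((1 + p + q) ^ 2 - 4 * (p * q))) / 2
/-- smaller root -/
noncomputable def e2r' (p q : ℝ) : ℝ :=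
  ((1 + p + q) - Real.sqrt ((1 + p + q) ^ 2 - 4 * (p * q))) / 2

theorem e2_disc {p q : ℝ} (hp : 0 ≤ p) (hq : 0 ≤ q) : 0 ≤ (1 + p + q) ^ 2 - 4 * (p * q) := by
  nlinarith [sq_nonneg (p - q)]

theorem e2_add (p q : ℝ) : e2r p q + e2r' p q = 1 + p + q := by
  unfold e2r e2r'
  ring

theorem e2_mul {p q : ℝ} (hp : 0 ≤ p) (hq : 0 ≤ q) : e2r p q * e2r' p q = p * q := by
  unfold e2r e2r'
  have h := Real.sq_sqrt (e2_disc hp hq)
  nlinarith

theorem e2r_nonneg {p q : ℝ} (hp : 0 ≤ p) (hq : 0 ≤ q) : 0 ≤ e2r p q := by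
  unfold e2r
  positivity

theorem e2r'_nonneg {p q : ℝ} (hp : 0 ≤ p) (hq : 0 ≤ q) : 0 ≤ e2r' p q := by
  unfold e2r'
  have h : Real.sqrt ((1 + p + q) ^ 2 - 4 * (p * q)) ≤ 1 + p + q := by
    rw [Real.sqrt_le_left (by positivity)]
    have := mul_nonneg hp hq
    linarith
  linarith

theorem e2_log {p q y : ℝ} (hp : 0 ≤ p) (hq : 0 ≤ q) (hy : 0 < y) :
    Real.log (y + e2r p q) + Real.log (y + e2r' p q) - Real.log (y + p) - Real.log (y + q) =
      Real.log (1 + y / ((y + p) * (y + q))) := by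
  have h1 := e2r_nonneg hp hq
  have h2 := e2r'_nonneg hp hq
  have h3 : 1 + y / ((y + p) * (y + q)) =
      ((y + e2r p q) * (y + e2r' p q)) / ((y + p) * (y + q)) := by
    have h4 : (y + e2r p q) * (y + e2r' p q) = (y + p) * (y + q) + y := by
      have e1 := e2_add p q
      have e2 := e2_mul hp hq
      linear_combination y * e1 + e2
    rw [h4]
    field_simp
  rw [h3, Real.log_div (by positivity) (by positivity), Real.log_mul (by positivity) (by positivity),
    Real.log_mul (by positivity) (by positivity)]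
  ring

/-- the convex function `w` -/
noncomputable def e2w (p q : ℝ) : ℝ :=
  H2 (1 + p + q) (p * q) - Real.negMulLog p - Real.negMulLog q

theorem e2_H2 (p q : ℝ) : H2 (1 + p + q) (p * q) =
    Real.negMulLog (e2r p q) + Real.negMulLog (e2r' p q) := rfl

theorem e2w_jensen {α : Type} [Fintype α] (t p q : α → ℝ) (ht : ∀ k, 0 ≤ t k)
    (ht1 : ∑ k, t k = 1) (hp : ∀ k, 0 ≤ p k) (hq : ∀ k, 0 ≤ q k) :
    e2w (∑ k, t k * p k) (∑ k, t k * q k) ≤ ∑ k, t k * e2w (p k) (q k) := by
  set P := ∑ k, t k * p k with hPd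
  set Q := ∑ k, t k * q k with hQd
  have hP : 0 ≤ P := Finset.sum_nonneg (fun k _ => mul_nonneg (ht k) (hp k))
  have hQ : 0 ≤ Q := Finset.sum_nonneg (fun k _ => mul_nonneg (ht k) (hq k))
  -- values and coefficients
  let v : Option α × Fin 4 → ℝ := fun z => match z with
    | (some k, 0) => e2r (p k) (q k)
    | (some k, 1) => e2r' (p k) (q k)
    | (some k, 2) => p k
    | (some k, 3) => q k
    | (none, 0) => e2r P Q
    | (none, 1) => e2r' P Q
    | (none, 2) => P
    | (none, 3) => Q
  let ε : Option α × Fin 4 → ℝ := fun z => match z with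
    | (some k, 0) => t k
    | (some k, 1) => t k
    | (some k, 2) => -t k
    | (some k, 3) => -t k
    | (none, 0) => -1
    | (none, 1) => -1
    | (none, 2) => 1
    | (none, 3) => 1
  have hsum : ∀ f : ℝ → ℝ, ∑ z, ε z * f (v z) =
      (-f (e2r P Q) - f (e2r' P Q) + f P + f Q) +
      ∑ k, t k * (f (e2r (p k) (q k)) + f (e2r' (p k) (q k)) - f (p k) - f (q k)) := by
    intro f
    rw [Fintype.sum_prod_type, Fintype.sum_option]
    congr 1
    · rw [Fin.sum_univ_four]
      simp only [ε, v]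
      ring
    · apply Finset.sum_congr rfl
      intro k _
      rw [Fin.sum_univ_four]
      simp only [ε, v]
      ring
  have hv : ∀ z, 0 ≤ v z := by
    rintro ⟨_ | k, j⟩
    · fin_cases j
      · exact e2r_nonneg hP hQ
      · exact e2r'_nonneg hP hQ
      · exact hP
      · exact hQ
    · fin_cases j
      · exact e2r_nonneg (hp k) (hq k)
      · exact e2r'_nonneg (hp k) (hq k)
      · exact hp k
      · exact hq k
  have hε0 : ∑ z, ε z = 0 := by
    have h := hsum (fun _ => 1)
    have h' : ∑ z, ε z = ∑ z, ε z * 1 := by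
      apply Finset.sum_congr rfl
      intro z _
      rw [mul_one]
    rw [h', h]
    simp
  have hε1 : ∑ z, ε z * v z = 0 := by
    have h := hsum (fun x => x)
    rw [h]
    have e1 := e2_add P Q
    have e2 : ∀ k, e2r (p k) (q k) + e2r' (p k) (q k) - p k - q k = 1 := by
      intro k
      have := e2_add (p k) (q k)
      linarith
    have e3 : ∀ k ∈ Finset.univ, t k * (e2r (p k) (q k) + e2r' (p k) (q k) - p k - q k) = t k :=
      fun k _ => by rw [e2 k, mul_one]
    rw [Finset.sum_congr rfl e3, ht1]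
    linarith
  have hlog : ∀ y : ℝ, 0 < y → 0 ≤ ∑ z, ε z * Real.log (y + v z) := by
    intro y hy
    have h := hsum (fun x => Real.log (y + x))
    rw [h]
    have e1 := e2_log hP hQ hy
    have e2 : ∀ k, Real.log (y + e2r (p k) (q k)) + Real.log (y + e2r' (p k) (q k)) -
        Real.log (y + p k) - Real.log (y + q k) =
        Real.log (1 + y / ((y + p k) * (y + q k))) := fun k => e2_log (hp k) (hq k) hy
    have e4 : ∀ k ∈ Finset.univ, t k * (Real.log (y + e2r (p k) (q k)) +
        Real.log (y + e2r' (p k) (q k)) - Real.log (y + p k) - Real.log (y + q k)) =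
        t k * Real.log (1 + y / ((y + p k) * (y + q k))) := fun k _ => by rw [e2 k]
    rw [Finset.sum_congr rfl e4]
    have e3 := e2_jensen t p q ht ht1 hp hq y hy
    linarith
  have hmain := sum_negMulLog_nonneg ε v hv hε0 hε1 hlog
  rw [hsum Real.negMulLog] at hmain
  have h1 : ∀ k, Real.negMulLog (e2r (p k) (q k)) + Real.negMulLog (e2r' (p k) (q k)) -
      Real.negMulLog (p k) - Real.negMulLog (q k) = e2w (p k) (q k) := by
    intro k
    unfold e2w
    rw [e2_H2]
  have h2 : ∀ k ∈ Finset.univ, t k * (Real.negMulLog (e2r (p k) (q k)) +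
      Real.negMulLog (e2r' (p k) (q k)) - Real.negMulLog (p k) - Real.negMulLog (q k)) =
      t k * e2w (p k) (q k) := fun k _ => by rw [h1 k]
  rw [Finset.sum_congr rfl h2] at hmain
  have h3 : e2w P Q = Real.negMulLog (e2r P Q) + Real.negMulLog (e2r' P Q) -
      Real.negMulLog P - Real.negMulLog Q := by
    unfold e2w
    rw [e2_H2]
  rw [h3]
  linarith

/-- the function `W` -/
noncomputable def e2W (x y z : ℝ) : ℝ :=
  H2 (x + y + z) (y * z) - Real.negMulLog x - Real.negMulLog y - Real.negMulLog z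

theorem e2W_pos {x y z : ℝ} (hx : 0 < x) (hy : 0 ≤ y) (hz : 0 ≤ z) :
    e2W x y z = x * e2w (y / x) (z / x) := by
  have hp : 0 ≤ y / x := div_nonneg hy hx.le
  have hq : 0 ≤ z / x := div_nonneg hz hx.le
  have h1 := H2_smul (t := x) (T := 1 + y / x + z / x) (d := y / x * (z / x)) hx.le (by positivity)
    (by positivity) (by have := e2_disc hp hq; linarith)
  have h2 : x * (1 + y / x + z / x) = x + y + z := by field_simp
  have h3 : x ^ 2 * (y / x * (z / x)) = y * z := by field_simp
  rw [h2, h3] at h1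
  unfold e2W e2w
  rw [h1]
  have h4 : Real.negMulLog y = Real.negMulLog (x * (y / x)) := by
    congr 1
    field_simp
  have h5 : Real.negMulLog z = Real.negMulLog (x * (z / x)) := by
    congr 1
    field_simp
  rw [h4, h5, Real.negMulLog_mul, Real.negMulLog_mul]
  ring

theorem e2W_subadd_pos {α : Type} [Fintype α] [Nonempty α] (x y z : α → ℝ) (hx : ∀ k, 0 < x k)
    (hy : ∀ k, 0 ≤ y k) (hz : ∀ k, 0 ≤ z k) :
    e2W (∑ k, x k) (∑ k, y k) (∑ k, z k) ≤ ∑ k, e2W (x k) (y k) (z k) := by
  have hX : 0 < ∑ k, x k := Finset.sum_pos (fun k _ => hx k) Finset.univ_nonempty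
  have hY : 0 ≤ ∑ k, y k := Finset.sum_nonneg (fun k _ => hy k)
  have hZ : 0 ≤ ∑ k, z k := Finset.sum_nonneg (fun k _ => hz k)
  rw [e2W_pos hX hY hZ, Finset.sum_congr rfl (fun k _ => e2W_pos (hx k) (hy k) (hz k))]
  set X := ∑ k, x k with hXd
  have hJ := e2w_jensen (fun k => x k / X) (fun k => y k / x k) (fun k => z k / x k)
    (fun k => div_nonneg (hx k).le hX.le) (by rw [← Finset.sum_div]; exact div_self hX.ne')
    (fun k => div_nonneg (hy k) (hx k).le) (fun k => div_nonneg (hz k) (hx k).le)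
  have h1 : ∑ k, x k / X * (y k / x k) = (∑ k, y k) / X := by
    rw [Finset.sum_div]
    apply Finset.sum_congr rfl
    intro k _
    have := (hx k).ne'
    field_simp
  have h2 : ∑ k, x k / X * (z k / x k) = (∑ k, z k) / X := by
    rw [Finset.sum_div]
    apply Finset.sum_congr rfl
    intro k _
    have := (hx k).ne'
    field_simp
  rw [h1, h2] at hJ
  have h3 := mul_le_mul_of_nonneg_left hJ hX.le
  refine h3.trans (le_of_eq ?_)
  rw [Finset.mul_sum]
  apply Finset.sum_congr rfl
  intro k _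
  field_simp

theorem H2_continuous {f g : ℝ → ℝ} (hf : Continuous f) (hg : Continuous g) :
    Continuous (fun δ => H2 (f δ) (g δ)) := by
  have h1 : Continuous (fun δ => (f δ + Real.sqrt (f δ ^ 2 - 4 * g δ)) / 2) := by
    fun_prop
  have h2 : Continuous (fun δ => (f δ - Real.sqrt (f δ ^ 2 - 4 * g δ)) / 2) := by
    fun_prop
  have h3 := Real.continuous_negMulLog.comp h1
  have h4 := Real.continuous_negMulLog.comp h2
  exact h3.add h4

theorem e2W_continuous {f g h : ℝ → ℝ} (hf : Continuous f) (hg : Continuous g)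
    (hh : Continuous h) : Continuous (fun δ => e2W (f δ) (g δ) (h δ)) := by
  have h0 : Continuous (fun δ => f δ + g δ + h δ) := by fun_prop
  have h0' : Continuous (fun δ => g δ * h δ) := by fun_prop
  have h1 := H2_continuous h0 h0'
  have h2 := Real.continuous_negMulLog.comp hf
  have h3 := Real.continuous_negMulLog.comp hg
  have h4 := Real.continuous_negMulLog.comp hh
  exact ((h1.sub h2).sub h3).sub h4

theorem e2_tend {F : ℝ → ℝ} (hF : Continuous F) {c : ℝ} (h : F 0 = c) :
    Filter.Tendsto F (nhdsWithin 0 (Ioi 0)) (nhds c) := by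
  have h2 := hF.tendsto 0
  rw [h] at h2
  exact h2.mono_left nhdsWithin_le_nhds

theorem e2W_zero : e2W 0 0 0 = 0 := by
  simp [e2W, H2]

theorem e2W_subadd {α : Type} [Fintype α] (x y z : α → ℝ) (hx : ∀ k, 0 ≤ x k)
    (hy : ∀ k, 0 ≤ y k) (hz : ∀ k, 0 ≤ z k) :
    e2W (∑ k, x k) (∑ k, y k) (∑ k, z k) ≤ ∑ k, e2W (x k) (y k) (z k) := by
  rcases isEmpty_or_nonempty α with hα | hα
  · rw [Fintype.sum_empty, Fintype.sum_empty, Fintype.sum_empty, Fintype.sum_empty, e2W_zero]
  · have hε : ∀ δ : ℝ, 0 < δ → e2W (∑ k, (x k + δ)) (∑ k, y k) (∑ k, z k) ≤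
        ∑ k, e2W (x k + δ) (y k) (z k) := by
      intro δ hδ
      apply e2W_subadd_pos _ _ _ _ hy hz
      intro k
      have := hx k
      positivity
    have hcl : Continuous (fun δ : ℝ => ∑ k, (x k + δ)) := by fun_prop
    have hl := e2_tend (F := fun δ => e2W (∑ k, (x k + δ)) (∑ k, y k) (∑ k, z k))
      (e2W_continuous hcl continuous_const continuous_const)
      (c := e2W (∑ k, x k) (∑ k, y k) (∑ k, z k)) (by simp only [add_zero])
    have hcr : Continuous (fun δ : ℝ => ∑ k, e2W (x k + δ) (y k) (z k)) := by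
      apply continuous_finsetSum
      intro k _
      have h1 : Continuous (fun δ : ℝ => x k + δ) := by fun_prop
      exact e2W_continuous h1 continuous_const continuous_const
    have hr := e2_tend hcr (c := ∑ k, e2W (x k) (y k) (z k)) (by simp only [add_zero])
    exact le_of_tendsto_of_tendsto hl hr (eventually_nhdsWithin_of_forall hε)

/-- E2: subadditivity of `W`. -/
theorem W_subadd {α : Type} [Fintype α] (x y z : α → ℝ) (hx : ∀ k, 0 ≤ x k)
    (hy : ∀ k, 0 ≤ y k) (hz : ∀ k, 0 ≤ z k) :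
    H2 (∑ k, x k + ∑ k, y k + ∑ k, z k) ((∑ k, y k) * ∑ k, z k)
      - Real.negMulLog (∑ k, x k) - Real.negMulLog (∑ k, y k) - Real.negMulLog (∑ k, z k) ≤
    ∑ k, (H2 (x k + y k + z k) (y k * z k)
      - Real.negMulLog (x k) - Real.negMulLog (y k) - Real.negMulLog (z k)) := by
  have h := e2W_subadd x y z hx hy hz
  unfold e2W at h
  exact h

end Vale.Agent.GAD
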