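import Vale.Agent.GAD.PartB

/-!
# P358, part F: singular value decomposition
-/

namespace Vale.Agent.GAD

open Matrix
open scoped ComplexOrder

theorem exists_svd {ι : Type} [Fintype ι] [DecidableEq ι] (A : Matrix ι ι ℂ) :
    ∃ (U V : Matrix ι ι ℂ) (s : ι → ℝ), Uᴴ * U = 1 ∧ Vᴴ * V = 1 ∧ (∀ i, 0 ≤ s i) ∧
      A = U * diagonal (fun i => (s i : ℂ)) * Vᴴ := by
  have hP : (Aᴴ * A).PosSemidef := posSemidef_conjTranspose_mul_self A
  have hH := hP.isHermitian
  obtain ⟨V, hV, hV', hd⟩ := exists_unitary_diag hH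
  set μ := hH.eigenvalues with hμ
  have hμ0 : ∀ i, 0 ≤ μ i := fun i => hP.eigenvalues_nonneg i
  set W : Matrix ι ι ℂ := A * V with hW
  have hWW : Wᴴ * W = diagonal (fun i => (μ i : ℂ)) := by
    rw [hW, conjTranspose_mul, Matrix.mul_assoc, ← Matrix.mul_assoc Aᴴ, hd]
    rw [Matrix.mul_assoc, Matrix.mul_assoc, hV, Matrix.mul_one,
      ← Matrix.mul_assoc, hV, Matrix.one_mul]
  -- entries
  have hent : ∀ i j, ∑ k, star (W k i) * W k j = if i = j then (μ i : ℂ) else 0 := by
    intro i j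
    have h := congrFun (congrFun hWW i) j
    rw [Matrix.mul_apply, diagonal_apply] at h
    simpa only [conjTranspose_apply] using h
  set v : ι → EuclideanSpace ℂ ι :=
    fun i => WithLp.toLp 2 (fun k => W k i / ((Real.sqrt (μ i) : ℝ) : ℂ)) with hv
  have hin : ∀ i j, inner ℂ (v i) (v j) =
      (∑ k, star (W k i) * W k j) / (((Real.sqrt (μ i) : ℝ) : ℂ) * ((Real.sqrt (μ j) : ℝ) : ℂ)) := by
    intro i j
    rw [hv, EuclideanSpace.inner_toLp_toLp, dotProduct, Finset.sum_div]
    refine Finset.sum_congr rfl fun k _ => ?_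
    simp only [Pi.star_apply, star_div₀, Complex.star_def, Complex.conj_ofReal]
    rw [div_mul_div_comm, mul_comm (W k j), mul_comm (((Real.sqrt (μ j) : ℝ) : ℂ))]
  have hon : Orthonormal ℂ (({i | μ i ≠ 0} : Set ι).domRestrict v) := by
    rw [orthonormal_iff_ite]
    rintro ⟨i, hi⟩ ⟨j, hj⟩
    have hi' : (0 : ℝ) < μ i := lt_of_le_of_ne (hμ0 i) (Ne.symm hi)
    change inner ℂ (v i) (v j) = _
    rw [hin, hent]
    by_cases hij : i = j
    · subst hij
      rw [if_pos rfl, if_pos rfl, ← Complex.ofReal_mul, Real.mul_self_sqrt (hμ0 i)]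
      exact div_self (by exact_mod_cast hi'.ne')
    · rw [if_neg hij, if_neg (by simpa using hij), zero_div]
  obtain ⟨b, hb⟩ := hon.exists_orthonormalBasis_extension_of_card_eq
    (by simp : Module.finrank ℂ (EuclideanSpace ℂ ι) = Fintype.card ι)
  refine ⟨Matrix.of fun k i => b i k, V, fun i => Real.sqrt (μ i), ?_, hV,
    fun i => Real.sqrt_nonneg _, ?_⟩
  · ext i j
    rw [Matrix.mul_apply, Matrix.one_apply]
    have h := (orthonormal_iff_ite.1 b.orthonormal) i j
    rw [← h, EuclideanSpace.inner_eq_star_dotProduct, dotProduct]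
    refine Finset.sum_congr rfl fun k _ => ?_
    simp [mul_comm]
  · have hAW : A = W * Vᴴ := by
      rw [hW, Matrix.mul_assoc, hV', Matrix.mul_one]
    rw [hAW]
    congr 1
    ext k i
    rw [mul_diagonal, Matrix.of_apply]
    by_cases hi : μ i = 0
    · have h0 : W k i = 0 := by
        have h := hent i i
        rw [if_pos rfl, hi] at h
        have h2 : ∀ k, star (W k i) * W k i = ((‖W k i‖ ^ 2 : ℝ) : ℂ) := by
          intro k
          rw [Complex.star_def, mul_comm, Complex.mul_conj, Complex.normSq_eq_norm_sq]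
        simp only [h2] at h
        have h3 : ∑ k, ‖W k i‖ ^ 2 = 0 := by exact_mod_cast h
        have h4 := (Finset.sum_eq_zero_iff_of_nonneg (fun k _ => by positivity)).1 h3 k
          (Finset.mem_univ k)
        simpa using h4
      have h1 : Real.sqrt (μ i) = 0 := by rw [hi, Real.sqrt_zero]
      simp only [h0, h1]
      simp
    · rw [hb i hi, hv]
      have hi' : (0 : ℝ) < μ i := lt_of_le_of_ne (hμ0 i) (Ne.symm hi)
      have hs : ((Real.sqrt (μ i) : ℝ) : ℂ) ≠ 0 := by
        exact_mod_cast (Real.sqrt_pos.2 hi').ne'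
      simp only
      rw [div_mul_cancel₀ _ hs]

end Vale.Agent.GAD
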