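import Vale.Agent.GAD.Nsq

/-!
P358, part G: Kraus operators and environment matrices.
-/

namespace Vale.Agent.GAD

open Matrix
open scoped ComplexOrder

/-- Kraus operators of the channel -/
noncomputable def kraus (γ ν : ℝ) : Fin 4 → Matrix (Fin 2) (Fin 2) ℂ :=
  ![((Real.sqrt (1 - ν) : ℝ) : ℂ) • !![1, 0; 0, ((Real.sqrt (1 - γ) : ℝ) : ℂ)],
    ((Real.sqrt (1 - ν) : ℝ) : ℂ) • !![0, ((Real.sqrt γ : ℝ) : ℂ); 0, 0],
    ((Real.sqrt ν : ℝ) : ℂ) • !![((Real.sqrt (1 - γ) : ℝ) : ℂ), 0; 0, 1],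
    ((Real.sqrt ν : ℝ) : ℂ) • !![0, 0; ((Real.sqrt γ : ℝ) : ℂ), 0]]

/-- output-environment matrix of the isometric dilation applied to `ψ` -/
noncomputable def env (γ ν : ℝ) (n : ℕ) (ψ : (Fin n → Fin 2) → ℂ) :
    Matrix (Fin n → Fin 2) (Fin n → Fin 4) ℂ :=
  Matrix.of fun i k => ∑ j, (∏ s, kraus γ ν (k s) (i s) (j s)) * ψ j

theorem kraus_sum {γ ν : ℝ} (hγ : 0 ≤ γ) (hγ1 : γ ≤ 1) (hν : 0 ≤ ν) (hν1 : ν ≤ 1)
    (a b c d : Fin 2) :
    ∑ k, kraus γ ν k c a * (starRingEnd ℂ) (kraus γ ν k d b) =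
      gad γ ν (Matrix.single a b 1) c d := by
  have h1 : ((Real.sqrt (1 - ν) : ℝ) : ℂ) * ((Real.sqrt (1 - ν) : ℝ) : ℂ) = 1 - ν := by
    rw [← Complex.ofReal_mul, Real.mul_self_sqrt (by linarith)]
    push_cast
    ring
  have h2 : ((Real.sqrt ν : ℝ) : ℂ) * ((Real.sqrt ν : ℝ) : ℂ) = ν := by
    rw [← Complex.ofReal_mul, Real.mul_self_sqrt hν]
  have h3 : ((Real.sqrt (1 - γ) : ℝ) : ℂ) * ((Real.sqrt (1 - γ) : ℝ) : ℂ) = 1 - γ := by
    rw [← Complex.ofReal_mul, Real.mul_self_sqrt (by linarith)]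
    push_cast
    ring
  have h4 : ((Real.sqrt γ : ℝ) : ℂ) * ((Real.sqrt γ : ℝ) : ℂ) = γ := by
    rw [← Complex.ofReal_mul, Real.mul_self_sqrt hγ]
  set A := ((Real.sqrt (1 - ν) : ℝ) : ℂ) with hA
  set B := ((Real.sqrt ν : ℝ) : ℂ) with hB
  set C := ((Real.sqrt (1 - γ) : ℝ) : ℂ) with hC
  set D := ((Real.sqrt γ : ℝ) : ℂ) with hD
  have cA : (starRingEnd ℂ) A = A := Complex.conj_ofReal _
  have cB : (starRingEnd ℂ) B = B := Complex.conj_ofReal _
  have cC : (starRingEnd ℂ) C = C := Complex.conj_ofReal _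
  have cD : (starRingEnd ℂ) D = D := Complex.conj_ofReal _
  rw [Fin.sum_univ_four]
  fin_cases a <;> fin_cases b <;> fin_cases c <;> fin_cases d <;>
    simp [kraus, gad, Matrix.single, ← hA, ← hB, ← hC, ← hD, cA, cB, cC, cD]
  · linear_combination h1 + C * C * h2 + (ν : ℂ) * h3
  · linear_combination D * D * h2 + (ν : ℂ) * h4
  · linear_combination C * h1 + C * h2
  · linear_combination C * h1 + C * h2
  · linear_combination D * D * h1 + (1 - ν : ℂ) * h4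
  · linear_combination C * C * h1 + (1 - ν : ℂ) * h3 + h2

/-- Kraus matrix of the tensor power -/
noncomputable def krausN (γ ν : ℝ) (n : ℕ) (k : Fin n → Fin 4) :
    Matrix (Fin n → Fin 2) (Fin n → Fin 2) ℂ :=
  Matrix.of fun i j => ∏ s, kraus γ ν (k s) (i s) (j s)

theorem krausN_sum {γ ν : ℝ} (hγ : 0 ≤ γ) (hγ1 : γ ≤ 1) (hν : 0 ≤ ν) (hν1 : ν ≤ 1) (n : ℕ)
    (i j a b : Fin n → Fin 2) :
    ∑ k, krausN γ ν n k i a * (starRingEnd ℂ) (krausN γ ν n k j b) =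
      ∏ s, gad γ ν (Matrix.single (a s) (b s) 1) (i s) (j s) := by
  have h1 : ∀ s, gad γ ν (Matrix.single (a s) (b s) 1) (i s) (j s) =
      ∑ k, kraus γ ν k (i s) (a s) * (starRingEnd ℂ) (kraus γ ν k (j s) (b s)) := fun s =>
    (kraus_sum hγ hγ1 hν hν1 _ _ _ _).symm
  rw [Finset.prod_congr rfl fun s _ => h1 s, Finset.prod_univ_sum, Fintype.piFinset_univ]
  refine Finset.sum_congr rfl fun k _ => ?_
  simp only [krausN, Matrix.of_apply, map_prod, Finset.prod_mul_distrib]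

/-- Kraus representation of the tensor power -/
theorem tpow_eq_kraus {γ ν : ℝ} (hγ : 0 ≤ γ) (hγ1 : γ ≤ 1) (hν : 0 ≤ ν) (hν1 : ν ≤ 1) (n : ℕ)
    (ρ : Matrix (Fin n → Fin 2) (Fin n → Fin 2) ℂ) :
    tpow (gad γ ν) n ρ = ∑ k, krausN γ ν n k * ρ * (krausN γ ν n k)ᴴ := by
  ext i j
  have h1 : (∑ k, krausN γ ν n k * ρ * (krausN γ ν n k)ᴴ) i j =
      ∑ k, ∑ b, ∑ a, krausN γ ν n k i a * (starRingEnd ℂ) (krausN γ ν n k j b) * ρ a b := by
    rw [Matrix.sum_apply]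
    refine Finset.sum_congr rfl fun k _ => ?_
    rw [Matrix.mul_apply]
    refine Finset.sum_congr rfl fun b _ => ?_
    rw [Matrix.mul_apply, Matrix.conjTranspose_apply, Finset.sum_mul]
    refine Finset.sum_congr rfl fun a _ => ?_
    rw [← starRingEnd_apply]
    ring
  have h2 : tpow (gad γ ν) n ρ i j =
      ∑ a, ∑ b, ∑ k, krausN γ ν n k i a * (starRingEnd ℂ) (krausN γ ν n k j b) * ρ a b := by
    unfold tpow
    rw [Matrix.of_apply]
    refine Finset.sum_congr rfl fun a _ => ?_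
    refine Finset.sum_congr rfl fun b _ => ?_
    rw [← krausN_sum hγ hγ1 hν hν1, Finset.sum_mul]
  rw [h1, h2, Finset.sum_comm]
  rw [Finset.sum_comm (s := Finset.univ (α := Fin n → Fin 4))]
  refine Finset.sum_congr rfl fun b _ => ?_
  rw [Finset.sum_comm]

theorem env_eq_mulVec {γ ν : ℝ} (n : ℕ) (ψ : (Fin n → Fin 2) → ℂ) (i : Fin n → Fin 2)
    (k : Fin n → Fin 4) : env γ ν n ψ i k = (krausN γ ν n k).mulVec ψ i := rfl

theorem env_mul_env {γ ν : ℝ} (hγ : 0 ≤ γ) (hγ1 : γ ≤ 1) (hν : 0 ≤ ν) (hν1 : ν ≤ 1) (n : ℕ)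
    (ψ φ : (Fin n → Fin 2) → ℂ) :
    env γ ν n ψ * (env γ ν n φ)ᴴ = tpow (gad γ ν) n (vecMulVec ψ (star φ)) := by
  rw [tpow_eq_kraus hγ hγ1 hν hν1]
  ext i j
  rw [Matrix.sum_apply, Matrix.mul_apply]
  refine Finset.sum_congr rfl fun k _ => ?_
  rw [Matrix.mul_vecMulVec, Matrix.vecMulVec_mul, Matrix.vecMulVec_apply,
    Matrix.conjTranspose_apply, env_eq_mulVec, env_eq_mulVec, ← Matrix.star_mulVec]
  rfl

theorem env_lin (γ ν : ℝ) (n : ℕ) (l l' : ℂ) (ψ φ : (Fin n → Fin 2) → ℂ) :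
    env γ ν n (l • ψ + l' • φ) = l • env γ ν n ψ + l' • env γ ν n φ := by
  ext i k
  rw [Matrix.add_apply, Matrix.smul_apply, Matrix.smul_apply, env_eq_mulVec, env_eq_mulVec,
    env_eq_mulVec, Matrix.mulVec_add, Matrix.mulVec_smul, Matrix.mulVec_smul]
  rfl

/-- weighted sums of the diagonal entries -/
theorem tpow_diag_sum (Φ : Matrix (Fin 2) (Fin 2) ℂ → Matrix (Fin 2) (Fin 2) ℂ) {n : ℕ}
    (w v : Fin n → Fin 2 → ℂ)
    (h : ∀ t a b, ∑ c, w t c * Φ (Matrix.single a b 1) c c = if a = b then v t a else 0)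
    (ρ : Matrix (Fin n → Fin 2) (Fin n → Fin 2) ℂ) :
    ∑ i, (∏ t, w t (i t)) * tpow Φ n ρ i i = ∑ k, (∏ t, v t (k t)) * ρ k k := by
  have h1 : ∀ i, (∏ t, w t (i t)) * tpow Φ n ρ i i =
      ∑ k, ∑ l, (∏ t, w t (i t) * Φ (Matrix.single (k t) (l t) 1) (i t) (i t)) * ρ k l := by
    intro i
    unfold tpow
    rw [Matrix.of_apply, Finset.mul_sum]
    refine Finset.sum_congr rfl fun k _ => ?_
    rw [Finset.mul_sum]
    refine Finset.sum_congr rfl fun l _ => ?_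
    rw [Finset.prod_mul_distrib]
    ring
  rw [Finset.sum_congr rfl fun i _ => h1 i, Finset.sum_comm]
  refine Finset.sum_congr rfl fun k _ => ?_
  rw [Finset.sum_comm]
  have h2 : ∀ l, ∑ i : Fin n → Fin 2,
      (∏ t, w t (i t) * Φ (Matrix.single (k t) (l t) 1) (i t) (i t)) * ρ k l =
      if k = l then (∏ t, v t (k t)) * ρ k k else 0 := by
    intro l
    rw [← Finset.sum_mul]
    have h3 : ∑ i : Fin n → Fin 2, ∏ t, w t (i t) * Φ (Matrix.single (k t) (l t) 1) (i t) (i t) =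
        ∏ t, ∑ c, w t c * Φ (Matrix.single (k t) (l t) 1) c c := by
      rw [Finset.prod_univ_sum, Fintype.piFinset_univ]
    rw [h3, Finset.prod_congr rfl fun t _ => h t (k t) (l t)]
    by_cases hkl : k = l
    · subst hkl
      simp
    · rw [if_neg hkl]
      obtain ⟨t, ht⟩ := Function.ne_iff.1 hkl
      rw [Finset.prod_eq_zero (Finset.mem_univ t) (if_neg ht), zero_mul]
  rw [Finset.sum_congr rfl fun l _ => h2 l, Finset.sum_ite_eq, if_pos (Finset.mem_univ k)]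

theorem tpow_trace {γ ν : ℝ} (n : ℕ) (ρ : Matrix (Fin n → Fin 2) (Fin n → Fin 2) ℂ) :
    (tpow (gad γ ν) n ρ).trace = ρ.trace := by
  have h := tpow_diag_sum (gad γ ν) (n := n) (fun _ _ => 1) (fun _ _ => 1) (by
    intro t a b
    fin_cases a <;> fin_cases b <;> simp [gad, Matrix.single]) ρ
  simpa [Matrix.trace] using h

theorem nsq_env {γ ν : ℝ} (hγ : 0 ≤ γ) (hγ1 : γ ≤ 1) (hν : 0 ≤ ν) (hν1 : ν ≤ 1) (n : ℕ)
    (ψ : (Fin n → Fin 2) → ℂ) : nsq (env γ ν n ψ) = ∑ i, ‖ψ i‖ ^ 2 := by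
  have h1 := trace_mul_conjTranspose (env γ ν n ψ)
  rw [env_mul_env hγ hγ1 hν hν1, tpow_trace] at h1
  have h2 : (vecMulVec ψ (star ψ)).trace = ((∑ i, ‖ψ i‖ ^ 2 : ℝ) : ℂ) := by
    rw [Matrix.trace]
    push_cast
    refine Finset.sum_congr rfl fun i _ => ?_
    rw [Matrix.diag_apply, Matrix.vecMulVec_apply, Pi.star_apply, RCLike.star_def,
      Complex.mul_conj, Complex.normSq_eq_norm_sq]
    push_cast
    rfl
  rw [h2] at h1
  exact_mod_cast h1.symm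

/-- splitting off the first site -/
def splitEquiv (n : ℕ) : (Fin n → Fin 2) ⊕ (Fin n → Fin 2) ≃ (Fin (n + 1) → Fin 2) where
  toFun := Sum.elim (fun i => Fin.cons 0 i) (fun i => Fin.cons 1 i)
  invFun i := if i 0 = 0 then Sum.inl (Fin.tail i) else Sum.inr (Fin.tail i)
  left_inv := by
    rintro (i | i) <;> simp
  right_inv := by
    intro i
    by_cases h : i 0 = 0
    · simp only [h, if_true, Sum.elim_inl]
      conv_rhs => rw [← Fin.cons_self_tail i]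
      rw [h]
    · have h1 : i 0 = 1 := by omega
      simp only [h, if_false, Sum.elim_inr]
      conv_rhs => rw [← Fin.cons_self_tail i]
      rw [h1]

/-- splitting off the first site, in entries -/
theorem tpow_cons (Φ : Matrix (Fin 2) (Fin 2) ℂ → Matrix (Fin 2) (Fin 2) ℂ) {n : ℕ}
    (ρ : Matrix (Fin (n + 1) → Fin 2) (Fin (n + 1) → Fin 2) ℂ) (c d : Fin 2)
    (i j : Fin n → Fin 2) :
    tpow Φ (n + 1) ρ (Fin.cons c i) (Fin.cons d j) =
      ∑ a, ∑ b, Φ (Matrix.single a b 1) c d *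
        tpow Φ n (Matrix.of fun k l => ρ (Fin.cons a k) (Fin.cons b l)) i j := by
  have hsum : ∀ f : (Fin (n + 1) → Fin 2) → ℂ,
      ∑ k, f k = ∑ a : Fin 2, ∑ k : Fin n → Fin 2, f (Fin.cons a k) := by
    intro f
    rw [← Fintype.sum_prod_type']
    exact (Fintype.sum_equiv (Fin.consEquiv (fun _ => Fin 2)) _ _ (fun _ => rfl)).symm
  unfold tpow
  rw [Matrix.of_apply, hsum]
  refine Finset.sum_congr rfl fun a _ => ?_
  rw [Finset.sum_congr rfl fun k _ => hsum _, Finset.sum_comm]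
  refine Finset.sum_congr rfl fun b _ => ?_
  rw [Matrix.of_apply, Finset.mul_sum]
  refine Finset.sum_congr rfl fun k _ => ?_
  rw [Finset.mul_sum]
  refine Finset.sum_congr rfl fun l _ => ?_
  rw [Fin.prod_univ_succ]
  simp only [Fin.cons_zero, Fin.cons_succ, Matrix.of_apply]
  ring

theorem tpow_succ {γ ν : ℝ} (hγ : 0 ≤ γ) (hγ1 : γ ≤ 1) (hν : 0 ≤ ν) (hν1 : ν ≤ 1) (n : ℕ)
    (ψ : (Fin (n + 1) → Fin 2) → ℂ) :
    (tpow (gad γ ν) (n + 1) (proj ψ)).submatrix (splitEquiv n) (splitEquiv n) =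
      tau γ ν (env γ ν n fun i => ψ (Fin.cons 0 i)) (env γ ν n fun i => ψ (Fin.cons 1 i)) := by
  have h : ∀ a b : Fin 2, (Matrix.of fun k l : Fin n → Fin 2 =>
      proj ψ (Fin.cons a k) (Fin.cons b l)) =
      vecMulVec (fun i => ψ (Fin.cons a i)) (star fun i => ψ (Fin.cons b i)) := by
    intro a b
    rfl
  have h2 : ∀ (a b : Fin 2), tpow (gad γ ν) n (Matrix.of fun k l : Fin n → Fin 2 =>
      proj ψ (Fin.cons a k) (Fin.cons b l)) =
      env γ ν n (fun i => ψ (Fin.cons a i)) * (env γ ν n fun i => ψ (Fin.cons b i))ᴴ := by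
    intro a b
    rw [h, env_mul_env hγ hγ1 hν hν1]
  ext (i | i) (j | j)
  · rw [Matrix.submatrix_apply]
    simp only [splitEquiv, Equiv.coe_fn_mk, Sum.elim_inl]
    rw [tpow_cons]
    simp only [h2]
    simp [Fin.sum_univ_two, gad, tau, Matrix.single]
  · rw [Matrix.submatrix_apply]
    simp only [splitEquiv, Equiv.coe_fn_mk, Sum.elim_inl, Sum.elim_inr]
    rw [tpow_cons]
    simp only [h2]
    simp [Fin.sum_univ_two, gad, tau, Matrix.single]
  · rw [Matrix.submatrix_apply]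
    simp only [splitEquiv, Equiv.coe_fn_mk, Sum.elim_inl, Sum.elim_inr]
    rw [tpow_cons]
    simp only [h2]
    simp [Fin.sum_univ_two, gad, tau, Matrix.single]
  · rw [Matrix.submatrix_apply]
    simp only [splitEquiv, Equiv.coe_fn_mk, Sum.elim_inr]
    rw [tpow_cons]
    simp only [h2]
    simp [Fin.sum_univ_two, gad, tau, Matrix.single]

end Vale.Agent.GAD
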