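import Vale.Agent.GAD.PartA
import Vale.Agent.GAD.PartC
import Vale.Agent.GAD.PartD
import Vale.Agent.GAD.PartE2
import Vale.Agent.GAD.Nsq

/-!
P358, part K1: key lemma with diagonal first block.
-/

namespace Vale.Agent.GAD

open Matrix
open scoped ComplexOrder

section

variable {ι : Type} [Fintype ι] [DecidableEq ι]

/-- `y + A` is positive definite -/
lemma posDef_add {y : ℝ} (hy : 0 < y) {A : Matrix ι ι ℂ} (hA : A.PosSemidef) :
    ((y : ℂ) • (1 : Matrix ι ι ℂ) + A).PosDef := by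
  refine Matrix.PosDef.add_posSemidef ?_ hA
  exact Matrix.PosDef.one.smul (by exact_mod_cast hy)

lemma push_through {y : ℝ} (hy : 0 < y) (b : Matrix ι ι ℂ) :
    b * ((y : ℂ) • (1 : Matrix ι ι ℂ) + bᴴ * b)⁻¹ * bᴴ =
      1 - (y : ℂ) • ((y : ℂ) • (1 : Matrix ι ι ℂ) + b * bᴴ)⁻¹ := by
  set X := (y : ℂ) • (1 : Matrix ι ι ℂ) + bᴴ * b with hX
  set Y := (y : ℂ) • (1 : Matrix ι ι ℂ) + b * bᴴ with hY
  have hXu : IsUnit X.det := by
    have : X.PosDef := posDef_add hy (posSemidef_conjTranspose_mul_self b)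
    exact (Matrix.isUnit_iff_isUnit_det _).1 this.isUnit
  have hYu : IsUnit Y.det := by
    have : Y.PosDef := posDef_add hy (posSemidef_self_mul_conjTranspose b)
    exact (Matrix.isUnit_iff_isUnit_det _).1 this.isUnit
  have h1 : b * X = Y * b := by
    rw [hX, hY, mul_add, add_mul, Matrix.mul_smul, Matrix.mul_one, Matrix.smul_mul, Matrix.one_mul,
      Matrix.mul_assoc]
  have h2 : b * X⁻¹ = Y⁻¹ * b := by
    calc b * X⁻¹ = Y⁻¹ * Y * b * X⁻¹ := by rw [Matrix.nonsing_inv_mul _ hYu, Matrix.one_mul]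
      _ = Y⁻¹ * (b * X) * X⁻¹ := by rw [h1]; simp only [Matrix.mul_assoc]
      _ = Y⁻¹ * b := by
        rw [Matrix.mul_assoc, Matrix.mul_assoc b, Matrix.mul_nonsing_inv _ hXu, Matrix.mul_one]
  rw [h2, Matrix.mul_assoc]
  have h3 : b * bᴴ = Y - (y : ℂ) • (1 : Matrix ι ι ℂ) := by rw [hY]; abel
  rw [h3, Matrix.mul_sub, Matrix.nonsing_inv_mul _ hYu, Matrix.mul_smul, Matrix.mul_one]

lemma det_factor (D b c : Matrix ι ι ℂ) (hD : Dᴴ = D) {y : ℝ} (hy : 0 < y) :
    ((y : ℂ) • (1 : Matrix (ι ⊕ ι) (ι ⊕ ι) ℂ) +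
      (fromBlocks D b c 0)ᴴ * fromBlocks D b c 0).det =
      ((y : ℂ) • (1 : Matrix ι ι ℂ) + bᴴ * b).det *
        (((y : ℂ) • (1 : Matrix ι ι ℂ) + cᴴ * c) +
          (y : ℂ) • (D * ((y : ℂ) • (1 : Matrix ι ι ℂ) + b * bᴴ)⁻¹ * D)).det := by
  have hX : ((y : ℂ) • (1 : Matrix ι ι ℂ) + bᴴ * b).PosDef :=
    posDef_add hy (posSemidef_conjTranspose_mul_self b)
  have hXu : IsUnit ((y : ℂ) • (1 : Matrix ι ι ℂ) + bᴴ * b).det :=
    (Matrix.isUnit_iff_isUnit_det _).1 hX.isUnit
  have e1 : (y : ℂ) • (1 : Matrix (ι ⊕ ι) (ι ⊕ ι) ℂ) +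
      (fromBlocks D b c 0)ᴴ * fromBlocks D b c 0 =
      fromBlocks ((y : ℂ) • (1 : Matrix ι ι ℂ) + D * D + cᴴ * c) (D * b) (bᴴ * D)
        ((y : ℂ) • (1 : Matrix ι ι ℂ) + bᴴ * b) := by
    rw [fromBlocks_conjTranspose, fromBlocks_multiply, ← fromBlocks_one, fromBlocks_smul,
      fromBlocks_add, hD]
    simp [add_assoc]
  letI := Matrix.invertibleOfIsUnitDet _ hXu
  rw [e1, det_fromBlocks₂₂]
  congr 2
  rw [Matrix.invOf_eq_nonsing_inv]
  have := push_through hy b
  have h2 : D * b * ((y : ℂ) • (1 : Matrix ι ι ℂ) + bᴴ * b)⁻¹ * (bᴴ * D) =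
      D * (b * ((y : ℂ) • (1 : Matrix ι ι ℂ) + bᴴ * b)⁻¹ * bᴴ) * D := by
    simp only [Matrix.mul_assoc]
  rw [h2, this, Matrix.mul_sub, Matrix.sub_mul, Matrix.mul_one, Matrix.mul_smul, Matrix.smul_mul]
  abel

lemma smul_one_add_apply (y : ℂ) (A : Matrix ι ι ℂ) (k : ι) :
    ((y • (1 : Matrix ι ι ℂ) + A) k k) = y + A k k := by
  simp

lemma quad_factor {y σ p q : ℝ} (hσ : 0 ≤ σ) (hp : 0 ≤ p) (hq : 0 ≤ q) :
    (y + (σ + p + q + Real.sqrt ((σ + p + q) ^ 2 - 4 * (p * q))) / 2) *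
      (y + (σ + p + q - Real.sqrt ((σ + p + q) ^ 2 - 4 * (p * q))) / 2) =
      (y + p) * (y + q) + y * σ := by
  have h : 0 ≤ (σ + p + q) ^ 2 - 4 * (p * q) := by nlinarith [sq_nonneg (p - q), mul_nonneg hσ hp, mul_nonneg hσ hq, sq_nonneg σ]
  have := Real.sq_sqrt h
  ring_nf at this ⊢
  nlinarith

lemma root_nonneg {σ p q : ℝ} (hσ : 0 ≤ σ) (hp : 0 ≤ p) (hq : 0 ≤ q) :
    0 ≤ (σ + p + q - Real.sqrt ((σ + p + q) ^ 2 - 4 * (p * q))) / 2 := by
  have h : Real.sqrt ((σ + p + q) ^ 2 - 4 * (p * q)) ≤ σ + p + q := by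
    apply Real.sqrt_le_iff.2
    exact ⟨by positivity, by nlinarith [mul_nonneg hp hq]⟩
  linarith

lemma root_nonneg' {σ p q : ℝ} (hσ : 0 ≤ σ) (hp : 0 ≤ p) (hq : 0 ≤ q) :
    0 ≤ (σ + p + q + Real.sqrt ((σ + p + q) ^ 2 - 4 * (p * q))) / 2 := by
  positivity

/-- the inequality between the logarithms of the determinants -/
lemma log_ineq (s : ι → ℝ) (hs : ∀ i, 0 ≤ s i) (b c : Matrix ι ι ℂ)
    (hM : ((fromBlocks (diagonal fun i => (s i : ℂ)) b c 0)ᴴ *
      fromBlocks (diagonal fun i => (s i : ℂ)) b c 0).IsHermitian)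
    (hb : (bᴴ * b).IsHermitian) (hc : (cᴴ * c).IsHermitian) {y : ℝ} (hy : 0 < y) :
    (∏ i, (y + hb.eigenvalues i)) * (∏ i, (y + hc.eigenvalues i)) *
      ∏ k, (1 + (Real.sqrt y * s k) ^ 2 /
        ((y + ((b * bᴴ) k k).re) * (y + ((cᴴ * c) k k).re))) ≤
      ∏ i, (y + hM.eigenvalues i) := by
  have hD : (diagonal fun i => (s i : ℂ))ᴴ = diagonal fun i => (s i : ℂ) := by
    rw [diagonal_conjTranspose]
    congr 1
    ext i
    simp
  have h1 : ((y : ℂ) • (1 : Matrix ι ι ℂ) + b * bᴴ).PosDef :=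
    posDef_add hy (posSemidef_self_mul_conjTranspose b)
  have h2 : ((y : ℂ) • (1 : Matrix ι ι ℂ) + cᴴ * c).PosDef :=
    posDef_add hy (posSemidef_conjTranspose_mul_self c)
  have key := det_ineq h1 h2 (fun k => Real.sqrt y * s k)
    (fun k => mul_nonneg (Real.sqrt_nonneg _) (hs k))
  have hdet := det_factor (diagonal fun i => (s i : ℂ)) b c hD hy
  rw [det_add_eigenvalues hM y, det_add_eigenvalues hb y] at hdet
  have hre := congrArg Complex.re hdet
  rw [Complex.ofReal_re, Complex.re_ofReal_mul] at hre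
  rw [hre, mul_assoc]
  have hbpos : 0 ≤ ∏ i, (y + hb.eigenvalues i) := by
    refine Finset.prod_nonneg fun i _ => ?_
    have := (posSemidef_conjTranspose_mul_self b).eigenvalues_nonneg i
    linarith
  refine mul_le_mul_of_nonneg_left ?_ hbpos
  have e2 : ((y : ℂ) • (1 : Matrix ι ι ℂ) + cᴴ * c).det.re = ∏ i, (y + hc.eigenvalues i) := by
    rw [det_add_eigenvalues hc y, Complex.ofReal_re]
  have e3 : diagonal (fun k => ((Real.sqrt y * s k : ℝ) : ℂ)) =
      ((Real.sqrt y : ℝ) : ℂ) • diagonal (fun i => (s i : ℂ)) := by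
    rw [← diagonal_smul]
    congr 1
    ext i
    simp
  have e4 : ((Real.sqrt y : ℝ) : ℂ) * ((Real.sqrt y : ℝ) : ℂ) = (y : ℂ) := by
    rw [← Complex.ofReal_mul, Real.mul_self_sqrt hy.le]
  rw [e2, e3] at key
  simp only [Matrix.smul_mul, Matrix.mul_smul, smul_smul, e4] at key
  refine le_trans (le_of_eq ?_) key
  congr 1
  refine Finset.prod_congr rfl fun k _ => ?_
  rw [smul_one_add_apply, smul_one_add_apply]
  simp only [Complex.add_re, Complex.ofReal_re]

/-- the entropy inequality before the scalar convexity step -/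
lemma entropy_ineq (s : ι → ℝ) (hs : ∀ i, 0 ≤ s i) (b c : Matrix ι ι ℂ) :
    H (bᴴ * b) + H (cᴴ * c) +
      ∑ k, (H2 (s k ^ 2 + ((b * bᴴ) k k).re + ((cᴴ * c) k k).re)
          (((b * bᴴ) k k).re * ((cᴴ * c) k k).re)
        - Real.negMulLog ((b * bᴴ) k k).re - Real.negMulLog ((cᴴ * c) k k).re) ≤
      H ((fromBlocks (diagonal fun i => (s i : ℂ)) b c 0)ᴴ *
        fromBlocks (diagonal fun i => (s i : ℂ)) b c 0) := by
  set M := fromBlocks (diagonal fun i => (s i : ℂ)) b c 0 with hMdef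
  have hMp : (Mᴴ * M).PosSemidef := posSemidef_conjTranspose_mul_self M
  have hbp : (bᴴ * b).PosSemidef := posSemidef_conjTranspose_mul_self b
  have hcp : (cᴴ * c).PosSemidef := posSemidef_conjTranspose_mul_self c
  have hM := hMp.isHermitian
  have hb := hbp.isHermitian
  have hc := hcp.isHermitian
  rw [H_eq_eigenvalues hM, H_eq_eigenvalues hb, H_eq_eigenvalues hc]
  set p : ι → ℝ := fun k => ((b * bᴴ) k k).re with hp
  set q : ι → ℝ := fun k => ((cᴴ * c) k k).re with hq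
  have hp0 : ∀ k, 0 ≤ p k := fun k => by
    simp only [hp]
    rw [mul_conjTranspose_diag, Complex.ofReal_re]
    exact Finset.sum_nonneg fun _ _ => sq_nonneg _
  have hq0 : ∀ k, 0 ≤ q k := fun k => by
    simp only [hq]
    rw [conjTranspose_mul_diag, Complex.ofReal_re]
    exact Finset.sum_nonneg fun _ _ => sq_nonneg _
  have hs0 : ∀ k, 0 ≤ s k ^ 2 := fun k => sq_nonneg _
  set lp : ι → ℝ := fun k => (s k ^ 2 + p k + q k +
    Real.sqrt ((s k ^ 2 + p k + q k) ^ 2 - 4 * (p k * q k))) / 2 with hlp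
  set lm : ι → ℝ := fun k => (s k ^ 2 + p k + q k -
    Real.sqrt ((s k ^ 2 + p k + q k) ^ 2 - 4 * (p k * q k))) / 2 with hlm
  have hlp0 : ∀ k, 0 ≤ lp k := fun k => root_nonneg' (hs0 k) (hp0 k) (hq0 k)
  have hlm0 : ∀ k, 0 ≤ lm k := fun k => root_nonneg (hs0 k) (hp0 k) (hq0 k)
  have hM0 := fun i => hMp.eigenvalues_nonneg i
  have hb0 := fun i => hbp.eigenvalues_nonneg i
  have hc0 := fun i => hcp.eigenvalues_nonneg i
  -- apply Part C
  let ε : (ι ⊕ ι) ⊕ (ι × Fin 6) → ℝ := Sum.elim (fun _ => 1) (fun x => ![-1, -1, -1, -1, 1, 1] x.2)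
  let l : (ι ⊕ ι) ⊕ (ι × Fin 6) → ℝ := Sum.elim (fun i => hM.eigenvalues i)
    (fun x => ![hb.eigenvalues x.1, hc.eigenvalues x.1, lp x.1, lm x.1, p x.1, q x.1] x.2)
  have hsum : ∀ f : ℝ → ℝ, ∑ i, ε i * f (l i) = ∑ i, f (hM.eigenvalues i) +
      ∑ k, (-f (hb.eigenvalues k) - f (hc.eigenvalues k) - f (lp k) - f (lm k)
        + f (p k) + f (q k)) := by
    intro f
    rw [Fintype.sum_sum_type, Fintype.sum_prod_type]
    congr 1
    · refine Finset.sum_congr rfl fun i _ => ?_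
      simp [ε, l]
    · refine Finset.sum_congr rfl fun k _ => ?_
      simp only [ε, l, Sum.elim_inr, Fin.sum_univ_six]
      simp
      ring
  have hl : ∀ i, 0 ≤ l i := by
    rintro (i | ⟨k, j⟩)
    · exact hM0 i
    · fin_cases j
      · exact hb0 k
      · exact hc0 k
      · exact hlp0 k
      · exact hlm0 k
      · exact hp0 k
      · exact hq0 k
  have h0 : ∑ i, ε i = 0 := by
    have := hsum (fun _ => 1)
    simp only [mul_one] at this
    rw [this]
    simp only [Finset.sum_const, Finset.card_univ, Fintype.card_sum, nsmul_eq_mul, Nat.cast_add]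
    ring
  have htr : ∑ i, hM.eigenvalues i = ∑ k, (s k ^ 2 + p k + q k) := by
    have e1 := hM.trace_eq_sum_eigenvalues
    have e2 := trace_conjTranspose_mul M
    have e3 : ((nsq M : ℝ) : ℂ) = ((∑ i, hM.eigenvalues i : ℝ) : ℂ) := by
      rw [← e2, e1]
      push_cast
      rfl
    have e4 : nsq M = ∑ i, hM.eigenvalues i := by exact_mod_cast e3
    rw [← e4]
    have e5 : nsq M = ∑ k, s k ^ 2 + nsq b + nsq c := by
      unfold nsq
      rw [Fintype.sum_sum_type]
      simp only [Fintype.sum_sum_type, hMdef, fromBlocks_apply₁₁, fromBlocks_apply₁₂,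
        fromBlocks_apply₂₁, fromBlocks_apply₂₂, Matrix.zero_apply, norm_zero,
        Finset.sum_add_distrib]
      have : ∀ i, ∑ j, ‖(diagonal fun i => (s i : ℂ)) i j‖ ^ 2 = s i ^ 2 := by
        intro i
        rw [Finset.sum_eq_single i]
        · rw [diagonal_apply_eq, Complex.norm_real, Real.norm_eq_abs, sq_abs]
        · intro j _ hj
          rw [diagonal_apply_ne _ hj.symm, norm_zero]
          norm_num
        · intro h
          exact absurd (Finset.mem_univ i) h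
      simp only [this]
      simp
    rw [e5, nsq_eq_sum_re b, nsq_eq_sum_re' c, Finset.sum_add_distrib, Finset.sum_add_distrib]
  have htb : ∑ i, hb.eigenvalues i = ∑ k, p k := by
    have e1 := hb.trace_eq_sum_eigenvalues
    have e2 := trace_conjTranspose_mul b
    have e3 : ((nsq b : ℝ) : ℂ) = ((∑ i, hb.eigenvalues i : ℝ) : ℂ) := by
      rw [← e2, e1]
      push_cast
      rfl
    have e4 : nsq b = ∑ i, hb.eigenvalues i := by exact_mod_cast e3
    rw [← e4, nsq_eq_sum_re b]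
  have htc : ∑ i, hc.eigenvalues i = ∑ k, q k := by
    have e1 := hc.trace_eq_sum_eigenvalues
    have e2 := trace_conjTranspose_mul c
    have e3 : ((nsq c : ℝ) : ℂ) = ((∑ i, hc.eigenvalues i : ℝ) : ℂ) := by
      rw [← e2, e1]
      push_cast
      rfl
    have e4 : nsq c = ∑ i, hc.eigenvalues i := by exact_mod_cast e3
    rw [← e4, nsq_eq_sum_re' c]
  have h1 : ∑ i, ε i * l i = 0 := by
    have := hsum (fun x => x)
    rw [this, htr, Finset.sum_add_distrib, Finset.sum_add_distrib]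
    simp only [Finset.sum_add_distrib, Finset.sum_sub_distrib, Finset.sum_neg_distrib, htb, htc]
    have hlpm : ∑ k, lp k + ∑ k, lm k = ∑ k, (s k ^ 2 + p k + q k) := by
      rw [← Finset.sum_add_distrib]
      refine Finset.sum_congr rfl fun k _ => ?_
      simp only [hlp, hlm]
      ring
    rw [Finset.sum_add_distrib, Finset.sum_add_distrib] at hlpm
    linarith
  have hlog : ∀ y : ℝ, 0 < y → 0 ≤ ∑ i, ε i * Real.log (y + l i) := by
    intro y hy
    have := hsum (fun x => Real.log (y + x))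
    rw [this]
    have hli := log_ineq s hs b c hM hb hc hy
    have pb : ∀ k, 0 < y + hb.eigenvalues k := fun k => add_pos_of_pos_of_nonneg hy (hb0 k)
    have pc : ∀ k, 0 < y + hc.eigenvalues k := fun k => add_pos_of_pos_of_nonneg hy (hc0 k)
    have pM : ∀ k, 0 < y + hM.eigenvalues k := fun k => add_pos_of_pos_of_nonneg hy (hM0 k)
    have pp : ∀ k, 0 < y + p k := fun k => add_pos_of_pos_of_nonneg hy (hp0 k)
    have pq : ∀ k, 0 < y + q k := fun k => add_pos_of_pos_of_nonneg hy (hq0 k)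
    have plp : ∀ k, 0 < y + lp k := fun k => add_pos_of_pos_of_nonneg hy (hlp0 k)
    have plm : ∀ k, 0 < y + lm k := fun k => add_pos_of_pos_of_nonneg hy (hlm0 k)
    have hfac : ∀ k, 1 + (Real.sqrt y * s k) ^ 2 /
        ((y + ((b * bᴴ) k k).re) * (y + ((cᴴ * c) k k).re)) =
        ((y + lp k) * (y + lm k)) / ((y + p k) * (y + q k)) := by
      intro k
      have e := quad_factor (y := y) (hs0 k) (hp0 k) (hq0 k)
      have hne : (y + p k) * (y + q k) ≠ 0 := (mul_pos (pp k) (pq k)).ne'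
      change 1 + (Real.sqrt y * s k) ^ 2 / ((y + p k) * (y + q k)) = _
      rw [mul_pow, Real.sq_sqrt hy.le, eq_div_iff hne, add_mul, div_mul_cancel₀ _ hne]
      simp only [hlp, hlm]
      rw [e]
      ring
    have h2 := Real.log_le_log (by
      refine mul_pos (mul_pos (Finset.prod_pos fun k _ => pb k)
        (Finset.prod_pos fun k _ => pc k)) (Finset.prod_pos fun k _ => ?_)
      rw [hfac]
      exact div_pos (mul_pos (plp k) (plm k)) (mul_pos (pp k) (pq k))) hli
    simp only [hfac] at h2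
    rw [Real.log_mul (mul_pos (Finset.prod_pos fun k _ => pb k)
        (Finset.prod_pos fun k _ => pc k)).ne'
        (Finset.prod_pos fun k _ => div_pos (mul_pos (plp k) (plm k))
          (mul_pos (pp k) (pq k))).ne',
      Real.log_mul (Finset.prod_pos fun k _ => pb k).ne' (Finset.prod_pos fun k _ => pc k).ne',
      Real.log_prod (fun k _ => (pb k).ne'), Real.log_prod (fun k _ => (pc k).ne'),
      Real.log_prod (fun k _ => (div_pos (mul_pos (plp k) (plm k)) (mul_pos (pp k) (pq k))).ne'),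
      Real.log_prod (fun k _ => (pM k).ne')] at h2
    have h3 : ∀ k, Real.log ((y + lp k) * (y + lm k) / ((y + p k) * (y + q k))) =
        Real.log (y + lp k) + Real.log (y + lm k) - Real.log (y + p k) - Real.log (y + q k) := by
      intro k
      rw [Real.log_div (mul_pos (plp k) (plm k)).ne' (mul_pos (pp k) (pq k)).ne',
        Real.log_mul (plp k).ne' (plm k).ne', Real.log_mul (pp k).ne' (pq k).ne']
      ring
    simp only [h3, Finset.sum_add_distrib, Finset.sum_sub_distrib] at h2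
    simp only [Finset.sum_add_distrib, Finset.sum_sub_distrib, Finset.sum_neg_distrib]
    linarith
  have hfin := sum_negMulLog_nonneg ε l hl h0 h1 hlog
  rw [hsum Real.negMulLog] at hfin
  have hH2 : ∀ k, H2 (s k ^ 2 + ((b * bᴴ) k k).re + ((cᴴ * c) k k).re)
        (((b * bᴴ) k k).re * ((cᴴ * c) k k).re)
        - Real.negMulLog ((b * bᴴ) k k).re - Real.negMulLog ((cᴴ * c) k k).re =
      Real.negMulLog (lp k) + Real.negMulLog (lm k) - Real.negMulLog (p k)
        - Real.negMulLog (q k) := fun k => rfl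
  simp only [hH2]
  simp only [Finset.sum_add_distrib, Finset.sum_sub_distrib, Finset.sum_neg_distrib] at hfin ⊢
  linarith

theorem key_diag (s : ι → ℝ) (hs : ∀ i, 0 ≤ s i) (b c : Matrix ι ι ℂ) :
    H2 (nsq (diagonal fun i => (s i : ℂ)) + nsq b + nsq c) (nsq b * nsq c)
      + Ent (diagonal fun i => (s i : ℂ)) + Ent b + Ent c ≤
    H (fromBlocks (diagonal fun i => (s i : ℂ)) b c 0 *
      (fromBlocks (diagonal fun i => (s i : ℂ)) b c 0)ᴴ) := by
  have h1 := entropy_ineq s hs b c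
  have hnd : nsq (diagonal fun i => (s i : ℂ)) = ∑ k, s k ^ 2 := by
    unfold nsq
    refine Finset.sum_congr rfl fun i _ => ?_
    rw [Finset.sum_eq_single i]
    · rw [diagonal_apply_eq, Complex.norm_real, Real.norm_eq_abs, sq_abs]
    · intro j _ hj
      rw [diagonal_apply_ne _ hj.symm, norm_zero]
      norm_num
    · intro h
      exact absurd (Finset.mem_univ i) h
  have hp0 : ∀ k, 0 ≤ ((b * bᴴ) k k).re := fun k => by
    rw [mul_conjTranspose_diag, Complex.ofReal_re]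
    exact Finset.sum_nonneg fun _ _ => sq_nonneg _
  have hq0 : ∀ k, 0 ≤ ((cᴴ * c) k k).re := fun k => by
    rw [conjTranspose_mul_diag, Complex.ofReal_re]
    exact Finset.sum_nonneg fun _ _ => sq_nonneg _
  have h2 := W_subadd (fun k => s k ^ 2) (fun k => ((b * bᴴ) k k).re)
    (fun k => ((cᴴ * c) k k).re) (fun k => sq_nonneg _) hp0 hq0
  rw [← hnd, ← nsq_eq_sum_re b, ← nsq_eq_sum_re' c] at h2
  have hHd : H ((diagonal fun i => (s i : ℂ)) * (diagonal fun i => (s i : ℂ))ᴴ) =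
      ∑ k, Real.negMulLog (s k ^ 2) := by
    have : (diagonal fun i => (s i : ℂ)) * (diagonal fun i => (s i : ℂ))ᴴ =
        diagonal fun i => ((s i ^ 2 : ℝ) : ℂ) := by
      rw [diagonal_conjTranspose, diagonal_mul_diagonal]
      congr 1
      ext i
      simp [sq]
    rw [this, H_diagonal]
  unfold Ent
  rw [hHd, H_mul_comm b bᴴ, H_mul_comm c cᴴ,
    H_mul_comm (fromBlocks (diagonal fun i => (s i : ℂ)) b c 0)]
  simp only [Finset.sum_sub_distrib] at h1 h2
  linarith

end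

end Vale.Agent.GAD
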