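import Vale.Agent.GAD.PartA
import Vale.Agent.GAD.PartF
import Vale.Agent.GAD.PartK1
import Vale.Agent.GAD.Nsq

/-!
P358, part K2: the key lemma in general.
-/

namespace Vale.Agent.GAD

open Matrix
open scoped ComplexOrder

section

variable {ι κ ι' κ' : Type} [Fintype ι] [DecidableEq ι] [Fintype κ] [DecidableEq κ]
  [Fintype ι'] [DecidableEq ι'] [Fintype κ'] [DecidableEq κ']

lemma H_isometry {E : Matrix κ ι ℂ} (hE : Eᴴ * E = 1) (A : Matrix ι ι ℂ) :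
    H (E * A * Eᴴ) = H A := by
  rw [H_mul_comm, ← Matrix.mul_assoc, hE, Matrix.one_mul]

omit [DecidableEq ι'] in
lemma nsq_isometry {E : Matrix ι' ι ℂ} (hE : Eᴴ * E = 1) {F : Matrix κ' κ ℂ} (hF : Fᴴ * F = 1)
    (a : Matrix ι κ ℂ) : nsq (E * a * Fᴴ) = nsq a := by
  have h : ((nsq (E * a * Fᴴ) : ℝ) : ℂ) = ((nsq a : ℝ) : ℂ) := by
    rw [← trace_mul_conjTranspose, ← trace_mul_conjTranspose]
    simp only [conjTranspose_mul, conjTranspose_conjTranspose]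
    have : E * a * Fᴴ * (F * (aᴴ * Eᴴ)) = E * (a * (Fᴴ * F) * aᴴ) * Eᴴ := by
      simp only [Matrix.mul_assoc]
    rw [this, hF, Matrix.mul_one, Matrix.trace_mul_comm, ← Matrix.mul_assoc, hE, Matrix.one_mul]
  exact_mod_cast h

lemma Ent_isometry {E : Matrix ι' ι ℂ} (hE : Eᴴ * E = 1) {F : Matrix κ' κ ℂ} (hF : Fᴴ * F = 1)
    (a : Matrix ι κ ℂ) : Ent (E * a * Fᴴ) = Ent a := by
  unfold Ent
  rw [nsq_isometry hE hF]
  congr 1
  simp only [conjTranspose_mul, conjTranspose_conjTranspose]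
  have : E * a * Fᴴ * (F * (aᴴ * Eᴴ)) = E * (a * (Fᴴ * F) * aᴴ) * Eᴴ := by
    simp only [Matrix.mul_assoc]
  rw [this, hF, Matrix.mul_one, H_isometry hE]

/-- the key inequality, as a predicate -/
def KeyFor (a b c : Matrix ι κ ℂ) : Prop :=
  H2 (nsq a + nsq b + nsq c) (nsq b * nsq c) + Ent a + Ent b + Ent c ≤
    H (fromBlocks a b c 0 * (fromBlocks a b c 0)ᴴ)

lemma block_isometry {E : Matrix ι' ι ℂ} (hE : Eᴴ * E = 1) {E' : Matrix ι' ι ℂ}
    (hE' : E'ᴴ * E' = 1) :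
    (fromBlocks E 0 0 E')ᴴ * fromBlocks E 0 0 E' = (1 : Matrix (ι ⊕ ι) (ι ⊕ ι) ℂ) := by
  rw [fromBlocks_conjTranspose, fromBlocks_multiply]
  simp [hE, hE']

lemma keyFor_of_isometry {E E' : Matrix ι' ι ℂ} (hE : Eᴴ * E = 1) (hE' : E'ᴴ * E' = 1)
    {F F' : Matrix κ' κ ℂ} (hF : Fᴴ * F = 1) (hF' : F'ᴴ * F' = 1) (a b c : Matrix ι κ ℂ)
    (h : KeyFor (E * a * Fᴴ) (E * b * F'ᴴ) (E' * c * Fᴴ)) : KeyFor a b c := by
  unfold KeyFor at h ⊢
  rw [nsq_isometry hE hF, nsq_isometry hE hF', nsq_isometry hE' hF, Ent_isometry hE hF,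
    Ent_isometry hE hF', Ent_isometry hE' hF] at h
  have e : fromBlocks (E * a * Fᴴ) (E * b * F'ᴴ) (E' * c * Fᴴ) (0 : Matrix ι' κ' ℂ) =
      fromBlocks E 0 0 E' * fromBlocks a b c 0 * (fromBlocks F 0 0 F')ᴴ := by
    rw [fromBlocks_conjTranspose, fromBlocks_multiply, fromBlocks_multiply]
    simp
  have e2 : fromBlocks (E * a * Fᴴ) (E * b * F'ᴴ) (E' * c * Fᴴ) (0 : Matrix ι' κ' ℂ) *
      (fromBlocks (E * a * Fᴴ) (E * b * F'ᴴ) (E' * c * Fᴴ) (0 : Matrix ι' κ' ℂ))ᴴ =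
      fromBlocks E 0 0 E' * (fromBlocks a b c 0 * (fromBlocks a b c 0)ᴴ) *
        (fromBlocks E 0 0 E')ᴴ := by
    rw [e]
    simp only [conjTranspose_mul, conjTranspose_conjTranspose]
    have : fromBlocks E 0 0 E' * fromBlocks a b c 0 * (fromBlocks F 0 0 F')ᴴ *
        (fromBlocks F 0 0 F' * ((fromBlocks a b c 0)ᴴ * (fromBlocks E 0 0 E')ᴴ)) =
        fromBlocks E 0 0 E' * (fromBlocks a b c 0 *
          ((fromBlocks F 0 0 F')ᴴ * fromBlocks F 0 0 F') * (fromBlocks a b c 0)ᴴ) *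
          (fromBlocks E 0 0 E')ᴴ := by
      simp only [Matrix.mul_assoc]
    rw [this, block_isometry hF hF', Matrix.mul_one]
  rw [e2, H_isometry (block_isometry hE hE')] at h
  exact h

lemma key_sq (a b c : Matrix ι ι ℂ) : KeyFor a b c := by
  obtain ⟨U, V, s, hU, hV, hs, rfl⟩ := exists_svd a
  have hU' : U * Uᴴ = 1 := mul_eq_one_comm.1 hU
  have hV' : V * Vᴴ = 1 := mul_eq_one_comm.1 hV
  refine keyFor_of_isometry (E := Uᴴ) (E' := 1) (F := Vᴴ) (F' := 1) ?_ (by simp) ?_ (by simp)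
    _ _ _ ?_
  · rw [conjTranspose_conjTranspose]; exact hU'
  · rw [conjTranspose_conjTranspose]; exact hV'
  have e1 : Uᴴ * (U * diagonal (fun i => (s i : ℂ)) * Vᴴ) * Vᴴᴴ =
      diagonal (fun i => (s i : ℂ)) := by
    rw [conjTranspose_conjTranspose]
    have : Uᴴ * (U * diagonal (fun i => (s i : ℂ)) * Vᴴ) * V =
        (Uᴴ * U) * diagonal (fun i => (s i : ℂ)) * (Vᴴ * V) := by
      simp only [Matrix.mul_assoc]
    rw [this, hU, hV, Matrix.one_mul, Matrix.mul_one]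
  rw [e1]
  exact key_diag s hs _ _

theorem key (a b c : Matrix ι κ ℂ) :
    H2 (nsq a + nsq b + nsq c) (nsq b * nsq c) + Ent a + Ent b + Ent c ≤
      H (fromBlocks a b c 0 * (fromBlocks a b c 0)ᴴ) := by
  let E : Matrix (ι ⊕ κ) ι ℂ := fromRows 1 0
  let F : Matrix (ι ⊕ κ) κ ℂ := fromRows 0 1
  have hE : Eᴴ * E = 1 := by
    simp [E, conjTranspose_fromRows_eq_fromCols_conjTranspose, fromCols_mul_fromRows]
  have hF : Fᴴ * F = 1 := by
    simp [F, conjTranspose_fromRows_eq_fromCols_conjTranspose, fromCols_mul_fromRows]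
  exact keyFor_of_isometry hE hE hF hF a b c (key_sq _ _ _)

end

end Vale.Agent.GAD
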