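import Vale.Agent.GAD.PartA
import Vale.Agent.GAD.PartE1
import Vale.Agent.GAD.PartK2
import Vale.Agent.GAD.Nsq

/-!
P358, part R: channels with two Kraus operators.
-/

namespace Vale.Agent.GAD

open Matrix
open scoped ComplexOrder

lemma real_F3 {p1 p2 q1 q2 r1 r2 s1 s2 : ℝ}
    (hre : p1 * s1 - p2 * s2 + (q1 * r1 - q2 * r2) = 0)
    (him : p1 * s2 + p2 * s1 + (q1 * r2 + q2 * r1) = 0) :
    (p1 * q1 + p2 * q2) * (r1 * s1 + r2 * s2) ≤ 0 := by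
  have F1 : (p1 ^ 2 + p2 ^ 2) * (r1 * s1 + r2 * s2) +
      (r1 ^ 2 + r2 ^ 2) * (p1 * q1 + p2 * q2) = 0 := by
    linear_combination (p1 * r1 - p2 * r2) * hre + (p1 * r2 + p2 * r1) * him
  have F2 : (q1 ^ 2 + q2 ^ 2) * (r1 * s1 + r2 * s2) +
      (s1 ^ 2 + s2 ^ 2) * (p1 * q1 + p2 * q2) = 0 := by
    linear_combination (q1 * s1 - q2 * s2) * hre + (q1 * s2 + q2 * s1) * him
  by_contra hc
  push Not at hc
  have e : ((p1 ^ 2 + p2 ^ 2) + (q1 ^ 2 + q2 ^ 2)) *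
      ((p1 * q1 + p2 * q2) * (r1 * s1 + r2 * s2)) =
      -(((r1 ^ 2 + r2 ^ 2) + (s1 ^ 2 + s2 ^ 2)) * (p1 * q1 + p2 * q2) ^ 2) := by
    linear_combination (p1 * q1 + p2 * q2) * F1 + (p1 * q1 + p2 * q2) * F2
  have h2 : ((p1 ^ 2 + p2 ^ 2) + (q1 ^ 2 + q2 ^ 2)) *
      ((p1 * q1 + p2 * q2) * (r1 * s1 + r2 * s2)) ≤ 0 := by
    rw [e]
    have : 0 ≤ ((r1 ^ 2 + r2 ^ 2) + (s1 ^ 2 + s2 ^ 2)) * (p1 * q1 + p2 * q2) ^ 2 := by positivity
    linarith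
  have h1 : 0 ≤ ((p1 ^ 2 + p2 ^ 2) + (q1 ^ 2 + q2 ^ 2)) := by positivity
  rcases h1.eq_or_lt with h4 | h4
  · have hp1 : p1 = 0 := by
      have : p1 ^ 2 = 0 := by linarith [sq_nonneg p1, sq_nonneg p2, sq_nonneg q1, sq_nonneg q2]
      exact pow_eq_zero_iff (two_ne_zero) |>.1 this
    have hp2 : p2 = 0 := by
      have : p2 ^ 2 = 0 := by linarith [sq_nonneg p1, sq_nonneg p2, sq_nonneg q1, sq_nonneg q2]
      exact pow_eq_zero_iff (two_ne_zero) |>.1 this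
    rw [hp1, hp2] at hc
    simp at hc
  · exact absurd (mul_pos h4 hc) (not_lt.2 h2)

lemma real_ineq {p1 p2 q1 q2 r1 r2 s1 s2 x y t : ℝ}
    (hre : p1 * s1 - p2 * s2 + (q1 * r1 - q2 * r2) = 0)
    (him : p1 * s2 + p2 * s1 + (q1 * r2 + q2 * r1) = 0) (ht : t ^ 2 ≤ x * y) :
    ((p1 * r1 - p2 * r2) * x + (q1 * s1 - q2 * s2) * y) ^ 2 +
      ((p1 * r2 + p2 * r1) * x + (q1 * s2 + q2 * s1) * y) ^ 2 ≤
      ((p1 ^ 2 + p2 ^ 2) * x + (q1 ^ 2 + q2 ^ 2) * y + 2 * (t * (p1 * q1 + p2 * q2))) *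
      ((r1 ^ 2 + r2 ^ 2) * x + (s1 ^ 2 + s2 ^ 2) * y + 2 * (t * (r1 * s1 + r2 * s2))) := by
  have F3 := real_F3 hre him
  have F5 : 0 ≤ (t ^ 2 - x * y) * ((p1 * q1 + p2 * q2) * (r1 * s1 + r2 * s2)) :=
    mul_nonneg_of_nonpos_of_nonpos (by linarith) F3
  have key : ((p1 ^ 2 + p2 ^ 2) * x + (q1 ^ 2 + q2 ^ 2) * y + 2 * (t * (p1 * q1 + p2 * q2))) *
      ((r1 ^ 2 + r2 ^ 2) * x + (s1 ^ 2 + s2 ^ 2) * y + 2 * (t * (r1 * s1 + r2 * s2))) -
      (((p1 * r1 - p2 * r2) * x + (q1 * s1 - q2 * s2) * y) ^ 2 +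
      ((p1 * r2 + p2 * r1) * x + (q1 * s2 + q2 * s1) * y) ^ 2) =
      4 * ((t ^ 2 - x * y) * ((p1 * q1 + p2 * q2) * (r1 * s1 + r2 * s2))) := by
    linear_combination (2 * t * x * (p1 * r1 - p2 * r2) + 2 * t * y * (q1 * s1 - q2 * s2) +
        x * y * (p1 * s1 - p2 * s2 + (q1 * r1 - q2 * r2))) * hre +
      (2 * t * x * (p1 * r2 + p2 * r1) + 2 * t * y * (q1 * s2 + q2 * s1) +
        x * y * (p1 * s2 + p2 * s1 + (q1 * r2 + q2 * r1))) * him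
  linarith

/-- scalar inequality behind the determinant bound -/
lemma scalar_ineq {p p' r r' : ℂ} (h : p * r' + p' * r = 0) {x y t : ℝ}
    (ht : t ^ 2 ≤ x * y) :
    ‖p * r * (x : ℂ) + p' * r' * (y : ℂ)‖ ^ 2 ≤
      (‖p‖ ^ 2 * x + ‖p'‖ ^ 2 * y + 2 * (t * (p * (starRingEnd ℂ) p').re)) *
      (‖r‖ ^ 2 * x + ‖r'‖ ^ 2 * y + 2 * (t * (r * (starRingEnd ℂ) r').re)) := by
  have hre := congrArg Complex.re h
  have him := congrArg Complex.im h
  simp only [Complex.add_re, Complex.mul_re, Complex.zero_re, Complex.add_im, Complex.mul_im,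
    Complex.zero_im] at hre him
  have := real_ineq hre him ht
  simp only [← Complex.normSq_eq_norm_sq, Complex.normSq_apply, Complex.add_re, Complex.add_im,
    Complex.mul_re, Complex.mul_im, Complex.ofReal_re, Complex.ofReal_im, Complex.conj_re,
    Complex.conj_im]
  refine le_trans (le_of_eq ?_) (this.trans (le_of_eq ?_)) <;> ring

/-- normalisation of a nonzero vector of `ℂ²` -/
lemma exists_unit {v0 v1 : ℂ} (h : ¬ (v0 = 0 ∧ v1 = 0)) :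
    ∃ c : ℂ, c ≠ 0 ∧ ‖c * v0‖ ^ 2 + ‖c * v1‖ ^ 2 = 1 := by
  have hpos : 0 < ‖v0‖ ^ 2 + ‖v1‖ ^ 2 := by
    rcases not_and_or.1 h with h | h
    · have := pow_pos (norm_pos_iff.2 h) 2
      positivity
    · have := pow_pos (norm_pos_iff.2 h) 2
      positivity
  refine ⟨((Real.sqrt (‖v0‖ ^ 2 + ‖v1‖ ^ 2))⁻¹ : ℝ), ?_, ?_⟩
  · have : Real.sqrt (‖v0‖ ^ 2 + ‖v1‖ ^ 2) ≠ 0 := (Real.sqrt_pos.2 hpos).ne'
    exact_mod_cast inv_ne_zero this
  · rw [norm_mul, norm_mul, Complex.norm_real, mul_pow, mul_pow, ← mul_add, Real.norm_eq_abs,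
      sq_abs, inv_pow, Real.sq_sqrt hpos.le]
    exact inv_mul_cancel₀ hpos.ne'

/-- a unit vector `g` with `k1 k2 g0² = k3 k4 g1²` -/
lemma exists_g (k1 k2 k3 k4 : ℂ) : ∃ g0 g1 : ℂ, ‖g0‖ ^ 2 + ‖g1‖ ^ 2 = 1 ∧
    k1 * k2 * g0 ^ 2 = k3 * k4 * g1 ^ 2 := by
  by_cases h : k1 * k2 = 0
  · exact ⟨1, 0, by simp, by simp [h]⟩
  · obtain ⟨z, hz⟩ := IsAlgClosed.exists_pow_nat_eq (k3 * k4 / (k1 * k2)) (n := 2) (by norm_num)
    obtain ⟨c, _, hc⟩ := exists_unit (v0 := z) (v1 := 1) (by simp)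
    refine ⟨c * z, c * 1, hc, ?_⟩
    rw [mul_pow, mul_pow, hz]
    have hk : k1 * k2 * (k3 * k4 / (k1 * k2)) = k3 * k4 := mul_div_cancel₀ _ h
    linear_combination c ^ 2 * hk

/-- a unit vector in the left kernel of a singular `2 × 2` matrix -/
lemma exists_e {a b c d : ℂ} (h : a * d = b * c) : ∃ e0 e1 : ℂ, ‖e0‖ ^ 2 + ‖e1‖ ^ 2 = 1 ∧
    e0 * a + e1 * b = 0 ∧ e0 * c + e1 * d = 0 := by
  have hdet : (!![a, b; c, d] : Matrix (Fin 2) (Fin 2) ℂ).det = 0 := by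
    rw [Matrix.det_fin_two_of, h, sub_self]
  obtain ⟨v, hv, hv0⟩ := Matrix.exists_mulVec_eq_zero_iff.2 hdet
  have hne : ¬ (v 0 = 0 ∧ v 1 = 0) := by
    rintro ⟨h0, h1⟩
    apply hv
    ext i
    fin_cases i
    · exact h0
    · exact h1
  obtain ⟨t, _, ht⟩ := exists_unit hne
  have e0 := congrFun hv0 0
  have e1 := congrFun hv0 1
  simp [Matrix.mulVec, dotProduct, Fin.sum_univ_two] at e0 e1
  exact ⟨t * v 0, t * v 1, ht, by linear_combination t * e0, by linear_combination t * e1⟩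

section

variable {ι κ : Type} [Fintype ι] [DecidableEq ι] [Fintype κ] [DecidableEq κ]

/-- scalar block unitary -/
lemma block_unitary {u0 u1 : ℂ} (h : ‖u0‖ ^ 2 + ‖u1‖ ^ 2 = 1) :
    (fromBlocks ((starRingEnd ℂ) u1 • (1 : Matrix ι ι ℂ)) (-(starRingEnd ℂ) u0 • 1)
      (u0 • 1) (u1 • (1 : Matrix ι ι ℂ)))ᴴ *
    fromBlocks ((starRingEnd ℂ) u1 • (1 : Matrix ι ι ℂ)) (-(starRingEnd ℂ) u0 • 1)
      (u0 • 1) (u1 • (1 : Matrix ι ι ℂ)) = 1 := by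
  have hc : u0 * (starRingEnd ℂ) u0 + u1 * (starRingEnd ℂ) u1 = 1 := by
    rw [Complex.mul_conj, Complex.mul_conj, Complex.normSq_eq_norm_sq, Complex.normSq_eq_norm_sq]
    exact_mod_cast h
  rw [fromBlocks_conjTranspose, fromBlocks_multiply, ← fromBlocks_one]
  simp only [conjTranspose_smul, conjTranspose_one, Matrix.mul_smul,
    Matrix.mul_one, smul_smul, ← add_smul, RCLike.star_def, Complex.conj_conj,
    map_neg]
  congr 1
  · rw [show (starRingEnd ℂ) u1 * u1 + u0 * (starRingEnd ℂ) u0 = 1 by linear_combination hc,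
      one_smul]
  · rw [show -(starRingEnd ℂ) u0 * u1 + u1 * (starRingEnd ℂ) u0 = 0 by ring, zero_smul]
  · rw [show (starRingEnd ℂ) u1 * -u0 + u0 * (starRingEnd ℂ) u1 = 0 by ring, zero_smul]
  · rw [show -(starRingEnd ℂ) u0 * -u0 + u1 * (starRingEnd ℂ) u1 = 1 by linear_combination hc,
      one_smul]

omit [DecidableEq ι] [DecidableEq κ] in
/-- Cauchy-Schwarz -/
lemma trace_sq_le (a b : Matrix ι κ ℂ) :
    ((a * bᴴ).trace.re) ^ 2 ≤ nsq a * nsq b := by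
  have key : ∀ t : ℝ, 0 ≤ nsq a * (t * t) + (2 * (a * bᴴ).trace.re) * t + nsq b := by
    intro t
    have h := nsq_comb (t : ℂ) 1 a b
    have h2 := nsq_nonneg ((t : ℂ) • a + (1 : ℂ) • b)
    rw [h] at h2
    simp only [Complex.norm_real, Real.norm_eq_abs, sq_abs, norm_one, one_pow, one_mul, map_one,
      mul_one, Complex.re_ofReal_mul] at h2
    linarith
  have := discrim_le_zero key
  unfold discrim at this
  linarith

theorem rank_two {k1 k2 k3 k4 : ℂ} (h14 : ‖k1‖ ^ 2 + ‖k4‖ ^ 2 = 1) (h23 : ‖k2‖ ^ 2 + ‖k3‖ ^ 2 = 1)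
    (a b : Matrix ι κ ℂ) (hab : (a * bᴴ).trace.im = 0) :
    ∃ l l' : Fin 3 → ℂ, ∑ j, ‖l j‖ ^ 2 = 1 ∧ ∑ j, ‖l' j‖ ^ 2 = 1 ∧
      ∑ j, l j * (starRingEnd ℂ) (l' j) = 0 ∧
      H2 (nsq a + nsq b) (‖k1 * k4 * (nsq a : ℂ) - k2 * k3 * (nsq b : ℂ)‖ ^ 2)
        + ∑ j, Ent (l j • a + l' j • b) ≤
      H (fromBlocks (k1 • a) (k3 • b) (k2 • b) (k4 • a) *
        (fromBlocks (k1 • a) (k3 • b) (k2 • b) (k4 • a))ᴴ) := by
  obtain ⟨g0, g1, hg, hgk⟩ := exists_g k1 k2 k3 k4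
  obtain ⟨e0, e1, he, he1, he2⟩ := exists_e (a := k1 * g0) (b := k4 * g1) (c := k3 * g1)
    (d := k2 * g0) (by linear_combination hgk)
  have hgc : g0 * (starRingEnd ℂ) g0 + g1 * (starRingEnd ℂ) g1 = 1 := by
    rw [Complex.mul_conj, Complex.mul_conj, Complex.normSq_eq_norm_sq, Complex.normSq_eq_norm_sq]
    exact_mod_cast hg
  have hec : e0 * (starRingEnd ℂ) e0 + e1 * (starRingEnd ℂ) e1 = 1 := by
    rw [Complex.mul_conj, Complex.mul_conj, Complex.normSq_eq_norm_sq, Complex.normSq_eq_norm_sq]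
    exact_mod_cast he
  have h14c : k1 * (starRingEnd ℂ) k1 + k4 * (starRingEnd ℂ) k4 = 1 := by
    rw [Complex.mul_conj, Complex.mul_conj, Complex.normSq_eq_norm_sq, Complex.normSq_eq_norm_sq]
    exact_mod_cast h14
  have h23c : k2 * (starRingEnd ℂ) k2 + k3 * (starRingEnd ℂ) k3 = 1 := by
    rw [Complex.mul_conj, Complex.mul_conj, Complex.normSq_eq_norm_sq, Complex.normSq_eq_norm_sq]
    exact_mod_cast h23
  set E0 := (starRingEnd ℂ) e0 with hE0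
  set E1 := (starRingEnd ℂ) e1 with hE1
  set G0 := (starRingEnd ℂ) g0 with hG0
  set G1 := (starRingEnd ℂ) g1 with hG1
  -- the coefficients
  set l1 := E1 * k1 * G1 + E0 * k4 * G0 with hl1
  set l1' := -(E1 * k3 * G0) - E0 * k2 * G1 with hl1'
  set l2 := E1 * k1 * g0 - E0 * k4 * g1 with hl2
  set l2' := E1 * k3 * g1 - E0 * k2 * g0 with hl2'
  set l3 := e0 * k1 * G1 - e1 * k4 * G0 with hl3
  set l3' := -(e0 * k3 * G0) + e1 * k2 * G1 with hl3'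
  have h22 : e0 * k1 * g0 + e1 * k4 * g1 = 0 := by linear_combination he1
  have h22' : e0 * k3 * g1 + e1 * k2 * g0 = 0 := by linear_combination he2
  have cE0 : (starRingEnd ℂ) E0 = e0 := by rw [hE0, Complex.conj_conj]
  have cE1 : (starRingEnd ℂ) E1 = e1 := by rw [hE1, Complex.conj_conj]
  have cG0 : (starRingEnd ℂ) G0 = g0 := by rw [hG0, Complex.conj_conj]
  have cG1 : (starRingEnd ℂ) G1 = g1 := by rw [hG1, Complex.conj_conj]
  have h22c : E0 * (starRingEnd ℂ) k1 * G0 + E1 * (starRingEnd ℂ) k4 * G1 = 0 := by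
    have := congrArg (starRingEnd ℂ) h22
    simpa only [map_add, map_mul, map_zero, ← hE0, ← hE1, ← hG0, ← hG1] using this
  have h22c' : E0 * (starRingEnd ℂ) k3 * G1 + E1 * (starRingEnd ℂ) k2 * G0 = 0 := by
    have := congrArg (starRingEnd ℂ) h22'
    simpa only [map_add, map_mul, map_zero, ← hE0, ← hE1, ← hG0, ← hG1] using this
  -- completeness
  set K1 := (starRingEnd ℂ) k1 with hK1
  set K2 := (starRingEnd ℂ) k2 with hK2
  set K3 := (starRingEnd ℂ) k3 with hK3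
  set K4 := (starRingEnd ℂ) k4 with hK4
  have hll : l1 * (starRingEnd ℂ) l1 + l2 * (starRingEnd ℂ) l2 + l3 * (starRingEnd ℂ) l3 = 1 := by
    simp only [hl1, hl2, hl3]
    simp only [map_add, map_sub, map_mul, cE0, cE1, cG0, cG1, ← hE0, ← hE1, ← hG0, ← hG1,
      ← hK1, ← hK4]
    linear_combination (k1 * K1 + k4 * K4) * (e0 * E0 + e1 * E1) * hgc +
      (k1 * K1 + k4 * K4) * hec + h14c - (E0 * K1 * G0 + E1 * K4 * G1) * h22
  have hll' : l1' * (starRingEnd ℂ) l1' + l2' * (starRingEnd ℂ) l2' +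
      l3' * (starRingEnd ℂ) l3' = 1 := by
    simp only [hl1', hl2', hl3']
    simp only [map_add, map_sub, map_mul, map_neg, cE0, cE1, cG0, cG1, ← hE0, ← hE1, ← hG0,
      ← hG1, ← hK2, ← hK3]
    linear_combination (k2 * K2 + k3 * K3) * (e0 * E0 + e1 * E1) * hgc +
      (k2 * K2 + k3 * K3) * hec + h23c - (E0 * K3 * G1 + E1 * K2 * G0) * h22'
  have hlx : l1 * (starRingEnd ℂ) l1' + l2 * (starRingEnd ℂ) l2' +
      l3 * (starRingEnd ℂ) l3' = 0 := by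
    simp only [hl1, hl2, hl3, hl1', hl2', hl3']
    simp only [map_add, map_sub, map_mul, map_neg, cE0, cE1, cG0, cG1, ← hE0, ← hE1, ← hG0,
      ← hG1, ← hK2, ← hK3]
    linear_combination -(E0 * K3 * G1 + E1 * K2 * G0) * h22
  have d1 : l2 * l3 = -(k1 * k4) := by
    simp only [hl2, hl3]
    linear_combination (E1 * k1 * G1 + E0 * k4 * G0) * h22 -
      k1 * k4 * (e0 * E0 + e1 * E1) * hgc - k1 * k4 * hec
  have d2 : l2' * l3' = k2 * k3 := by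
    simp only [hl2', hl3']
    linear_combination (-(E1 * k3 * G0) - E0 * k2 * G1) * h22' +
      k2 * k3 * (e0 * E0 + e1 * E1) * hgc + k2 * k3 * hec
  have d3 : l2 * l3' + l2' * l3 = 0 := by
    simp only [hl2, hl3, hl2', hl3']
    linear_combination (E1 * k1 * G1 + E0 * k4 * G0) * h22' +
      (-(E1 * k3 * G0) - E0 * k2 * G1) * h22
  have toC : ∀ z : ℂ, ((‖z‖ ^ 2 : ℝ) : ℂ) = z * (starRingEnd ℂ) z := by
    intro z
    rw [Complex.mul_conj, Complex.normSq_eq_norm_sq]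
  have nll : ‖l1‖ ^ 2 + ‖l2‖ ^ 2 + ‖l3‖ ^ 2 = 1 := by
    have : ((‖l1‖ ^ 2 + ‖l2‖ ^ 2 + ‖l3‖ ^ 2 : ℝ) : ℂ) = ((1 : ℝ) : ℂ) := by
      rw [Complex.ofReal_add, Complex.ofReal_add, toC, toC, toC, hll, Complex.ofReal_one]
    exact_mod_cast this
  have nll' : ‖l1'‖ ^ 2 + ‖l2'‖ ^ 2 + ‖l3'‖ ^ 2 = 1 := by
    have : ((‖l1'‖ ^ 2 + ‖l2'‖ ^ 2 + ‖l3'‖ ^ 2 : ℝ) : ℂ) = ((1 : ℝ) : ℂ) := by
      rw [Complex.ofReal_add, Complex.ofReal_add, toC, toC, toC, hll', Complex.ofReal_one]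
    exact_mod_cast this
  refine ⟨![l1, l2, l3], ![l1', l2', l3'], ?_, ?_, ?_, ?_⟩
  · simpa [Fin.sum_univ_three] using nll
  · simpa [Fin.sum_univ_three] using nll'
  · simpa [Fin.sum_univ_three] using hlx
  -- the entropy inequality
  have hsum3 : ∑ j, Ent (![l1, l2, l3] j • a + ![l1', l2', l3'] j • b) =
      Ent (l1 • a + l1' • b) + Ent (l2 • a + l2' • b) + Ent (l3 • a + l3' • b) := by
    simp [Fin.sum_univ_three]
  rw [hsum3]
  set c1 := l1 • a + l1' • b with hc1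
  set c2 := l2 • a + l2' • b with hc2
  set c3 := l3 • a + l3' • b with hc3
  have hkey := key c1 c2 c3
  -- the sum of the norms
  set t := (a * bᴴ).trace with ht
  have htre : t = ((t.re : ℝ) : ℂ) := by
    apply Complex.ext
    · simp
    · simpa using hab
  have n1 := nsq_comb l1 l1' a b
  have n2 := nsq_comb l2 l2' a b
  have n3 := nsq_comb l3 l3' a b
  rw [← ht, ← hc1] at n1
  rw [← ht, ← hc2] at n2
  rw [← ht, ← hc3] at n3
  have hnsum : nsq c1 + nsq c2 + nsq c3 = nsq a + nsq b := by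
    rw [n1, n2, n3]
    have hx : (l1 * (starRingEnd ℂ) l1' * t).re + (l2 * (starRingEnd ℂ) l2' * t).re +
        (l3 * (starRingEnd ℂ) l3' * t).re = 0 := by
      rw [← Complex.add_re, ← Complex.add_re, ← add_mul, ← add_mul, hlx, zero_mul,
        Complex.zero_re]
    have e1 : (‖l1‖ ^ 2 + ‖l2‖ ^ 2 + ‖l3‖ ^ 2) * nsq a = nsq a := by rw [nll, one_mul]
    have e2 : (‖l1'‖ ^ 2 + ‖l2'‖ ^ 2 + ‖l3'‖ ^ 2) * nsq b = nsq b := by rw [nll', one_mul]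
    linarith
  have hprod : ‖k1 * k4 * (nsq a : ℂ) - k2 * k3 * (nsq b : ℂ)‖ ^ 2 ≤ nsq c2 * nsq c3 := by
    have hs := scalar_ineq (p := l2) (p' := l2') (r := l3) (r' := l3') d3
      (x := nsq a) (y := nsq b) (t := t.re) (by
        have := trace_sq_le a b
        rw [← ht] at this
        exact this)
    have e1 : l2 * l3 * (nsq a : ℂ) + l2' * l3' * (nsq b : ℂ) =
        -(k1 * k4 * (nsq a : ℂ) - k2 * k3 * (nsq b : ℂ)) := by
      rw [d1, d2]; ring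
    rw [e1, norm_neg] at hs
    have e2 : nsq c2 = ‖l2‖ ^ 2 * nsq a + ‖l2'‖ ^ 2 * nsq b +
        2 * (t.re * (l2 * (starRingEnd ℂ) l2').re) := by
      rw [n2, htre, Complex.re_mul_ofReal, Complex.ofReal_re]; ring
    have e3 : nsq c3 = ‖l3‖ ^ 2 * nsq a + ‖l3'‖ ^ 2 * nsq b +
        2 * (t.re * (l3 * (starRingEnd ℂ) l3').re) := by
      rw [n3, htre, Complex.re_mul_ofReal, Complex.ofReal_re]; ring
    rw [e2, e3]
    exact hs
  have hmono : H2 (nsq a + nsq b) (‖k1 * k4 * (nsq a : ℂ) - k2 * k3 * (nsq b : ℂ)‖ ^ 2) ≤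
      H2 (nsq c1 + nsq c2 + nsq c3) (nsq c2 * nsq c3) := by
    rw [hnsum]
    refine H2_mono (add_nonneg (nsq_nonneg a) (nsq_nonneg b)) (sq_nonneg _) hprod ?_
    rw [← hnsum]
    nlinarith [nsq_nonneg c1, nsq_nonneg c2, nsq_nonneg c3, sq_nonneg (nsq c2 - nsq c3),
      mul_nonneg (nsq_nonneg c1) (nsq_nonneg c2), mul_nonneg (nsq_nonneg c1) (nsq_nonneg c3)]
  -- unitary equivalence
  have hU := block_unitary (ι := ι) he
  set U := fromBlocks ((starRingEnd ℂ) e1 • (1 : Matrix ι ι ℂ)) (-(starRingEnd ℂ) e0 • 1)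
      (e0 • 1) (e1 • (1 : Matrix ι ι ℂ)) with hUdef
  have hV := block_unitary (ι := κ) (u0 := g0) (u1 := g1) hg
  set W := fromBlocks ((starRingEnd ℂ) g1 • (1 : Matrix κ κ ℂ)) (-(starRingEnd ℂ) g0 • 1)
      (g0 • 1) (g1 • (1 : Matrix κ κ ℂ)) with hWdef
  have hblk : fromBlocks c1 c2 c3 (0 : Matrix ι κ ℂ) =
      U * fromBlocks (k1 • a) (k3 • b) (k2 • b) (k4 • a) * Wᵀ := by
    rw [hUdef, hWdef, fromBlocks_transpose, fromBlocks_multiply, fromBlocks_multiply]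
    simp only [transpose_smul, transpose_one, Matrix.smul_mul, Matrix.mul_smul, Matrix.one_mul,
      Matrix.mul_one, smul_smul, smul_add, ← hE0, ← hE1, ← hG0, ← hG1]
    congr 1
    · rw [hc1, hl1, hl1']
      module
    · rw [hc2, hl2, hl2']
      module
    · rw [hc3, hl3, hl3']
      module
    · have : (0 : Matrix ι κ ℂ) = (e0 * k1 * g0 + e1 * k4 * g1) • a +
          (e0 * k3 * g1 + e1 * k2 * g0) • b := by
        rw [h22, h22', zero_smul, zero_smul, add_zero]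
      rw [this]
      module
  have hWW : Wᵀ * (Wᵀ)ᴴ = 1 := by
    have := congrArg Matrix.transpose hV
    rw [transpose_mul, transpose_one] at this
    rw [← this]
    rfl
  have hHeq : H (fromBlocks c1 c2 c3 0 * (fromBlocks c1 c2 c3 0)ᴴ) =
      H (fromBlocks (k1 • a) (k3 • b) (k2 • b) (k4 • a) *
        (fromBlocks (k1 • a) (k3 • b) (k2 • b) (k4 • a))ᴴ) := by
    rw [hblk]
    simp only [conjTranspose_mul]
    have : U * fromBlocks (k1 • a) (k3 • b) (k2 • b) (k4 • a) * Wᵀ *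
        ((Wᵀ)ᴴ * ((fromBlocks (k1 • a) (k3 • b) (k2 • b) (k4 • a))ᴴ * Uᴴ)) =
        U * (fromBlocks (k1 • a) (k3 • b) (k2 • b) (k4 • a) * (Wᵀ * (Wᵀ)ᴴ) *
          (fromBlocks (k1 • a) (k3 • b) (k2 • b) (k4 • a))ᴴ) * Uᴴ := by
      simp only [Matrix.mul_assoc]
    rw [this, hWW, Matrix.mul_one, H_unitary hU]
  rw [← hHeq]
  linarith

end

end Vale.Agent.GAD
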