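import Vale.Agent.GAD.PartB
import Vale.Agent.GAD.Nsq
import Vale.Agent.GAD.PartR

/-!
# P358, part S: one step for the generalized amplitude-damping channel
-/

namespace Vale.Agent.GAD

open Matrix
open scoped ComplexOrder

section

variable {ι κ : Type} [Fintype ι] [DecidableEq ι] [Fintype κ] [DecidableEq κ]

omit [DecidableEq κ] in
theorem Ent_smul' (c : ℂ) (a : Matrix ι κ ℂ) : Ent (c • a) = ‖c‖ ^ 2 * Ent a := by
  unfold Ent
  have h : (c • a) * (c • a)ᴴ = ((‖c‖ ^ 2 : ℝ) : ℂ) • (a * aᴴ) := by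
    rw [conjTranspose_smul, Matrix.smul_mul, Matrix.mul_smul, smul_smul, Complex.star_def,
      Complex.mul_conj, Complex.normSq_eq_norm_sq]
  rw [nsq_smul, h, H_smul (by positivity) (posSemidef_self_mul_conjTranspose a),
    trace_mul_conjTranspose, Complex.ofReal_re, Real.negMulLog_mul]
  ring

theorem sum_six {M : Type} [AddCommMonoid M] (f : Fin 6 → M) :
    ∑ j, f j = ∑ j : Fin 3, f (Fin.castAdd 3 j) + ∑ j : Fin 3, f (Fin.natAdd 3 j) :=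
  Fin.sum_univ_add (a := 3) (b := 3) f

/-- existence of the first Kraus coefficient -/
theorem exists_k1 {γ ν : ℝ} (hγ : 0 ≤ γ) (hγ1 : γ ≤ 1) (hν : 0 ≤ ν) (hν1 : ν ≤ 1) {ε : ℝ}
    (hε : ε ^ 2 = 1) :
    ∃ k1 : ℂ, ‖k1‖ ^ 2 = 1 - γ * ν ∧
      k1 * ((Real.sqrt (1 - γ * (1 - ν)) : ℝ) : ℂ) =
        ((Real.sqrt (1 - γ) : ℝ) : ℂ) + ((ε * (γ * Real.sqrt (ν * (1 - ν))) : ℝ) : ℂ) * Complex.I := by
  have hD : 0 ≤ 1 - γ * (1 - ν) := by nlinarith
  rcases hD.eq_or_lt with hD0 | hD0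
  · -- γ = 1, ν = 0
    have h1 : γ = 1 := by nlinarith
    have h2 : ν = 0 := by
      rw [h1] at hD0
      linarith
    refine ⟨1, ?_, ?_⟩
    · rw [h2]; simp
    · rw [← hD0, h1, h2]; simp
  · have hs : 0 < Real.sqrt (1 - γ * (1 - ν)) := Real.sqrt_pos.2 hD0
    have hsc : ((Real.sqrt (1 - γ * (1 - ν)) : ℝ) : ℂ) ≠ 0 := by exact_mod_cast hs.ne'
    refine ⟨(((Real.sqrt (1 - γ) : ℝ) : ℂ) +
      ((ε * (γ * Real.sqrt (ν * (1 - ν))) : ℝ) : ℂ) * Complex.I) /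
        ((Real.sqrt (1 - γ * (1 - ν)) : ℝ) : ℂ), ?_, div_mul_cancel₀ _ hsc⟩
    rw [norm_div, div_pow, Complex.norm_real, Real.norm_eq_abs, sq_abs, Real.sq_sqrt hD,
      ← Complex.normSq_eq_norm_sq, Complex.normSq_add_mul_I, Real.sq_sqrt (by linarith), mul_pow,
      mul_pow, hε, Real.sq_sqrt (by nlinarith), div_eq_iff hD0.ne']
    ring

theorem onestep_aux {γ ν : ℝ} (hγ : 0 ≤ γ) (hγ1 : γ ≤ 1) (hν : 0 ≤ ν) (hν1 : ν ≤ 1) {ε : ℝ}
    (hε : ε ^ 2 = 1) (a b : Matrix ι κ ℂ) (hab : (a * bᴴ).trace.im = 0) :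
    ∃ (l l' : Fin 3 → ℂ) (M : Matrix (ι ⊕ ι) (κ ⊕ κ) ℂ), ∑ j, ‖l j‖ ^ 2 = 1 ∧
      ∑ j, ‖l' j‖ ^ 2 = 1 ∧ ∑ j, l j * (starRingEnd ℂ) (l' j) = 0 ∧
      H2 (nsq a + nsq b) (dl γ ν (nsq a) (nsq b)) + ∑ j, Ent (l j • a + l' j • b) ≤ H (M * Mᴴ) ∧
      M * Mᴴ = fromBlocks
        (((1 - γ * ν : ℝ) : ℂ) • (a * aᴴ) + ((γ * (1 - ν) : ℝ) : ℂ) • (b * bᴴ))
        ((((Real.sqrt (1 - γ) : ℝ) : ℂ) +
          ((ε * (γ * Real.sqrt (ν * (1 - ν))) : ℝ) : ℂ) * Complex.I) • (a * bᴴ) -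
          (((ε * (γ * Real.sqrt (ν * (1 - ν))) : ℝ) : ℂ) * Complex.I) • (b * aᴴ))
        ((((Real.sqrt (1 - γ) : ℝ) : ℂ) -
          ((ε * (γ * Real.sqrt (ν * (1 - ν))) : ℝ) : ℂ) * Complex.I) • (b * aᴴ) +
          (((ε * (γ * Real.sqrt (ν * (1 - ν))) : ℝ) : ℂ) * Complex.I) • (a * bᴴ))
        (((γ * ν : ℝ) : ℂ) • (a * aᴴ) + ((1 - γ * (1 - ν) : ℝ) : ℂ) • (b * bᴴ)) := by
  obtain ⟨k1, hk1, hk12⟩ := exists_k1 hγ hγ1 hν hν1 hε
  have hD : 0 ≤ 1 - γ * (1 - ν) := by nlinarith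
  have hB : 0 ≤ γ * (1 - ν) := by nlinarith
  have hC : 0 ≤ γ * ν := by positivity
  have hBC : Real.sqrt (γ * (1 - ν)) * Real.sqrt (γ * ν) = γ * Real.sqrt (ν * (1 - ν)) := by
    rw [← Real.sqrt_mul hB, show γ * (1 - ν) * (γ * ν) = γ ^ 2 * (ν * (1 - ν)) by ring,
      Real.sqrt_mul (by positivity), Real.sqrt_sq hγ]
  set ω : ℝ := γ * Real.sqrt (ν * (1 - ν)) with hω
  have hω2 : ω ^ 2 = γ ^ 2 * (ν * (1 - ν)) := by
    rw [hω, mul_pow, Real.sq_sqrt (by nlinarith)]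
  set d : ℝ := Real.sqrt (1 - γ * (1 - ν)) with hd
  set q : ℝ := Real.sqrt (γ * (1 - ν)) with hq
  set c : ℝ := Real.sqrt (γ * ν) with hc
  set r : ℝ := Real.sqrt (1 - γ) with hr
  have hd2 : d ^ 2 = 1 - γ * (1 - ν) := Real.sq_sqrt hD
  have hq2 : q ^ 2 = γ * (1 - ν) := Real.sq_sqrt hB
  have hc2 : c ^ 2 = γ * ν := Real.sq_sqrt hC
  set k3 : ℂ := -((ε * q : ℝ) : ℂ) * Complex.I with hk3
  have hk3n : ‖k3‖ ^ 2 = γ * (1 - ν) := by
    rw [hk3, norm_mul, Complex.norm_I, mul_one, norm_neg, Complex.norm_real, Real.norm_eq_abs,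
      sq_abs, mul_pow, hε, one_mul, hq2]
  have hstar1 : (starRingEnd ℂ) k1 * (d : ℂ) = (r : ℂ) - ((ε * ω : ℝ) : ℂ) * Complex.I := by
    have h := congrArg (starRingEnd ℂ) hk12
    rw [map_mul, Complex.conj_ofReal, map_add, map_mul, Complex.conj_ofReal, Complex.conj_ofReal,
      Complex.conj_I] at h
    rw [h]
    ring
  have hk1s : k1 * (starRingEnd ℂ) k1 = ((1 - γ * ν : ℝ) : ℂ) := by
    rw [Complex.mul_conj, Complex.normSq_eq_norm_sq, hk1]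
  have hk3s : (starRingEnd ℂ) k3 = ((ε * q : ℝ) : ℂ) * Complex.I := by
    rw [hk3, map_mul, map_neg, Complex.conj_ofReal, Complex.conj_I]
    ring
  have hεc : ((ε : ℝ) : ℂ) ^ 2 = 1 := by exact_mod_cast hε
  have hqc : (q : ℂ) * (c : ℂ) = (ω : ℂ) := by exact_mod_cast hBC
  have hdl : ‖k1 * (c : ℂ) * (nsq a : ℂ) - (d : ℂ) * k3 * (nsq b : ℂ)‖ ^ 2 =
      dl γ ν (nsq a) (nsq b) := by
    have h1 : ((‖k1 * (c : ℂ) * (nsq a : ℂ) - (d : ℂ) * k3 * (nsq b : ℂ)‖ ^ 2 : ℝ) : ℂ) =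
        ((dl γ ν (nsq a) (nsq b) : ℝ) : ℂ) := by
      rw [← Complex.normSq_eq_norm_sq, ← Complex.mul_conj]
      simp only [map_sub, map_mul, Complex.conj_ofReal, hk3s]
      have e1 : (k1 * (c : ℂ) * (nsq a : ℂ) - (d : ℂ) * k3 * (nsq b : ℂ)) *
          ((starRingEnd ℂ) k1 * (c : ℂ) * (nsq a : ℂ) -
            (d : ℂ) * (((ε * q : ℝ) : ℂ) * Complex.I) * (nsq b : ℂ)) =
          (k1 * (starRingEnd ℂ) k1) * (c : ℂ) ^ 2 * (nsq a : ℂ) ^ 2 -
            (k1 * (d : ℂ)) * ((ε : ℂ) * ((q : ℂ) * (c : ℂ)) * Complex.I) * (nsq a : ℂ) * (nsq b : ℂ)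
            + ((starRingEnd ℂ) k1 * (d : ℂ)) * ((ε : ℂ) * ((q : ℂ) * (c : ℂ)) * Complex.I)
              * (nsq a : ℂ) * (nsq b : ℂ)
            - (d : ℂ) ^ 2 * (q : ℂ) ^ 2 * (ε : ℂ) ^ 2 * (Complex.I ^ 2) * (nsq b : ℂ) ^ 2 := by
        rw [hk3]
        push_cast
        ring
      rw [e1, hk1s, hk12, hstar1, hqc, hεc, Complex.I_sq]
      have e2 : (c : ℂ) ^ 2 = ((γ * ν : ℝ) : ℂ) := by exact_mod_cast hc2
      have e3 : (d : ℂ) ^ 2 = ((1 - γ * (1 - ν) : ℝ) : ℂ) := by exact_mod_cast hd2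
      have e4 : (q : ℂ) ^ 2 = ((γ * (1 - ν) : ℝ) : ℂ) := by exact_mod_cast hq2
      rw [e2, e3, e4]
      have e5 : (ω : ℂ) ^ 2 = ((γ ^ 2 * (ν * (1 - ν)) : ℝ) : ℂ) := by exact_mod_cast hω2
      have e6 : ((1 - γ * ν : ℝ) : ℂ) * ((γ * ν : ℝ) : ℂ) * (nsq a : ℂ) ^ 2 -
          ((r : ℂ) + ((ε * ω : ℝ) : ℂ) * Complex.I) * ((ε : ℂ) * (ω : ℂ) * Complex.I) *
            (nsq a : ℂ) * (nsq b : ℂ) +
          ((r : ℂ) - ((ε * ω : ℝ) : ℂ) * Complex.I) * ((ε : ℂ) * (ω : ℂ) * Complex.I) *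
            (nsq a : ℂ) * (nsq b : ℂ) -
          ((1 - γ * (1 - ν) : ℝ) : ℂ) * ((γ * (1 - ν) : ℝ) : ℂ) * 1 * (-1) * (nsq b : ℂ) ^ 2 =
          ((1 - γ * ν : ℝ) : ℂ) * ((γ * ν : ℝ) : ℂ) * (nsq a : ℂ) ^ 2 -
            2 * (ε : ℂ) ^ 2 * (ω : ℂ) ^ 2 * Complex.I ^ 2 * (nsq a : ℂ) * (nsq b : ℂ) +
            ((1 - γ * (1 - ν) : ℝ) : ℂ) * ((γ * (1 - ν) : ℝ) : ℂ) * (nsq b : ℂ) ^ 2 := by
        push_cast
        ring
      rw [e6, hεc, e5, Complex.I_sq]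
      unfold dl
      push_cast
      ring
    exact_mod_cast h1
  obtain ⟨l, l', hl, hl', hll, hmain⟩ := rank_two (k1 := k1) (k2 := (d : ℂ)) (k3 := k3)
    (k4 := (c : ℂ)) (by
      rw [hk1, Complex.norm_real, Real.norm_eq_abs, sq_abs, hc2]; ring) (by
      rw [hk3n, Complex.norm_real, Real.norm_eq_abs, sq_abs, hd2]; ring) a b hab
  refine ⟨l, l', fromBlocks (k1 • a) (k3 • b) ((d : ℂ) • b) ((c : ℂ) • a), hl, hl', hll, ?_, ?_⟩
  · rw [← hdl]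
    exact hmain
  · rw [fromBlocks_conjTranspose, fromBlocks_multiply]
    simp only [conjTranspose_smul, Matrix.smul_mul, Matrix.mul_smul, smul_smul, Complex.star_def,
      Complex.conj_ofReal]
    congr 1
    · rw [mul_comm ((starRingEnd ℂ) k1), hk1s, mul_comm ((starRingEnd ℂ) k3), Complex.mul_conj,
        Complex.normSq_eq_norm_sq, hk3n]
    · have e0 : (d : ℂ) * k1 = (r : ℂ) + ((ε * ω : ℝ) : ℂ) * Complex.I := by
        rw [mul_comm]; exact hk12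
      rw [e0]
      have e : (c : ℂ) * k3 = -(((ε * ω : ℝ) : ℂ) * Complex.I) := by
        rw [hk3]
        push_cast
        rw [← hqc]
        ring
      rw [e, neg_smul, ← sub_eq_add_neg]
    · rw [hstar1]
      have e : (starRingEnd ℂ) k3 * (c : ℂ) = ((ε * ω : ℝ) : ℂ) * Complex.I := by
        rw [hk3s]
        push_cast
        rw [← hqc]
        ring
      rw [e]
    · rw [add_comm]
      congr 2
      · rw [← hc2]; push_cast; ring
      · rw [← hd2]; push_cast; ring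

theorem onestep {γ ν : ℝ} (hγ : 0 ≤ γ) (hγ1 : γ ≤ 1) (hν : 0 ≤ ν) (hν1 : ν ≤ 1)
    (a b : Matrix ι κ ℂ) :
    ∃ l l' : Fin 6 → ℂ, ∑ j, ‖l j‖ ^ 2 = 1 ∧ ∑ j, ‖l' j‖ ^ 2 = 1 ∧
      ∑ j, l j * (starRingEnd ℂ) (l' j) = 0 ∧
      H2 (nsq a + nsq b) (dl γ ν (nsq a) (nsq b)) + ∑ j, Ent (l j • a + l' j • b) ≤
        H (tau γ ν a b) := by
  -- a phase
  obtain ⟨u, hu, hub⟩ : ∃ u : ℂ, ‖u‖ = 1 ∧ (a * (u • b)ᴴ).trace.im = 0 := by
    by_cases h0 : (a * bᴴ).trace = 0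
    · refine ⟨1, by simp, ?_⟩
      rw [one_smul, h0, Complex.zero_im]
    · refine ⟨(a * bᴴ).trace / (‖(a * bᴴ).trace‖ : ℂ), ?_, ?_⟩
      · rw [norm_div, Complex.norm_real, norm_norm, div_self (norm_ne_zero_iff.2 h0)]
      · rw [conjTranspose_smul, Matrix.mul_smul, trace_smul, smul_eq_mul, Complex.star_def,
          map_div₀, Complex.conj_ofReal, div_mul_eq_mul_div, mul_comm, Complex.mul_conj,
          ← Complex.ofReal_div, Complex.ofReal_im]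
  have huu : (starRingEnd ℂ) u * u = 1 := by
    rw [mul_comm, Complex.mul_conj, Complex.normSq_eq_norm_sq, hu]
    simp
  have huu' : u * (starRingEnd ℂ) u = 1 := by
    rw [mul_comm]; exact huu
  obtain ⟨l1, l1', M1, hl1, hl1', hll1, hm1, hM1⟩ :=
    onestep_aux hγ hγ1 hν hν1 (ε := 1) (by norm_num) a (u • b) hub
  obtain ⟨l2, l2', M2, hl2, hl2', hll2, hm2, hM2⟩ :=
    onestep_aux hγ hγ1 hν hν1 (ε := -1) (by norm_num) a (u • b) hub
  have hnb : nsq (u • b) = nsq b := by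
    rw [nsq_smul, hu]; ring
  rw [hnb] at hm1 hm2
  -- the unitary conjugation
  have htau : H (tau γ ν a (u • b)) = H (tau γ ν a b) := by
    have hD : (fromBlocks (1 : Matrix ι ι ℂ) 0 0 (u • (1 : Matrix ι ι ℂ)))ᴴ *
        fromBlocks (1 : Matrix ι ι ℂ) 0 0 (u • (1 : Matrix ι ι ℂ)) = 1 := by
      rw [fromBlocks_conjTranspose, fromBlocks_multiply]
      simp [smul_smul, huu', fromBlocks_one]
    rw [← H_unitary hD (tau γ ν a b)]
    congr 1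
    unfold tau
    rw [fromBlocks_conjTranspose, fromBlocks_multiply, fromBlocks_multiply]
    simp only [conjTranspose_smul, Matrix.smul_mul, Matrix.mul_smul, conjTranspose_one,
      conjTranspose_zero, Matrix.one_mul, Matrix.mul_one, Matrix.zero_mul, Matrix.mul_zero,
      add_zero, zero_add, Complex.star_def, smul_add, smul_smul, smul_zero]
    have e : ∀ z : ℂ, (starRingEnd ℂ) u * (u * z) = z := by
      intro z
      rw [← mul_assoc, huu, one_mul]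
    congr 1
    · rw [huu, mul_one]
    · rw [mul_comm]
    · rw [e, e, huu, mul_one]
  -- concavity
  have hconc := H_concave (m := 2) ![1 / 2, 1 / 2] (by
      intro i; fin_cases i <;> simp) (by
      rw [Fin.sum_univ_two]; norm_num) ![M1 * M1ᴴ, M2 * M2ᴴ] (by
      intro i
      fin_cases i
      · exact posSemidef_self_mul_conjTranspose M1
      · exact posSemidef_self_mul_conjTranspose M2)
  simp only [Fin.sum_univ_two, Matrix.cons_val_zero, Matrix.cons_val_one] at hconc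
  have hsum : ((1 / 2 : ℝ) : ℂ) • (M1 * M1ᴴ) + ((1 / 2 : ℝ) : ℂ) • (M2 * M2ᴴ) =
      tau γ ν a (u • b) := by
    rw [hM1, hM2, fromBlocks_smul, fromBlocks_smul, fromBlocks_add]
    unfold tau
    have h2 : ((1 / 2 : ℝ) : ℂ) + ((1 / 2 : ℝ) : ℂ) = 1 := by push_cast; norm_num
    congr 1
    · rw [← add_smul, h2, one_smul]
    · module
    · module
    · rw [← add_smul, h2, one_smul]
  rw [hsum, htau] at hconc
  -- combine
  set s : ℂ := ((Real.sqrt (1 / 2) : ℝ) : ℂ) with hs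
  have hsn : ‖s‖ ^ 2 = 1 / 2 := by
    rw [hs, Complex.norm_real, Real.norm_eq_abs, sq_abs, Real.sq_sqrt (by norm_num)]
  have hss : s * (starRingEnd ℂ) s = 1 / 2 := by
    rw [Complex.mul_conj, Complex.normSq_eq_norm_sq, hsn]
    push_cast
    rfl
  refine ⟨Fin.append (fun j => s * l1 j) (fun j => s * l2 j),
    Fin.append (fun j => s * (l1' j * u)) (fun j => s * (l2' j * u)), ?_, ?_, ?_, ?_⟩
  · rw [sum_six]
    simp only [Fin.append_left, Fin.append_right, norm_mul, mul_pow, hsn, ← Finset.mul_sum]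
    rw [hl1, hl2]
    norm_num
  · rw [sum_six]
    simp only [Fin.append_left, Fin.append_right, norm_mul, mul_pow, hsn, hu, one_pow, mul_one,
      ← Finset.mul_sum]
    rw [hl1', hl2']
    norm_num
  · rw [sum_six]
    simp only [Fin.append_left, Fin.append_right, map_mul]
    have e1 : ∀ x y : ℂ, s * x * ((starRingEnd ℂ) s * ((starRingEnd ℂ) y * (starRingEnd ℂ) u)) =
        (s * (starRingEnd ℂ) s * (starRingEnd ℂ) u) * (x * (starRingEnd ℂ) y) := by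
      intro x y; ring
    simp only [e1, ← Finset.mul_sum]
    rw [hll1, hll2]
    simp
  · rw [sum_six]
    simp only [Fin.append_left, Fin.append_right]
    have e1 : ∀ x y : ℂ, Ent ((s * x) • a + (s * (y * u)) • b) =
        1 / 2 * Ent (x • a + y • (u • b)) := by
      intro x y
      rw [← hsn, ← Ent_smul']
      congr 1
      rw [smul_add, smul_smul, smul_smul, smul_smul]
      congr 2
      ring
    simp only [e1, ← Finset.mul_sum]
    linarith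

end

end Vale.Agent.GAD
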