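import Vale.Agent.GAD.PartA
import Vale.Agent.GAD.PartE3
import Vale.Agent.GAD.PartG
import Vale.Agent.GAD.PartS
import Vale.Agent.GAD.Nsq

/-!
P358, part I: induction over the sites.
-/

namespace Vale.Agent.GAD

open Matrix
open scoped ComplexOrder

lemma sum_split {n : ℕ} (f : (Fin (n + 1) → Fin 2) → ℝ) :
    ∑ i, f i = ∑ i : Fin n → Fin 2, f (Fin.cons 0 i) + ∑ i : Fin n → Fin 2, f (Fin.cons 1 i) := by
  rw [← (splitEquiv n).sum_comp, Fintype.sum_sum_type]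
  rfl

lemma wt_zero {n : ℕ} (ψ : (Fin (n + 1) → Fin 2) → ℂ) :
    wt ψ 0 0 = ∑ i : Fin n → Fin 2, ‖ψ (Fin.cons 0 i)‖ ^ 2 := by
  unfold wt
  rw [sum_split]
  simp

lemma wt_one {n : ℕ} (ψ : (Fin (n + 1) → Fin 2) → ℂ) :
    wt ψ 0 1 = ∑ i : Fin n → Fin 2, ‖ψ (Fin.cons 1 i)‖ ^ 2 := by
  unfold wt
  rw [sum_split]
  simp

lemma wt_succ {n : ℕ} (ψ : (Fin (n + 1) → Fin 2) → ℂ) (s : Fin n) (c : Fin 2) :
    wt ψ s.succ c = wt (fun i => ψ (Fin.cons 0 i)) s c + wt (fun i => ψ (Fin.cons 1 i)) s c := by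
  unfold wt
  rw [sum_split]
  simp only [Fin.cons_succ]

lemma wt_nonneg {n : ℕ} (ψ : (Fin n → Fin 2) → ℂ) (s : Fin n) (c : Fin 2) : 0 ≤ wt ψ s c := by
  unfold wt
  refine Finset.sum_nonneg fun i _ => ?_
  split_ifs
  · exact sq_nonneg _
  · exact le_refl _

lemma norm_sq_comb (l l' α β : ℂ) :
    ((‖l * α + l' * β‖ ^ 2 : ℝ) : ℂ) = l * (starRingEnd ℂ) l * (‖α‖ ^ 2 : ℝ) +
      l' * (starRingEnd ℂ) l' * (‖β‖ ^ 2 : ℝ) +
      (l * (starRingEnd ℂ) l') * (α * (starRingEnd ℂ) β) +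
      ((starRingEnd ℂ) (l * (starRingEnd ℂ) l')) * (β * (starRingEnd ℂ) α) := by
  have toC : ∀ z : ℂ, ((‖z‖ ^ 2 : ℝ) : ℂ) = z * (starRingEnd ℂ) z := by
    intro z
    rw [Complex.mul_conj, Complex.normSq_eq_norm_sq]
  rw [toC, toC, toC, map_add, map_mul, map_mul, map_mul, Complex.conj_conj]
  ring

/-- completeness of the family of combinations -/
lemma sum_norm_sq_comb {J : Type} [Fintype J] (l l' : J → ℂ) (h1 : ∑ j, ‖l j‖ ^ 2 = 1)
    (h2 : ∑ j, ‖l' j‖ ^ 2 = 1) (h3 : ∑ j, l j * (starRingEnd ℂ) (l' j) = 0) (α β : ℂ) :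
    ∑ j, ‖l j * α + l' j * β‖ ^ 2 = ‖α‖ ^ 2 + ‖β‖ ^ 2 := by
  have toC : ∀ z : ℂ, ((‖z‖ ^ 2 : ℝ) : ℂ) = z * (starRingEnd ℂ) z := by
    intro z
    rw [Complex.mul_conj, Complex.normSq_eq_norm_sq]
  have h1c : ∑ j, l j * (starRingEnd ℂ) (l j) = 1 := by
    have : ((∑ j, ‖l j‖ ^ 2 : ℝ) : ℂ) = ((1 : ℝ) : ℂ) := by rw [h1]
    rw [Complex.ofReal_sum] at this
    simpa only [toC, Complex.ofReal_one] using this
  have h2c : ∑ j, l' j * (starRingEnd ℂ) (l' j) = 1 := by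
    have : ((∑ j, ‖l' j‖ ^ 2 : ℝ) : ℂ) = ((1 : ℝ) : ℂ) := by rw [h2]
    rw [Complex.ofReal_sum] at this
    simpa only [toC, Complex.ofReal_one] using this
  have h4 : ∑ j, (starRingEnd ℂ) (l j * (starRingEnd ℂ) (l' j)) = 0 := by
    rw [← map_sum, h3, map_zero]
  have : ((∑ j, ‖l j * α + l' j * β‖ ^ 2 : ℝ) : ℂ) = ((‖α‖ ^ 2 + ‖β‖ ^ 2 : ℝ) : ℂ) := by
    rw [Complex.ofReal_sum]
    simp only [norm_sq_comb, Finset.sum_add_distrib, ← Finset.sum_mul]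
    rw [h1c, h2c, h3, h4]
    push_cast
    ring
  exact_mod_cast this

theorem main_ind {γ ν : ℝ} (hγ : 0 ≤ γ) (hγ1 : γ ≤ 1) (hν : 0 ≤ ν) (hν1 : ν ≤ 1) (n : ℕ)
    (ψ : (Fin n → Fin 2) → ℂ) :
    ∑ s, fh γ ν (wt ψ s 0) (wt ψ s 1) ≤
      H (tpow (gad γ ν) n (proj ψ)) - Real.negMulLog (∑ i, ‖ψ i‖ ^ 2) := by
  induction n with
  | zero =>
    have hm : tpow (gad γ ν) 0 (proj ψ) = diagonal fun i => ((‖ψ i‖ ^ 2 : ℝ) : ℂ) := by
      ext i j
      have hij : j = i := Subsingleton.elim _ _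
      subst hij
      rw [diagonal_apply_eq]
      unfold tpow proj
      rw [Matrix.of_apply]
      have e : ∀ k : Fin 0 → Fin 2, k = j := fun k => Subsingleton.elim _ _
      have e2 : (Finset.univ : Finset (Fin 0 → Fin 2)) = {j} :=
        Finset.eq_singleton_iff_unique_mem.2 ⟨Finset.mem_univ _, fun k _ => e k⟩
      rw [e2, Finset.sum_singleton, Finset.sum_singleton]
      simp only [Finset.univ_eq_empty, Finset.prod_empty, one_mul, vecMulVec_apply, Pi.star_apply]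
      rw [← Complex.normSq_eq_norm_sq, ← Complex.mul_conj]
      rfl
    rw [hm, H_diagonal]
    have e2 : (Finset.univ : Finset (Fin 0 → Fin 2)) = {Fin.elim0} :=
      Finset.eq_singleton_iff_unique_mem.2 ⟨Finset.mem_univ _, fun k _ => Subsingleton.elim _ _⟩
    rw [e2]
    simp
  | succ n ih =>
    set α : (Fin n → Fin 2) → ℂ := fun i => ψ (Fin.cons 0 i) with hα
    set β : (Fin n → Fin 2) → ℂ := fun i => ψ (Fin.cons 1 i) with hβ
    have h1 := tpow_succ hγ hγ1 hν hν1 n ψ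
    obtain ⟨l, l', hl, hl', hll, hstep⟩ := onestep hγ hγ1 hν hν1 (env γ ν n α) (env γ ν n β)
    rw [← H_reindex (splitEquiv n), h1]
    rw [nsq_env hγ hγ1 hν hν1, nsq_env hγ hγ1 hν hν1] at hstep
    have hx : wt ψ 0 0 = ∑ i, ‖α i‖ ^ 2 := wt_zero ψ
    have hy : wt ψ 0 1 = ∑ i, ‖β i‖ ^ 2 := wt_one ψ
    have hsum : ∑ i, ‖ψ i‖ ^ 2 = ∑ i, ‖α i‖ ^ 2 + ∑ i, ‖β i‖ ^ 2 := sum_split _
    have hEnt : ∀ j, ∑ s, fh γ ν (wt (l j • α + l' j • β) s 0) (wt (l j • α + l' j • β) s 1) ≤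
        Ent (l j • env γ ν n α + l' j • env γ ν n β) := by
      intro j
      have := ih (l j • α + l' j • β)
      unfold Ent
      rw [← env_lin, env_mul_env hγ hγ1 hν hν1, nsq_env hγ hγ1 hν hν1]
      exact this
    have hsub : ∀ s : Fin n, fh γ ν (wt ψ s.succ 0) (wt ψ s.succ 1) ≤
        ∑ j, fh γ ν (wt (l j • α + l' j • β) s 0) (wt (l j • α + l' j • β) s 1) := by
      intro s
      have hw : ∀ c, ∑ j, wt (l j • α + l' j • β) s c = wt ψ s.succ c := by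
        intro c
        rw [wt_succ]
        unfold wt
        rw [Finset.sum_comm, ← Finset.sum_add_distrib]
        refine Finset.sum_congr rfl fun i _ => ?_
        split_ifs with h
        · exact sum_norm_sq_comb l l' hl hl' hll (α i) (β i)
        · simp
      rw [← hw 0, ← hw 1]
      exact fh_subadd hγ hγ1 hν hν1 _ _ (fun j => wt_nonneg _ _ _) (fun j => wt_nonneg _ _ _)
    have hsum2 : ∑ s : Fin n, fh γ ν (wt ψ s.succ 0) (wt ψ s.succ 1) ≤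
        ∑ j, Ent (l j • env γ ν n α + l' j • env γ ν n β) := by
      calc ∑ s : Fin n, fh γ ν (wt ψ s.succ 0) (wt ψ s.succ 1) ≤
          ∑ s : Fin n, ∑ j, fh γ ν (wt (l j • α + l' j • β) s 0)
            (wt (l j • α + l' j • β) s 1) := Finset.sum_le_sum fun s _ => hsub s
        _ = ∑ j, ∑ s : Fin n, fh γ ν (wt (l j • α + l' j • β) s 0)
            (wt (l j • α + l' j • β) s 1) := Finset.sum_comm
        _ ≤ _ := Finset.sum_le_sum fun j _ => hEnt j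
    rw [Fin.sum_univ_succ, hsum, hx, hy]
    unfold fh at hsum2 ⊢
    linarith

end Vale.Agent.GAD
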