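import Vale.Agent.GAD.Defs

/-!
P358: the excited population at a site.
-/

namespace Vale.Agent.GAD

/-- excited population at site `s` -/
noncomputable def pop {n : ℕ} (ρ : Matrix (Fin n → Fin 2) (Fin n → Fin 2) ℂ) (s : Fin n) : ℝ :=
  ∑ i : Fin n → Fin 2, if i s = 1 then (ρ i i).re else 0

end Vale.Agent.GAD
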