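import Vale.Agent.GAD.PartG
import Vale.Agent.GAD.Pop

/-!
P358, part M: the tensor power is a channel.
-/

namespace Vale.Agent.GAD

open Matrix
open scoped ComplexOrder

theorem tpow_add (Φ : Matrix (Fin 2) (Fin 2) ℂ → Matrix (Fin 2) (Fin 2) ℂ) {n m : ℕ}
    (p : Fin m → ℂ) (ρ : Fin m → Matrix (Fin n → Fin 2) (Fin n → Fin 2) ℂ) :
    tpow Φ n (∑ a, p a • ρ a) = ∑ a, p a • tpow Φ n (ρ a) := by
  ext i j
  have h1 : (∑ a, p a • tpow Φ n (ρ a)) i j = ∑ a, ∑ k, ∑ l,
      (∏ s, Φ (Matrix.single (k s) (l s) 1) (i s) (j s)) * (p a * ρ a k l) := by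
    rw [Matrix.sum_apply]
    refine Finset.sum_congr rfl fun a _ => ?_
    rw [Matrix.smul_apply, smul_eq_mul]
    unfold tpow
    rw [Matrix.of_apply, Finset.mul_sum]
    refine Finset.sum_congr rfl fun k _ => ?_
    rw [Finset.mul_sum]
    refine Finset.sum_congr rfl fun l _ => ?_
    ring
  rw [h1, Finset.sum_comm]
  unfold tpow
  rw [Matrix.of_apply]
  refine Finset.sum_congr rfl fun k _ => ?_
  rw [Finset.sum_comm]
  refine Finset.sum_congr rfl fun l _ => ?_
  rw [Matrix.sum_apply, Finset.mul_sum]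
  rfl

theorem tpow_posSemidef {γ ν : ℝ} (hγ : 0 ≤ γ) (hγ1 : γ ≤ 1) (hν : 0 ≤ ν) (hν1 : ν ≤ 1) {n : ℕ}
    {ρ : Matrix (Fin n → Fin 2) (Fin n → Fin 2) ℂ} (hρ : ρ.PosSemidef) :
    (tpow (gad γ ν) n ρ).PosSemidef := by
  rw [tpow_eq_kraus hγ hγ1 hν hν1]
  exact Matrix.posSemidef_sum _ fun k _ => hρ.mul_mul_conjTranspose_same _

theorem pop_tpow {γ ν : ℝ} {n : ℕ} (ρ : Matrix (Fin n → Fin 2) (Fin n → Fin 2) ℂ)
    (hρ : ρ.trace = 1) (s : Fin n) :
    pop (tpow (gad γ ν) n ρ) s = (1 - γ) * pop ρ s + γ * ν := by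
  have h := tpow_diag_sum (gad γ ν) (n := n)
    (fun t c => if t = s then (if c = 1 then 1 else 0) else 1)
    (fun t c => if t = s then (if c = 1 then ((1 - γ * (1 - ν) : ℝ) : ℂ) else ((γ * ν : ℝ) : ℂ))
      else 1) (by
    intro t a b
    by_cases hts : t = s
    · simp only [hts, if_true]
      fin_cases a <;> fin_cases b <;> simp [gad, Matrix.single]
    · simp only [hts, if_false]
      fin_cases a <;> fin_cases b <;> simp [gad, Matrix.single]) ρ
  simp only [Finset.prod_ite_eq', Finset.mem_univ, if_true] at h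
  have h1 := congrArg Complex.re h
  rw [Complex.re_sum, Complex.re_sum] at h1
  have h2 : ∑ i, (ρ i i).re = 1 := by
    have := congrArg Complex.re hρ
    rw [Matrix.trace, Complex.re_sum] at this
    simpa using this
  have h3 : pop (tpow (gad γ ν) n ρ) s =
      ∑ i : Fin n → Fin 2, ((if i s = 1 then (1 : ℂ) else 0) * tpow (gad γ ν) n ρ i i).re := by
    unfold pop
    refine Finset.sum_congr rfl fun i _ => ?_
    split_ifs <;> simp
  rw [h3, h1]
  have h4 : ∀ k : Fin n → Fin 2, ((if k s = 1 then ((1 - γ * (1 - ν) : ℝ) : ℂ) else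
      ((γ * ν : ℝ) : ℂ)) * ρ k k).re =
      (1 - γ) * (if k s = 1 then (ρ k k).re else 0) + γ * ν * (ρ k k).re := by
    intro k
    split_ifs
    · rw [Complex.re_ofReal_mul]
      ring
    · rw [Complex.re_ofReal_mul]
      ring
  rw [Finset.sum_congr rfl fun k _ => h4 k, Finset.sum_add_distrib, ← Finset.mul_sum,
    ← Finset.mul_sum, h2, mul_one]
  rfl

end Vale.Agent.GAD
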