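import Vale.Agent.GAD.PartA
import Vale.Agent.GAD.PartB
import Vale.Agent.GAD.PartE1
import Vale.Agent.GAD.PartE3
import Vale.Agent.GAD.PartG
import Vale.Agent.GAD.PartI
import Vale.Agent.GAD.PartM
import Vale.Agent.GAD.Pop
import Vale.Agent.GAD.Nsq

/-!
P358, part J: mixed inputs.
-/

namespace Vale.Agent.GAD

open Matrix
open scoped ComplexOrder

/-- concavity, arbitrary index type -/
lemma H_concave' {ι J : Type} [Fintype ι] [DecidableEq ι] [Fintype J] (p : J → ℝ)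
    (hp : ∀ a, 0 ≤ p a) (h1 : ∑ a, p a = 1) (A : J → Matrix ι ι ℂ) (hA : ∀ a, (A a).PosSemidef) :
    ∑ a, p a * H (A a) ≤ H (∑ a, (p a : ℂ) • A a) := by
  let e := Fintype.equivFin J
  have := H_concave (fun k => p (e.symm k)) (fun k => hp _)
    (by rw [e.symm.sum_comp p]; exact h1) (fun k => A (e.symm k)) (fun k => hA _)
  rw [e.symm.sum_comp (fun a => p a * H (A a)),
    e.symm.sum_comp (fun a => (p a : ℂ) • A a)] at this
  exact this

lemma fh_smul {γ ν : ℝ} (hγ : 0 ≤ γ) (hγ1 : γ ≤ 1) (hν : 0 ≤ ν) (hν1 : ν ≤ 1)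
    {t x y : ℝ} (ht : 0 ≤ t) (hx : 0 ≤ x) (hy : 0 ≤ y) :
    fh γ ν (t * x) (t * y) = t * fh γ ν x y := by
  have hb := dl_bounds hγ hγ1 hν hν1 hx hy
  have h1 : dl γ ν (t * x) (t * y) = t ^ 2 * dl γ ν x y := by unfold dl; ring
  unfold fh
  rw [h1, ← mul_add, H2_smul ht (add_nonneg hx hy) hb.1 hb.2, Real.negMulLog_mul]
  ring

lemma fh_one {γ ν q : ℝ} : fh γ ν (1 - q) q = H2 1 (dl γ ν (1 - q) q) := by
  unfold fh
  rw [sub_add_cancel, Real.negMulLog_one, sub_zero]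

lemma wt_proj_diag {n : ℕ} (ψ : (Fin n → Fin 2) → ℂ) (i : Fin n → Fin 2) :
    (proj ψ i i).re = ‖ψ i‖ ^ 2 := by
  unfold proj
  rw [vecMulVec_apply, Pi.star_apply, ← Complex.normSq_eq_norm_sq]
  have : ψ i * star (ψ i) = ((Complex.normSq (ψ i) : ℝ) : ℂ) := by
    rw [← Complex.mul_conj]; rfl
  rw [this, Complex.ofReal_re]

theorem density_lower {γ ν : ℝ} (hγ : 0 ≤ γ) (hγ1 : γ ≤ 1) (hν : 0 ≤ ν) (hν1 : ν ≤ 1) (n : ℕ)
    (ρ : Matrix (Fin n → Fin 2) (Fin n → Fin 2) ℂ) (hρ : IsDensity ρ) :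
    ∑ s, H2 1 (dl γ ν (1 - pop ρ s) (pop ρ s)) ≤ H (tpow (gad γ ν) n ρ) := by
  obtain ⟨hpsd, htr⟩ := hρ
  have hH := hpsd.isHermitian
  obtain ⟨U, hU, hU', hd⟩ := exists_unitary_diag hH
  set lam := hH.eigenvalues with hlam
  have hlam0 : ∀ k, 0 ≤ lam k := fun k => hpsd.eigenvalues_nonneg k
  let φ : (Fin n → Fin 2) → (Fin n → Fin 2) → ℂ := fun k i => U i k
  have hdec : ρ = ∑ k, (lam k : ℂ) • proj (φ k) := by
    rw [hd]
    ext i j
    rw [Matrix.mul_apply, Matrix.sum_apply]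
    refine Finset.sum_congr rfl fun k _ => ?_
    rw [Matrix.mul_diagonal, Matrix.smul_apply, conjTranspose_apply]
    unfold proj
    rw [vecMulVec_apply, Pi.star_apply, smul_eq_mul]
    simp only [φ]
    ring
  have hnorm : ∀ k, ∑ i, ‖φ k i‖ ^ 2 = 1 := by
    intro k
    have h := congrFun (congrFun hU k) k
    rw [conjTranspose_mul_diag, Matrix.one_apply_eq] at h
    exact_mod_cast h
  have hlsum : ∑ k, lam k = 1 := by
    have h := hH.trace_eq_sum_eigenvalues
    rw [htr] at h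
    have h2 : ((∑ k, lam k : ℝ) : ℂ) = ((1 : ℝ) : ℂ) := by
      rw [Complex.ofReal_sum, Complex.ofReal_one]
      exact h.symm
    exact_mod_cast h2
  have hpsdk : ∀ k, (tpow (gad γ ν) n (proj (φ k))).PosSemidef := by
    intro k
    unfold proj
    rw [← env_mul_env hγ hγ1 hν hν1]
    exact posSemidef_self_mul_conjTranspose _
  have hconc := H_concave' lam hlam0 hlsum (fun k => tpow (gad γ ν) n (proj (φ k))) hpsdk
  have hlin : tpow (gad γ ν) n ρ = ∑ k, (lam k : ℂ) • tpow (gad γ ν) n (proj (φ k)) := by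
    let e := Fintype.equivFin (Fin n → Fin 2)
    have h1 := tpow_add (gad γ ν) (fun k => (lam (e.symm k) : ℂ)) (fun k => proj (φ (e.symm k)))
    rw [e.symm.sum_comp (fun a => (lam a : ℂ) • proj (φ a)),
      e.symm.sum_comp (fun a => (lam a : ℂ) • tpow (gad γ ν) n (proj (φ a)))] at h1
    rw [← h1, ← hdec]
  rw [hlin]
  refine le_trans ?_ hconc
  -- pops
  have hdiag : ∀ i, (ρ i i).re = ∑ k, lam k * ‖φ k i‖ ^ 2 := by
    intro i
    conv_lhs => rw [hdec]
    rw [Matrix.sum_apply, Complex.re_sum]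
    refine Finset.sum_congr rfl fun k _ => ?_
    rw [Matrix.smul_apply, smul_eq_mul, Complex.re_ofReal_mul, wt_proj_diag]
  have hpop : ∀ s, pop ρ s = ∑ k, lam k * wt (φ k) s 1 := by
    intro s
    unfold pop wt
    simp only [Finset.mul_sum]
    rw [Finset.sum_comm]
    refine Finset.sum_congr rfl fun i _ => ?_
    split_ifs with h
    · rw [hdiag]
    · simp
  have hwt : ∀ k s, wt (φ k) s 0 = 1 - wt (φ k) s 1 := by
    intro k s
    have h : wt (φ k) s 0 + wt (φ k) s 1 = 1 := by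
      rw [← hnorm k]
      unfold wt
      rw [← Finset.sum_add_distrib]
      refine Finset.sum_congr rfl fun i _ => ?_
      have h01 : i s = 0 ∨ i s = 1 := by omega
      rcases h01 with h0 | h1
      · rw [if_pos h0, if_neg (by rw [h0]; simp), add_zero]
      · rw [if_neg (by rw [h1]; simp), if_pos h1, zero_add]
    linarith
  have hpop0 : ∀ s, 1 - pop ρ s = ∑ k, lam k * wt (φ k) s 0 := by
    intro s
    simp only [hwt, mul_sub, mul_one, Finset.sum_sub_distrib, hlsum, hpop]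
  have hsingle : ∀ k, ∑ s, fh γ ν (wt (φ k) s 0) (wt (φ k) s 1) ≤
      H (tpow (gad γ ν) n (proj (φ k))) := by
    intro k
    have := main_ind hγ hγ1 hν hν1 n (φ k)
    rw [hnorm k, Real.negMulLog_one, sub_zero] at this
    exact this
  have hwn : ∀ k s c, 0 ≤ wt (φ k) s c := by
    intro k s c
    unfold wt
    refine Finset.sum_nonneg fun i _ => ?_
    split_ifs
    · exact sq_nonneg _
    · exact le_refl _
  calc ∑ s, H2 1 (dl γ ν (1 - pop ρ s) (pop ρ s)) =
      ∑ s, fh γ ν (∑ k, lam k * wt (φ k) s 0) (∑ k, lam k * wt (φ k) s 1) := by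
        refine Finset.sum_congr rfl fun s _ => ?_
        rw [← hpop0, ← hpop, fh_one]
    _ ≤ ∑ s, ∑ k, fh γ ν (lam k * wt (φ k) s 0) (lam k * wt (φ k) s 1) := by
        refine Finset.sum_le_sum fun s _ => ?_
        exact fh_subadd hγ hγ1 hν hν1 _ _ (fun k => mul_nonneg (hlam0 k) (hwn k s 0))
          (fun k => mul_nonneg (hlam0 k) (hwn k s 1))
    _ = ∑ k, lam k * ∑ s, fh γ ν (wt (φ k) s 0) (wt (φ k) s 1) := by
        rw [Finset.sum_comm]
        refine Finset.sum_congr rfl fun k _ => ?_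
        rw [Finset.mul_sum]
        refine Finset.sum_congr rfl fun s _ => ?_
        rw [fh_smul hγ hγ1 hν hν1 (hlam0 k) (hwn k s 0) (hwn k s 1)]
    _ ≤ ∑ k, lam k * H (tpow (gad γ ν) n (proj (φ k))) :=
        Finset.sum_le_sum fun k _ => mul_le_mul_of_nonneg_left (hsingle k) (hlam0 k)

end Vale.Agent.GAD
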