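import Vale.Agent.GAD.Defs

/-!
P358, part L: classical subadditivity of the Shannon entropy.
-/

namespace Vale.Agent.GAD

lemma gibbs_term {p q : ℝ} (hp : 0 ≤ p) (hq : 0 ≤ q) (h : 0 < p → 0 < q) :
    Real.negMulLog p ≤ -(p * Real.log q) + q - p := by
  rcases hp.eq_or_lt with h0 | h0
  · rw [← h0]
    simp [hq]
  · have hq0 := h h0
    have h1 := Real.log_le_sub_one_of_pos (div_pos hq0 h0)
    rw [Real.log_div hq0.ne' h0.ne'] at h1
    have h2 : p * (Real.log q - Real.log p) ≤ p * (q / p - 1) :=
      mul_le_mul_of_nonneg_left h1 h0.le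
    have h3 : p * (q / p - 1) = q - p := by field_simp
    rw [h3] at h2
    unfold Real.negMulLog
    linarith

theorem shannon {n : ℕ} (p : (Fin n → Fin 2) → ℝ) (hp : ∀ i, 0 ≤ p i) (h1 : ∑ i, p i = 1) :
    ∑ i, Real.negMulLog (p i) ≤
      ∑ s, Real.binEntropy (∑ i : Fin n → Fin 2, if i s = 1 then p i else 0) := by
  classical
  let r : Fin n → Fin 2 → ℝ := fun s c => ∑ i : Fin n → Fin 2, if i s = c then p i else 0
  have hr0 : ∀ s c, 0 ≤ r s c := fun s c => Finset.sum_nonneg fun i _ => by
    split_ifs
    · exact hp i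
    · exact le_refl _
  have hrsum : ∀ s, r s 0 + r s 1 = 1 := by
    intro s
    rw [← h1]
    simp only [r]
    rw [← Finset.sum_add_distrib]
    refine Finset.sum_congr rfl fun i _ => ?_
    have h01 : i s = 0 ∨ i s = 1 := by omega
    rcases h01 with h0 | h1
    · rw [if_pos h0, if_neg (by rw [h0]; simp), add_zero]
    · rw [if_neg (by rw [h1]; simp), if_pos h1, zero_add]
  have hrge : ∀ s i, p i ≤ r s (i s) := by
    intro s i
    simp only [r]
    have := Finset.single_le_sum (f := fun j : Fin n → Fin 2 => if j s = i s then p j else 0)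
      (fun j _ => by
        split_ifs
        · exact hp j
        · exact le_refl _) (Finset.mem_univ i)
    simpa using this
  let q : (Fin n → Fin 2) → ℝ := fun i => ∏ s, r s (i s)
  have hq0 : ∀ i, 0 ≤ q i := fun i => Finset.prod_nonneg fun s _ => hr0 _ _
  have hqpos : ∀ i, 0 < p i → 0 < q i := fun i hi =>
    Finset.prod_pos fun s _ => lt_of_lt_of_le hi (hrge s i)
  have hqsum : ∑ i, q i = 1 := by
    have h := Finset.prod_univ_sum (fun _ : Fin n => (Finset.univ : Finset (Fin 2))) r
    rw [Fintype.piFinset_univ] at h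
    simp only [q]
    rw [← h]
    refine Finset.prod_eq_one fun s _ => ?_
    rw [Fin.sum_univ_two]
    exact hrsum s
  have hstep : ∑ i, Real.negMulLog (p i) ≤ ∑ i, (-(p i * Real.log (q i)) + q i - p i) :=
    Finset.sum_le_sum fun i _ => gibbs_term (hp i) (hq0 i) (hqpos i)
  have hlogq : ∀ i, p i * Real.log (q i) = ∑ s, p i * Real.log (r s (i s)) := by
    intro i
    rcases (hp i).eq_or_lt with h0 | h0
    · rw [← h0]; simp
    · rw [← Finset.mul_sum]
      congr 1
      simp only [q]
      rw [Real.log_prod]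
      intro s _
      exact (lt_of_lt_of_le h0 (hrge s i)).ne'
  have hH : ∀ s, -∑ i, p i * Real.log (r s (i s)) =
      Real.binEntropy (∑ i : Fin n → Fin 2, if i s = 1 then p i else 0) := by
    intro s
    have e1 : ∑ i, p i * Real.log (r s (i s)) =
        r s 0 * Real.log (r s 0) + r s 1 * Real.log (r s 1) := by
      have : ∀ i : Fin n → Fin 2, p i * Real.log (r s (i s)) =
          (if i s = 0 then p i else 0) * Real.log (r s 0) +
          (if i s = 1 then p i else 0) * Real.log (r s 1) := by
        intro i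
        have h01 : i s = 0 ∨ i s = 1 := by omega
        rcases h01 with h0 | h1
        · rw [if_pos h0, if_neg (by rw [h0]; simp), h0]; ring
        · rw [if_neg (by rw [h1]; simp), if_pos h1, h1]; ring
      simp only [this]
      rw [Finset.sum_add_distrib, ← Finset.sum_mul, ← Finset.sum_mul]
    rw [e1]
    change _ = Real.binEntropy (r s 1)
    rw [Real.binEntropy_eq_negMulLog_add_negMulLog_one_sub]
    have h2 : 1 - r s 1 = r s 0 := by linarith [hrsum s]
    rw [h2]
    unfold Real.negMulLog
    ring
  calc ∑ i, Real.negMulLog (p i) ≤ ∑ i, (-(p i * Real.log (q i)) + q i - p i) := hstep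
    _ = -∑ i, ∑ s, p i * Real.log (r s (i s)) := by
        simp only [hlogq]
        rw [Finset.sum_sub_distrib, Finset.sum_add_distrib, hqsum, h1, Finset.sum_neg_distrib]
        ring
    _ = ∑ s, -∑ i, p i * Real.log (r s (i s)) := by
        rw [Finset.sum_comm, Finset.sum_neg_distrib]
    _ = _ := Finset.sum_congr rfl fun s _ => hH s

end Vale.Agent.GAD
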