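import Vale.Agent.GAD.PartA
import Vale.Agent.GAD.PartM

/-!
P358, part O: achievability.
-/

namespace Vale.Agent.GAD

open Matrix
open scoped ComplexOrder

theorem vnEntropy_eq {ι : Type} [Fintype ι] [DecidableEq ι] {A : Matrix ι ι ℂ}
    (hA : A.IsHermitian) : vnEntropy A = H A / Real.log 2 := by
  unfold vnEntropy
  rw [dif_pos hA, H_eq_eigenvalues hA]

/-- tensor product of `2 × 2` matrices -/
noncomputable def tens {n : ℕ} (A : Fin n → Matrix (Fin 2) (Fin 2) ℂ) :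
    Matrix (Fin n → Fin 2) (Fin n → Fin 2) ℂ :=
  Matrix.of fun i j => ∏ s, A s (i s) (j s)

theorem tens_mul {n : ℕ} (A B : Fin n → Matrix (Fin 2) (Fin 2) ℂ) :
    tens A * tens B = tens fun s => A s * B s := by
  ext i j
  rw [Matrix.mul_apply]
  simp only [tens, Matrix.of_apply, ← Finset.prod_mul_distrib]
  have h : ∀ s, (A s * B s) (i s) (j s) = ∑ c, A s (i s) c * B s c (j s) :=
    fun s => Matrix.mul_apply
  rw [Finset.prod_congr rfl fun s _ => h s, Finset.prod_univ_sum, Fintype.piFinset_univ]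

theorem tens_conjTranspose {n : ℕ} (A : Fin n → Matrix (Fin 2) (Fin 2) ℂ) :
    (tens A)ᴴ = tens fun s => (A s)ᴴ := by
  ext i j
  simp only [tens, Matrix.conjTranspose_apply, Matrix.of_apply, star_prod]

theorem tens_diagonal {n : ℕ} (d : Fin n → Fin 2 → ℝ) :
    tens (fun s => diagonal fun c => (d s c : ℂ)) =
      diagonal fun i => ((∏ s, d s (i s) : ℝ) : ℂ) := by
  ext i j
  simp only [tens, Matrix.of_apply]
  by_cases h : i = j
  · subst h
    simp
  · rw [Matrix.diagonal_apply_ne _ h]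
    obtain ⟨t, ht⟩ := Function.ne_iff.1 h
    exact Finset.prod_eq_zero (Finset.mem_univ t) (Matrix.diagonal_apply_ne _ ht)

theorem tens_one {n : ℕ} : tens (fun _ : Fin n => (1 : Matrix (Fin 2) (Fin 2) ℂ)) = 1 := by
  have h := tens_diagonal (n := n) (fun _ _ => 1)
  simpa using h

theorem sum_prod_fin {R : Type} [CommSemiring R] {n : ℕ} (d : Fin n → Fin 2 → R) :
    ∑ i : Fin n → Fin 2, ∏ s, d s (i s) = ∏ s, ∑ c, d s c := by
  rw [Finset.prod_univ_sum, Fintype.piFinset_univ]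

theorem sum_cons {M : Type} [AddCommMonoid M] {n : ℕ} (f : (Fin (n + 1) → Fin 2) → M) :
    ∑ k, f k = ∑ a : Fin 2, ∑ k : Fin n → Fin 2, f (Fin.cons a k) := by
  rw [← Fintype.sum_prod_type']
  exact (Fintype.sum_equiv (Fin.consEquiv (fun _ => Fin 2)) _ _ (fun _ => rfl)).symm

theorem sum_negMulLog_prod (n : ℕ) (d : Fin n → Fin 2 → ℝ) (h : ∀ s, ∑ c, d s c = 1) :
    ∑ i : Fin n → Fin 2, Real.negMulLog (∏ s, d s (i s)) =
      ∑ s, ∑ c, Real.negMulLog (d s c) := by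
  induction n with
  | zero => simp
  | succ n ih =>
    have ih' := ih (fun s => d s.succ) (fun s => h s.succ)
    rw [sum_cons, Fin.sum_univ_succ (f := fun s => ∑ c, Real.negMulLog (d s c)), ← ih']
    have h1 : ∀ (a : Fin 2) (k : Fin n → Fin 2),
        Real.negMulLog (∏ s, d s ((Fin.cons a k : Fin (n + 1) → Fin 2) s)) =
        (∏ s : Fin n, d s.succ (k s)) * Real.negMulLog (d 0 a) +
          d 0 a * Real.negMulLog (∏ s : Fin n, d s.succ (k s)) := by
      intro a k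
      rw [Fin.prod_univ_succ]
      simp only [Fin.cons_zero, Fin.cons_succ]
      rw [Real.negMulLog_mul]
    rw [Finset.sum_congr rfl fun a _ => Finset.sum_congr rfl fun k _ => h1 a k]
    simp only [Finset.sum_add_distrib, ← Finset.sum_mul, ← Finset.mul_sum]
    have h2 : ∑ i : Fin n → Fin 2, ∏ s : Fin n, d s.succ (i s) = 1 := by
      rw [sum_prod_fin (fun s => d s.succ)]
      exact Finset.prod_eq_one fun s _ => h s.succ
    rw [h2, h 0]
    ring

theorem H_tens {n : ℕ} (A : Fin n → Matrix (Fin 2) (Fin 2) ℂ) (hA : ∀ s, (A s).IsHermitian)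
    (ht : ∀ s, (A s).trace = 1) : H (tens A) = ∑ s, H (A s) := by
  choose U hU hU' hd using fun s => exists_unitary_diag (hA s)
  have h1 : tens A = tens U * tens (fun s => diagonal fun c => ((hA s).eigenvalues c : ℂ)) *
      (tens U)ᴴ := by
    rw [tens_conjTranspose, tens_mul, tens_mul]
    congr 1
    funext s
    exact hd s
  have h2 : (tens U)ᴴ * tens U = 1 := by
    rw [tens_conjTranspose, tens_mul, ← tens_one]
    congr 1
    funext s
    exact hU s
  have h3 : ∀ s, ∑ c, (hA s).eigenvalues c = 1 := by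
    intro s
    have h4 := (hA s).trace_eq_sum_eigenvalues
    rw [ht s] at h4
    have h5 := congrArg Complex.re h4
    rw [Complex.re_sum] at h5
    simpa using h5.symm
  rw [h1, H_unitary h2, tens_diagonal, H_diagonal, sum_negMulLog_prod _ _ h3]
  refine Finset.sum_congr rfl fun s _ => ?_
  rw [H_eq_eigenvalues (hA s)]

theorem gad_eq_sum (γ ν : ℝ) (A : Matrix (Fin 2) (Fin 2) ℂ) (c d : Fin 2) :
    ∑ a, ∑ b, gad γ ν (Matrix.single a b 1) c d * A a b = gad γ ν A c d := by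
  rw [Fin.sum_univ_two, Fin.sum_univ_two, Fin.sum_univ_two]
  fin_cases c <;> fin_cases d <;> simp [gad, Matrix.single]

theorem tpow_tens (γ ν : ℝ) {n : ℕ} (A : Fin n → Matrix (Fin 2) (Fin 2) ℂ) :
    tpow (gad γ ν) n (tens A) = tens fun s => gad γ ν (A s) := by
  ext i j
  unfold tpow tens
  simp only [Matrix.of_apply]
  rw [Finset.prod_congr rfl fun s _ => (gad_eq_sum γ ν (A s) (i s) (j s)).symm,
    Finset.prod_univ_sum, Fintype.piFinset_univ]
  refine Finset.sum_congr rfl fun k _ => ?_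
  rw [Finset.prod_univ_sum, Fintype.piFinset_univ]
  refine Finset.sum_congr rfl fun l _ => ?_
  rw [Finset.prod_mul_distrib]

theorem gad_posSemidef {γ ν : ℝ} (hγ : 0 ≤ γ) (hγ1 : γ ≤ 1) (hν : 0 ≤ ν) (hν1 : ν ≤ 1)
    {A : Matrix (Fin 2) (Fin 2) ℂ} (hA : A.PosSemidef) : (gad γ ν A).PosSemidef := by
  have h : gad γ ν A = ∑ k, kraus γ ν k * A * (kraus γ ν k)ᴴ := by
    ext c d
    rw [← gad_eq_sum, Matrix.sum_apply]
    have h1 : ∀ k, (kraus γ ν k * A * (kraus γ ν k)ᴴ) c d =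
        ∑ b, ∑ a, kraus γ ν k c a * (starRingEnd ℂ) (kraus γ ν k d b) * A a b := by
      intro k
      rw [Matrix.mul_apply]
      refine Finset.sum_congr rfl fun b _ => ?_
      rw [Matrix.mul_apply, Matrix.conjTranspose_apply, Finset.sum_mul]
      refine Finset.sum_congr rfl fun a _ => ?_
      rw [← starRingEnd_apply]
      ring
    rw [Finset.sum_congr rfl fun k _ => h1 k]
    have h2 : ∀ a b, gad γ ν (Matrix.single a b 1) c d * A a b =
        ∑ k, kraus γ ν k c a * (starRingEnd ℂ) (kraus γ ν k d b) * A a b := by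
      intro a b
      rw [← kraus_sum hγ hγ1 hν hν1, Finset.sum_mul]
    rw [Finset.sum_congr rfl fun a _ => Finset.sum_congr rfl fun b _ => h2 a b,
      Finset.sum_comm, Finset.sum_comm (s := Finset.univ (α := Fin 4))]
    refine Finset.sum_congr rfl fun b _ => ?_
    rw [Finset.sum_comm]
  rw [h]
  exact Matrix.posSemidef_sum _ fun k _ => hA.mul_mul_conjTranspose_same _

/-- the vector `√(1-q) |0⟩ ± √q |1⟩` -/
noncomputable def ovec (q : ℝ) (σ : Fin 2) : Fin 2 → ℂ :=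
  ![((Real.sqrt (1 - q) : ℝ) : ℂ), (if σ = 0 then 1 else -1) * ((Real.sqrt q : ℝ) : ℂ)]

noncomputable def omat (q : ℝ) (σ : Fin 2) : Matrix (Fin 2) (Fin 2) ℂ :=
  vecMulVec (ovec q σ) (star (ovec q σ))

theorem omat_posSemidef (q : ℝ) (σ : Fin 2) : (omat q σ).PosSemidef :=
  Matrix.posSemidef_vecMulVec_self_star _

theorem omat_entries {q : ℝ} (hq : q ∈ Set.Icc (0 : ℝ) 1) (σ : Fin 2) :
    omat q σ 0 0 = ((1 - q : ℝ) : ℂ) ∧ omat q σ 1 1 = ((q : ℝ) : ℂ) ∧
    omat q σ 0 1 = (if σ = 0 then 1 else -1) * ((Real.sqrt (q * (1 - q)) : ℝ) : ℂ) ∧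
    omat q σ 1 0 = (if σ = 0 then 1 else -1) * ((Real.sqrt (q * (1 - q)) : ℝ) : ℂ) := by
  have h1 : ((Real.sqrt (1 - q) : ℝ) : ℂ) * ((Real.sqrt (1 - q) : ℝ) : ℂ) = 1 - q := by
    rw [← Complex.ofReal_mul, Real.mul_self_sqrt (by linarith [hq.2])]
    push_cast
    ring
  have h2 : ((Real.sqrt q : ℝ) : ℂ) * ((Real.sqrt q : ℝ) : ℂ) = q := by
    rw [← Complex.ofReal_mul, Real.mul_self_sqrt hq.1]
  have h3 : ((Real.sqrt (q * (1 - q)) : ℝ) : ℂ) =
      ((Real.sqrt q : ℝ) : ℂ) * ((Real.sqrt (1 - q) : ℝ) : ℂ) := by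
    rw [Real.sqrt_mul hq.1, Complex.ofReal_mul]
  fin_cases σ <;> simp [omat, ovec, vecMulVec_apply, h1, h2, h3] <;> ring

theorem omat_trace {q : ℝ} (hq : q ∈ Set.Icc (0 : ℝ) 1) (σ : Fin 2) : (omat q σ).trace = 1 := by
  obtain ⟨h1, h2, -, -⟩ := omat_entries hq σ
  rw [Matrix.trace_fin_two, h1, h2]
  push_cast
  ring

theorem gad_omat_trace (γ ν : ℝ) {q : ℝ} (hq : q ∈ Set.Icc (0 : ℝ) 1) (σ : Fin 2) :
    (gad γ ν (omat q σ)).trace = 1 := by
  obtain ⟨h1, h2, -, -⟩ := omat_entries hq σ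
  rw [Matrix.trace_fin_two]
  simp only [gad, Matrix.of_apply, Matrix.cons_val', Matrix.cons_val_zero, Matrix.cons_val_one,
    Matrix.cons_val_fin_one, h1, h2]
  push_cast
  ring

theorem gad_omat_det {γ ν : ℝ} (hγ1 : γ ≤ 1) {q : ℝ} (hq : q ∈ Set.Icc (0 : ℝ) 1) (σ : Fin 2) :
    (gad γ ν (omat q σ)).det = ((dl γ ν (1 - q) q : ℝ) : ℂ) := by
  obtain ⟨h1, h2, h3, h4⟩ := omat_entries hq σ
  rw [Matrix.det_fin_two]
  simp only [gad, Matrix.of_apply, Matrix.cons_val', Matrix.cons_val_zero, Matrix.cons_val_one,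
    Matrix.cons_val_fin_one, h1, h2, h3, h4]
  have e1 : ((Real.sqrt (1 - γ) : ℝ) : ℂ) * ((Real.sqrt (1 - γ) : ℝ) : ℂ) = 1 - γ := by
    rw [← Complex.ofReal_mul, Real.mul_self_sqrt (by linarith)]
    push_cast
    ring
  have e2 : ((Real.sqrt (q * (1 - q)) : ℝ) : ℂ) * ((Real.sqrt (q * (1 - q)) : ℝ) : ℂ) =
      q * (1 - q) := by
    rw [← Complex.ofReal_mul, Real.mul_self_sqrt (mul_nonneg hq.1 (by linarith [hq.2]))]
    push_cast
    ring
  have e3 : ((if σ = 0 then 1 else -1 : ℂ)) * (if σ = 0 then 1 else -1) = 1 := by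
    split_ifs <;> ring
  set u : ℂ := if σ = 0 then 1 else -1
  set A := ((Real.sqrt (1 - γ) : ℝ) : ℂ)
  set B := ((Real.sqrt (q * (1 - q)) : ℝ) : ℂ)
  unfold dl
  push_cast
  linear_combination (-(A * A * (B * B))) * e3 - B * B * e1 - (1 - γ : ℂ) * e2

theorem H_gad_omat {γ ν : ℝ} (hγ : 0 ≤ γ) (hγ1 : γ ≤ 1) (hν : 0 ≤ ν) (hν1 : ν ≤ 1) {q : ℝ}
    (hq : q ∈ Set.Icc (0 : ℝ) 1) (σ : Fin 2) :
    H (gad γ ν (omat q σ)) = H2 1 (dl γ ν (1 - q) q) := by
  rw [H_fin_two (gad_posSemidef hγ hγ1 hν hν1 (omat_posSemidef q σ)), gad_omat_trace γ ν hq,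
    gad_omat_det hγ1 hq]
  simp

theorem tens_omat_density {n : ℕ} {q : ℝ} (hq : q ∈ Set.Icc (0 : ℝ) 1) (σ : Fin n → Fin 2) :
    IsDensity (tens fun s => omat q (σ s)) := by
  constructor
  · have h : (tens fun s => omat q (σ s)) =
        vecMulVec (fun i : Fin n → Fin 2 => ∏ s, ovec q (σ s) (i s))
          (star fun i : Fin n → Fin 2 => ∏ s, ovec q (σ s) (i s)) := by
      ext i j
      simp only [tens, omat, Matrix.of_apply, vecMulVec_apply, Pi.star_apply, star_prod,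
        Finset.prod_mul_distrib]
    rw [h]
    exact Matrix.posSemidef_vecMulVec_self_star _
  · have h : (tens fun s => omat q (σ s)).trace =
        ∑ i : Fin n → Fin 2, ∏ s, (fun c => omat q (σ s) c c) (i s) := rfl
    rw [h, sum_prod_fin (fun s c => omat q (σ s) c c)]
    refine Finset.prod_eq_one fun s _ => ?_
    exact omat_trace hq (σ s)

theorem avg_gad_omat (γ ν : ℝ) {q : ℝ} (hq : q ∈ Set.Icc (0 : ℝ) 1) (c d : Fin 2) :
    ∑ σ, (1 / 2 : ℂ) * gad γ ν (omat q σ) c d =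
      (diagonal fun c : Fin 2 => ((![1 - ((1 - γ) * q + γ * ν), (1 - γ) * q + γ * ν] c : ℝ) : ℂ))
        c d := by
  obtain ⟨h1, h2, h3, h4⟩ := omat_entries hq 0
  obtain ⟨g1, g2, g3, g4⟩ := omat_entries hq 1
  rw [Fin.sum_univ_two]
  fin_cases c <;> fin_cases d <;>
    simp [gad, h1, h2, h3, h4, g1, g2, g3, g4]
  · ring
  · ring

theorem lower {γ ν : ℝ} (hγ : 0 ≤ γ) (hγ1 : γ ≤ 1) (hν : 0 ≤ ν) (hν1 : ν ≤ 1) (n : ℕ) {q : ℝ}
    (hq : q ∈ Set.Icc (0 : ℝ) 1) :
    ∃ x ∈ holevoSet γ ν n, n * (rate γ ν q / Real.log 2) ≤ x := by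
  let e := Fintype.equivFin (Fin n → Fin 2)
  let ρ : Fin (Fintype.card (Fin n → Fin 2)) → Matrix (Fin n → Fin 2) (Fin n → Fin 2) ℂ :=
    fun a => tens fun s => omat q (e.symm a s)
  have hpos : ∀ σ : Fin n → Fin 2, (tens fun s => gad γ ν (omat q (σ s))).PosSemidef := by
    intro σ
    rw [← tpow_tens]
    exact tpow_posSemidef hγ hγ1 hν hν1 (tens_omat_density hq σ).1
  have hcard : ∑ σ : Fin n → Fin 2, ((1 : ℝ) / 2) ^ n = 1 := by
    rw [Finset.sum_const, Finset.card_univ, Fintype.card_fun, Fintype.card_fin, Fintype.card_fin,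
      nsmul_eq_mul]
    push_cast
    rw [← mul_pow]
    norm_num
  refine ⟨_, ⟨Fintype.card (Fin n → Fin 2), fun _ => (1 / 2) ^ n, ρ, fun _ => by positivity, ?_,
    fun a => tens_omat_density hq _, rfl⟩, ?_⟩
  · exact (Equiv.sum_comp e.symm (fun _ => ((1 : ℝ) / 2) ^ n)).trans hcard
  · have h1 : ∀ a, vnEntropy (tpow (gad γ ν) n (ρ a)) =
        n * H2 1 (dl γ ν (1 - q) q) / Real.log 2 := by
      intro a
      simp only [ρ]
      rw [tpow_tens, vnEntropy_eq (hpos _).isHermitian, H_tens _ (fun s =>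
        (gad_posSemidef hγ hγ1 hν hν1 (omat_posSemidef q _)).isHermitian)
        (fun s => gad_omat_trace γ ν hq _)]
      rw [Finset.sum_congr rfl fun s _ => H_gad_omat hγ hγ1 hν hν1 hq _]
      simp
    have h2 : ∑ a, (((1 / 2 : ℝ) ^ n : ℝ) : ℂ) • tpow (gad γ ν) n (ρ a) =
        tens fun _ => diagonal fun c : Fin 2 =>
          ((![1 - ((1 - γ) * q + γ * ν), (1 - γ) * q + γ * ν] c : ℝ) : ℂ) := by
      have h3 : ∑ a, (((1 / 2 : ℝ) ^ n : ℝ) : ℂ) • tpow (gad γ ν) n (ρ a) =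
          ∑ σ : Fin n → Fin 2, (((1 / 2 : ℝ) ^ n : ℝ) : ℂ) •
            tens fun s => gad γ ν (omat q (σ s)) := by
        rw [← Equiv.sum_comp e.symm]
        refine Finset.sum_congr rfl fun a _ => ?_
        simp only [ρ]
        rw [tpow_tens]
      rw [h3]
      ext i j
      rw [Matrix.sum_apply]
      simp only [tens, Matrix.smul_apply, Matrix.of_apply, smul_eq_mul]
      rw [Finset.prod_congr rfl fun s _ => (avg_gad_omat γ ν hq (i s) (j s)).symm,
        Finset.prod_univ_sum, Fintype.piFinset_univ]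
      refine Finset.sum_congr rfl fun σ _ => ?_
      rw [Finset.prod_mul_distrib]
      simp
    have hdH : (diagonal fun i : Fin n → Fin 2 =>
        ((∏ s, (fun (_ : Fin n) (c : Fin 2) =>
          ![1 - ((1 - γ) * q + γ * ν), (1 - γ) * q + γ * ν] c) s (i s) : ℝ) : ℂ)).IsHermitian := by
      rw [Matrix.isHermitian_diagonal_iff]
      intro i
      exact Complex.conj_ofReal _
    rw [h2, tens_diagonal (fun _ c => ![1 - ((1 - γ) * q + γ * ν), (1 - γ) * q + γ * ν] c),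
      vnEntropy_eq hdH, H_diagonal, sum_negMulLog_prod _ _ (fun s => by
        rw [Fin.sum_univ_two]
        simp)]
    have h5 : ∑ a : Fin (Fintype.card (Fin n → Fin 2)), ((1 : ℝ) / 2) ^ n = 1 :=
      (Equiv.sum_comp e.symm (fun _ => ((1 : ℝ) / 2) ^ n)).trans hcard
    have h6 : ∑ a : Fin (Fintype.card (Fin n → Fin 2)),
        (fun _ => ((1 : ℝ) / 2) ^ n) a * vnEntropy (tpow (gad γ ν) n (ρ a)) =
        n * H2 1 (dl γ ν (1 - q) q) / Real.log 2 := by
      rw [Finset.sum_congr rfl fun a _ => by rw [h1 a], ← Finset.sum_mul, h5, one_mul]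
    rw [h6]
    unfold rate
    rw [Real.binEntropy_eq_negMulLog_add_negMulLog_one_sub]
    simp only [Fin.sum_univ_two, Matrix.cons_val_zero, Matrix.cons_val_one, Finset.sum_const,
      Finset.card_univ, Fintype.card_fin, nsmul_eq_mul, Matrix.cons_val_fin_one]
    apply le_of_eq
    ring

end Vale.Agent.GAD
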