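import Vale.Agent.GAD.PartB
import Vale.Agent.GAD.PartJ
import Vale.Agent.GAD.PartL
import Vale.Agent.GAD.PartM
import Vale.Agent.GAD.PartO

/-!
P358, part U: the upper bound.
-/

namespace Vale.Agent.GAD

open Matrix
open scoped ComplexOrder

lemma pop_nonneg {n : ℕ} {ρ : Matrix (Fin n → Fin 2) (Fin n → Fin 2) ℂ} (hρ : ρ.PosSemidef)
    (s : Fin n) : 0 ≤ pop ρ s := by
  unfold pop
  refine Finset.sum_nonneg fun i _ => ?_
  split_ifs
  · exact (Complex.nonneg_iff.1 (hρ.diag_nonneg (i := i))).1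
  · exact le_refl _

lemma pop_le_one {n : ℕ} {ρ : Matrix (Fin n → Fin 2) (Fin n → Fin 2) ℂ} (hρ : IsDensity ρ)
    (s : Fin n) : pop ρ s ≤ 1 := by
  have h1 : ∑ i, (ρ i i).re = 1 := by
    have := congrArg Complex.re hρ.2
    rw [Matrix.trace, Complex.re_sum, Complex.one_re] at this
    exact this
  rw [← h1]
  unfold pop
  refine Finset.sum_le_sum fun i _ => ?_
  split_ifs
  · exact le_refl _
  · exact (Complex.nonneg_iff.1 (hρ.1.diag_nonneg (i := i))).1

lemma density_comb {n m : ℕ} {p : Fin m → ℝ} (hp : ∀ a, 0 ≤ p a) (h1 : ∑ a, p a = 1)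
    {ρ : Fin m → Matrix (Fin n → Fin 2) (Fin n → Fin 2) ℂ} (hρ : ∀ a, IsDensity (ρ a)) :
    IsDensity (∑ a, (p a : ℂ) • ρ a) := by
  refine ⟨?_, ?_⟩
  · refine Matrix.posSemidef_sum _ fun a _ => ?_
    exact (hρ a).1.smul (by exact_mod_cast hp a)
  · rw [Matrix.trace_sum]
    simp only [Matrix.trace_smul, (hρ _).2, smul_eq_mul, mul_one]
    exact_mod_cast h1

lemma pop_comb {n m : ℕ} (p : Fin m → ℝ)
    (ρ : Fin m → Matrix (Fin n → Fin 2) (Fin n → Fin 2) ℂ) (s : Fin n) :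
    pop (∑ a, (p a : ℂ) • ρ a) s = ∑ a, p a * pop (ρ a) s := by
  unfold pop
  simp only [Finset.mul_sum]
  rw [Finset.sum_comm]
  refine Finset.sum_congr rfl fun i _ => ?_
  split_ifs
  · rw [Matrix.sum_apply, Complex.re_sum]
    refine Finset.sum_congr rfl fun a _ => ?_
    rw [Matrix.smul_apply, smul_eq_mul, Complex.re_ofReal_mul]
  · simp

theorem upper {γ ν : ℝ} (hγ : 0 ≤ γ) (hγ1 : γ ≤ 1) (hν : 0 ≤ ν) (hν1 : ν ≤ 1) (n : ℕ) {x R : ℝ}
    (hx : x ∈ holevoSet γ ν n) (hR : ∀ q ∈ Set.Icc (0 : ℝ) 1, rate γ ν q ≤ R) :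
    x ≤ n * (R / Real.log 2) := by
  obtain ⟨m, p, ρ, hp, h1, hρ, rfl⟩ := hx
  have hN : ∀ a, (tpow (gad γ ν) n (ρ a)).PosSemidef := fun a =>
    tpow_posSemidef hγ hγ1 hν hν1 (hρ a).1
  have hbar := density_comb hp h1 hρ
  set ρb := ∑ a, (p a : ℂ) • ρ a with hρb
  have hadd : ∑ a, (p a : ℂ) • tpow (gad γ ν) n (ρ a) = tpow (gad γ ν) n ρb := by
    rw [hρb, tpow_add]
  have hNb : (tpow (gad γ ν) n ρb).PosSemidef := tpow_posSemidef hγ hγ1 hν hν1 hbar.1
  rw [hadd, vnEntropy_eq hNb.isHermitian]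
  simp only [vnEntropy_eq (hN _).isHermitian]
  have hlog2 : 0 < Real.log 2 := Real.log_pos (by norm_num)
  -- upper bound for the output of the average
  have hup : H (tpow (gad γ ν) n ρb) ≤
      ∑ s, Real.binEntropy ((1 - γ) * pop ρb s + γ * ν) := by
    have htr : ∑ i, ((tpow (gad γ ν) n ρb) i i).re = 1 := by
      have := congrArg Complex.re (tpow_trace (γ := γ) (ν := ν) n ρb)
      rw [hbar.2, Matrix.trace, Complex.re_sum, Complex.one_re] at this
      exact this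
    have h2 := shannon (fun i => ((tpow (gad γ ν) n ρb) i i).re)
      (fun i => (Complex.nonneg_iff.1 (hNb.diag_nonneg (i := i))).1) htr
    refine (H_le_diag hNb).trans (h2.trans (le_of_eq ?_))
    refine Finset.sum_congr rfl fun s _ => ?_
    rw [← pop_tpow ρb hbar.2 s]
    rfl
  -- lower bound for the outputs
  have hpop : ∀ s, pop ρb s = ∑ a, p a * pop (ρ a) s := fun s => pop_comb p ρ s
  have hpop0 : ∀ s, 1 - pop ρb s = ∑ a, p a * (1 - pop (ρ a) s) := by
    intro s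
    simp only [mul_sub, mul_one, Finset.sum_sub_distrib, h1, hpop]
  have hlow : ∑ s, H2 1 (dl γ ν (1 - pop ρb s) (pop ρb s)) ≤
      ∑ a, p a * H (tpow (gad γ ν) n (ρ a)) := by
    calc ∑ s, H2 1 (dl γ ν (1 - pop ρb s) (pop ρb s)) =
        ∑ s, fh γ ν (∑ a, p a * (1 - pop (ρ a) s)) (∑ a, p a * pop (ρ a) s) := by
          refine Finset.sum_congr rfl fun s _ => ?_
          rw [← hpop0, ← hpop, fh_one]
      _ ≤ ∑ s, ∑ a, fh γ ν (p a * (1 - pop (ρ a) s)) (p a * pop (ρ a) s) := by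
          refine Finset.sum_le_sum fun s _ => ?_
          exact fh_subadd hγ hγ1 hν hν1 _ _
            (fun a => mul_nonneg (hp a) (by linarith [pop_le_one (hρ a) s]))
            (fun a => mul_nonneg (hp a) (pop_nonneg (hρ a).1 s))
      _ = ∑ a, p a * ∑ s, H2 1 (dl γ ν (1 - pop (ρ a) s) (pop (ρ a) s)) := by
          rw [Finset.sum_comm]
          refine Finset.sum_congr rfl fun a _ => ?_
          rw [Finset.mul_sum]
          refine Finset.sum_congr rfl fun s _ => ?_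
          rw [fh_smul hγ hγ1 hν hν1 (hp a) (by linarith [pop_le_one (hρ a) s])
            (pop_nonneg (hρ a).1 s), fh_one]
      _ ≤ _ := Finset.sum_le_sum fun a _ =>
          mul_le_mul_of_nonneg_left (density_lower hγ hγ1 hν hν1 n (ρ a) (hρ a)) (hp a)
  have hsum : H (tpow (gad γ ν) n ρb) - ∑ a, p a * H (tpow (gad γ ν) n (ρ a)) ≤ n * R := by
    have h3 : ∑ s : Fin n, rate γ ν (pop ρb s) ≤ ∑ _s : Fin n, R :=
      Finset.sum_le_sum fun s _ => hR _ ⟨pop_nonneg hbar.1 s, pop_le_one hbar s⟩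
    rw [Finset.sum_const, Finset.card_univ, Fintype.card_fin, nsmul_eq_mul] at h3
    unfold rate at h3
    rw [Finset.sum_sub_distrib] at h3
    linarith
  have e1 : ∑ a, p a * (H (tpow (gad γ ν) n (ρ a)) / Real.log 2) =
      (∑ a, p a * H (tpow (gad γ ν) n (ρ a))) / Real.log 2 := by
    rw [Finset.sum_div]
    refine Finset.sum_congr rfl fun a _ => ?_
    ring
  rw [e1, ← sub_div, ← mul_div_assoc]
  exact div_le_div_of_nonneg_right hsum hlog2.le

end Vale.Agent.GAD
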