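import Vale.Agent.GAD.PartO
import Vale.Agent.GAD.PartU

/-!
P358, part Z: the capacity.
-/

namespace Vale.Agent.GAD

open Matrix
open scoped ComplexOrder

theorem H2_cont_comp {T d : ℝ → ℝ} (hT : Continuous T) (hd : Continuous d) :
    Continuous fun q => H2 (T q) (d q) := by
  unfold H2
  have h1 : Continuous fun q => Real.sqrt (T q ^ 2 - 4 * d q) :=
    ((hT.pow 2).sub (hd.const_mul 4)).sqrt
  exact (Real.continuous_negMulLog.comp ((hT.add h1).div_const 2)).add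
    (Real.continuous_negMulLog.comp ((hT.sub h1).div_const 2))

theorem rate_continuous (γ ν : ℝ) : Continuous (rate γ ν) := by
  unfold rate
  refine Continuous.sub ?_ ?_
  · exact Real.binEntropy_continuous.comp (by fun_prop)
  · refine H2_cont_comp continuous_const ?_
    unfold dl
    fun_prop

theorem final {γ ν : ℝ} (hγ : 0 ≤ γ) (hγ1 : γ ≤ 1) (hν : 0 ≤ ν) (hν1 : ν ≤ 1) :
    ∃ χ : ℝ, IsGreatest ((fun q => rate γ ν q / Real.log 2) '' Set.Icc 0 1) χ ∧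
      (∀ n : ℕ, 1 ≤ n → IsLUB (holevoSet γ ν n) (n * χ)) ∧
      IsLUB {x | ∃ n : ℕ, 1 ≤ n ∧ ∃ c, IsLUB (holevoSet γ ν n) c ∧ x = c / n} χ := by
  have hlog2 : 0 < Real.log 2 := Real.log_pos (by norm_num)
  obtain ⟨q, hq, hmax⟩ := isCompact_Icc.exists_isMaxOn (Set.nonempty_Icc.2 zero_le_one)
    (rate_continuous γ ν).continuousOn (s := Set.Icc (0 : ℝ) 1)
  have hmax' : ∀ t ∈ Set.Icc (0 : ℝ) 1, rate γ ν t ≤ rate γ ν q := fun t ht => hmax ht
  have hlub : ∀ n : ℕ, IsLUB (holevoSet γ ν n) (n * (rate γ ν q / Real.log 2)) := by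
    intro n
    refine ⟨fun x hx => upper hγ hγ1 hν hν1 n hx hmax', fun b hb => ?_⟩
    obtain ⟨x, hx, hle⟩ := lower hγ hγ1 hν hν1 n hq
    exact hle.trans (hb hx)
  refine ⟨rate γ ν q / Real.log 2, ⟨⟨q, hq, rfl⟩, ?_⟩, fun n _ => hlub n, ?_, ?_⟩
  · rintro _ ⟨t, ht, rfl⟩
    exact div_le_div_of_nonneg_right (hmax' t ht) hlog2.le
  · rintro x ⟨n, hn, c, hc, rfl⟩
    have hn0 : (0 : ℝ) < n := by exact_mod_cast hn
    rw [hc.unique (hlub n), mul_div_cancel_left₀ _ hn0.ne']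
  · intro b hb
    refine hb ⟨1, le_refl 1, _, hlub 1, ?_⟩
    rw [Nat.cast_one, one_mul, div_one]

end Vale.Agent.GAD
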